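import Vale.Agent.P317.Spec

/-!
Small shared facts.
-/

namespace Vale.Agent.P317

open Finset
open Vale.Agent.P328 (Ex val)
open Vale.Agent.P328.Lw

section

variable {E : Type} [Fintype E] [DecidableEq E]

omit [Fintype E] in
theorem cnt_le (S : Finset (E × Bool)) (e : E) : cnt S e ≤ 2 := by
  unfold cnt; split_ifs <;> omega

theorem sum_mem (S : Finset (E × Bool)) (f : E × Bool → ℝ) : ∑ c ∈ S, f c =
    ∑ e, ((if (e, false) ∈ S then f (e, false) else 0) + if (e, true) ∈ S then f (e, true) else 0) := by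
  rw [← univ_inter S, ← sum_ite_mem, Fintype.sum_prod_type]
  simp only [Fintype.sum_bool, univ_inter]
  exact sum_congr rfl fun e _ => add_comm _ _

theorem sum_fst (S : Finset (E × Bool)) (f : E → ℤ) : ∑ c ∈ S, f c.1 = ∑ e, f e * cnt S e := by
  rw [← univ_inter S, ← sum_ite_mem, Fintype.sum_prod_type]
  simp only [Fintype.sum_bool, univ_inter, cnt]
  refine sum_congr rfl fun e _ => ?_
  split_ifs <;> simp
  ring

theorem sum_cnt (S : Finset (E × Bool)) : ∑ e, cnt S e = S.card := by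
  have := sum_fst S fun _ => 1
  simp only [sum_const, nsmul_eq_mul, mul_one, one_mul] at this
  exact_mod_cast this.symm

theorem Fam.sum_g {B : Finset (Finset (E × Bool))} (h : Fam B) {S : Finset (E × Bool)}
    (hS : S ∈ B) : ∑ e, ((cnt S e : ℤ) - 1) = 0 := by
  have h1 := sum_cnt S
  rw [h.card S hS] at h1
  rw [sum_sub_distrib, ← Nat.cast_sum, h1]
  simp

omit [DecidableEq E] in
theorem zpow_sum' {γ : ℝ} (h : γ ≠ 0) (s : Finset E) (f : E → ℤ) :
    γ ^ (∑ e ∈ s, f e) = ∏ e ∈ s, γ ^ f e := by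
  classical
  induction s using Finset.induction_on with
  | empty => simp
  | insert a s ha ih => rw [sum_insert ha, prod_insert ha, zpow_add₀ h, ih]

theorem gam_W {γ : ℝ} (h : γ ≠ 0) (j : ℕ) (k : E → ℤ) (S : Finset (E × Bool)) :
    γ ^ W j k S = wt (fun e => γ ^ ((j : ℤ) - k e)) (fun e => γ ^ ((j : ℤ) + k e)) S := by
  rw [W, zpow_sum' h, wt]
  refine prod_congr rfl fun e _ => ?_
  have := cnt_le S e
  split_ifs with h0 h1
  · rw [h0]; congr 1; simp; ring
  · rw [h1]; simp
  · rw [show cnt S e = 2 by omega]; congr 1; norm_num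

theorem W_tr (j : ℕ) (k : E → ℤ) {S : Finset (E × Bool)} (h : Tr S) : W j k S = 0 :=
  sum_eq_zero fun e _ => by rw [h e]; simp

theorem wt_tr (lo hi : E → ℝ) {S : Finset (E × Bool)} (h : Tr S) : wt lo hi S = 1 :=
  prod_eq_one fun e _ => by rw [h e]; simp

theorem wt_pos {lo hi : E → ℝ} (h1 : ∀ e, 0 < lo e) (h2 : ∀ e, 0 < hi e)
    (S : Finset (E × Bool)) : 0 < wt lo hi S :=
  prod_pos fun e _ => by
    split_ifs
    exacts [h1 e, one_pos, h2 e]

omit [Fintype E] in
theorem mem_sw {S : Finset (E × Bool)} {c d x : E × Bool} :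
    x ∈ sw S c d ↔ x = d ∨ (x ≠ c ∧ x ∈ S) := by simp [sw]

omit [Fintype E] in
theorem sw_sw {S : Finset (E × Bool)} {c d : E × Bool} (hc : c ∈ S) (hd : d ∉ S) :
    sw (sw S c d) d c = S := by
  ext x
  simp only [mem_sw]
  by_cases h1 : x = c
  · subst h1; simp [hc]
  · by_cases h2 : x = d
    · subst h2; simp [hd, h1]
    · simp [h1, h2]

theorem card_fam (B : Finset (Finset (E × Bool))) : B.card ≤ 4 ^ Fintype.card E := by
  refine (card_le_univ B).trans ?_
  rw [Fintype.card_finset, Fintype.card_prod, Fintype.card_bool, mul_comm, pow_mul]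
  norm_num

end

section

variable {n : ℕ} {B : Finset (Finset (Fin n × Bool))}

theorem mem_res {e : ℕ} {S T : Finset (Fin n × Bool)} :
    T ∈ res B e S ↔ T ∈ B ∧ ∀ c : Fin n × Bool, c.1.val < e → (c ∈ T ↔ c ∈ S) := mem_filter

theorem self_res {e : ℕ} {S : Finset (Fin n × Bool)} (h : S ∈ B) : S ∈ res B e S :=
  mem_res.2 ⟨h, fun _ _ => Iff.rfl⟩

theorem res_eq {e : ℕ} {S T : Finset (Fin n × Bool)} (h : T ∈ res B e S) :
    res B e T = res B e S := by
  ext U
  simp only [mem_res] at h ⊢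
  exact and_congr_right fun _ => forall_congr' fun c => imp_congr_right fun hc => by rw [h.2 c hc]

theorem res_zero (S : Finset (Fin n × Bool)) : res B 0 S = B := by
  ext U; simp [mem_res]

theorem sw_res {e : ℕ} {S T : Finset (Fin n × Bool)} (h : T ∈ res B e S) {c d : Fin n × Bool}
    (hc : c ∈ T) (hd : d ∉ T) :
    sw T c d ∈ res B e S ↔ e ≤ c.1.val ∧ e ≤ d.1.val ∧ sw T c d ∈ B := by
  rw [mem_res] at h ⊢
  have hcd : c ≠ d := fun h' => hd (h' ▸ hc)
  constructor
  · rintro ⟨h1, h2⟩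
    refine ⟨not_lt.1 fun h3 => ?_, not_lt.1 fun h3 => ?_, h1⟩
    · have := (h2 c h3).2 ((h.2 c h3).1 hc)
      rw [mem_sw] at this
      simp [hcd] at this
    · exact hd ((h.2 d h3).2 ((h2 d h3).1 (mem_sw.2 (Or.inl rfl))))
  · rintro ⟨h1, h2, h3⟩
    refine ⟨h3, fun x hx => ?_⟩
    rw [← h.2 x hx, mem_sw]
    have a1 : x ≠ c := by rintro rfl; omega
    have a2 : x ≠ d := by rintro rfl; omega
    simp [a1, a2]

theorem Fam.res (h : Fam B) (e : ℕ) (S : Finset (Fin n × Bool)) : Fam (res B e S) where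
  card T hT := h.card T (mem_res.1 hT).1
  exch X hX Y hY x hx hx' := by
    obtain ⟨y, hy, hy', h1⟩ := h.exch X (mem_res.1 hX).1 Y (mem_res.1 hY).1 x hx hx'
    refine ⟨y, hy, hy', (sw_res hX hx hy').2 ⟨not_lt.1 fun h2 => hx' ?_, not_lt.1 fun h2 => hy' ?_,
      h1⟩⟩
    · exact ((mem_res.1 hY).2 x h2).2 (((mem_res.1 hX).2 x h2).1 hx)
    · exact ((mem_res.1 hX).2 y h2).2 (((mem_res.1 hY).2 y h2).1 hy)

end

section

variable {σ : Type} (F : List Bool → σ → σ) (L : ℕ)

theorem run_inv (P : σ → Prop) (h : ∀ l x, P x → P (F l x)) (T : ℕ) :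
    ∀ l x, P x → P (run F L T l x) := by
  induction T with
  | zero => exact fun _ _ hx => hx
  | succ T ih => exact fun l x hx => ih _ _ (h _ _ hx)

theorem run_add (S T : ℕ) : ∀ l x,
    run F L (S + T) l x = run F L T (l.drop (S * L)) (run F L S l x) := by
  induction S with
  | zero => intro l x; simp [run]
  | succ S ih =>
    intro l x
    rw [show S + 1 + T = S + T + 1 by omega, run, ih, run, List.drop_drop]
    congr 2
    ring

theorem run_take (T : ℕ) : ∀ (P : ℕ) (l : List Bool) (x : σ), T * L ≤ P →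
    run F L T (l.take P) x = run F L T l x := by
  induction T with
  | zero => intro _ _ _ _; rfl
  | succ T ih =>
    intro P l x h
    have h1 : L ≤ P := le_trans (by nlinarith) h
    rw [run, run, List.take_take, min_eq_left h1, List.drop_take, ih]
    rw [add_mul] at h
    omega

theorem run_mul (T U : ℕ) : ∀ l x,
    run F L (U * T) l x = run (fun l x => run F L T l x) (T * L) U l x := by
  induction U with
  | zero => intro l x; simp [run]
  | succ U ih =>
    intro l x
    rw [show (U + 1) * T = T + U * T by ring, run_add, ih, run, run_take F L T _ _ _ le_rfl]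

theorem Ex_run (T : ℕ) (G : σ → ℝ) (x : σ) :
    Ex ((T + 1) * L) (fun l => G (run F L (T + 1) l x)) =
      Ex L fun l => Ex (T * L) fun l' => G (run F L T l' (F l x)) := by
  rw [show (T + 1) * L = L + T * L by ring]
  simp only [run]
  exact Ex_split L _ fun l l' => G (run F L T l' (F l x))

theorem Ex_run_le {T P : ℕ} (h : T * L ≤ P) (G : σ → ℝ) (x : σ) :
    Ex P (fun l => G (run F L T l x)) = Ex (T * L) fun l => G (run F L T l x) := by
  rw [← Ex_take h]
  exact Ex_congr fun l _ => by rw [run_take F L T _ _ _ le_rfl]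

end

section

variable {n : ℕ} {b : ℕ} {B : Finset (Finset (Fin n × Bool))}

theorem fstep_eq (l : List Bool) {x : St n} (hx : x.S ∈ B) :
    ∃ S ∈ res B x.e x.S, fstep b B l x = { x with S := S } := by
  unfold fstep fmove
  split_ifs with h1 h2
  · exact ⟨_, (sw_res (self_res hx) h2.1 h2.2.1).2 ⟨h2.2.2.1, h2.2.2.2.1, h2.2.2.2.2.1⟩, rfl⟩
  · exact ⟨_, self_res hx, rfl⟩
  · exact ⟨_, self_res hx, rfl⟩

theorem frun_eq (L T : ℕ) (l : List Bool) {x : St n} (hx : x.S ∈ B) :
    ∃ S ∈ res B x.e x.S, run (fstep b B) L T l x = { x with S := S } := by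
  refine run_inv _ L (fun y => ∃ S ∈ res B x.e x.S, y = { x with S := S }) ?_ T l x
    ⟨_, self_res hx, rfl⟩
  rintro l y ⟨S, hS, rfl⟩
  obtain ⟨S', h1, h2⟩ := fstep_eq (b := b) (B := B) l (x := { x with S := S }) (mem_res.1 hS).1
  exact ⟨S', res_eq hS ▸ h1, h2⟩

variable (hq : 256 * (n + 1) ^ 2 ≤ q b)
include hq

theorem q_ge : 256 ≤ q b := le_trans (Nat.le_mul_of_pos_right _ (by positivity)) hq

theorem qR : (256 : ℝ) ≤ q b := by exact_mod_cast q_ge hq

theorem b_ge : 8 ≤ b := by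
  by_contra h
  have h1 : q b ≤ 2 ^ 7 := Nat.pow_le_pow_right (by norm_num) (by omega)
  have := q_ge hq
  omega

omit hq in
theorem b_le : b ≤ q b := Nat.lt_two_pow_self.le

theorem n_le : 256 * (n + 1) ≤ q b := le_trans (by nlinarith) hq

theorem pow30 : q b ^ 30 ≤ 2 ^ q b := by
  have h : ∀ c, 8 ≤ c → c * 30 ≤ 2 ^ c := by
    intro c hc
    induction c, hc using Nat.le_induction with
    | base => norm_num
    | succ c hc ih => rw [pow_succ]; omega
  rw [q, ← pow_mul]
  exact Nat.pow_le_pow_right (by norm_num) (h b (b_ge hq))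

theorem gam_half : 1 / 2 ≤ gam b := by
  have h := qR hq
  have : 1 / (q b : ℝ) ≤ 1 / 2 := one_div_le_one_div_of_le (by norm_num) (by linarith)
  unfold gam; linarith

theorem gam_pos : 0 < gam b := lt_of_lt_of_le (by norm_num) (gam_half hq)

theorem gam_lt : gam b < 1 := by
  have h := qR hq
  have : 0 < 1 / (q b : ℝ) := by positivity
  unfold gam; linarith

theorem gam_q_le : gam b ^ q b ≤ 1 / 2 := by
  have h := qR hq
  refine (Real.one_sub_div_pow_le_exp_neg (by linarith)).trans ?_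
  have := Real.exp_neg_one_lt_d9
  linarith

theorem gam_q_ge : 1 / 4 ≤ gam b ^ q b := by
  have h := qR hq
  obtain ⟨c, hc⟩ : ∃ c, b = c + 1 := ⟨b - 1, by have := b_ge hq; omega⟩
  have e : q b = 2 ^ c * 2 := by rw [q, hc, pow_succ]
  have e' : (q b : ℝ) = (2 ^ c : ℕ) * 2 := by exact_mod_cast e
  have h1 := one_add_mul_le_pow (a := -(1 / (q b : ℝ))) (by
    have : 1 / (q b : ℝ) ≤ 1 := by rw [div_le_one (by linarith)]; linarith
    linarith) (2 ^ c)
  have h2 : (1 : ℝ) + (2 ^ c : ℕ) * -(1 / (q b : ℝ)) = 1 / 2 := by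
    rw [e']; field_simp; norm_num
  rw [h2, ← sub_eq_add_neg] at h1
  rw [e, pow_mul, gam]
  nlinarith

theorem gam_zpow (x : ℤ) : 1 - x / (q b : ℝ) ≤ gam b ^ x := by
  have h := qR hq
  have h0 : 1 / (q b : ℝ) ≤ 1 := by rw [div_le_one (by linarith)]; linarith
  have h0' : 0 < 1 / (q b : ℝ) := by positivity
  obtain ⟨m, rfl | rfl⟩ := x.eq_nat_or_neg
  · have := one_add_mul_le_pow (a := -(1 / (q b : ℝ))) (by linarith) m
    rw [zpow_natCast, gam, sub_eq_add_neg 1 (1 / _)]
    refine le_trans (le_of_eq ?_) this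
    push_cast; ring
  · have h1 := one_add_mul_le_pow (a := 1 / (q b : ℝ)) (by linarith) m
    have h2 : 1 + 1 / (q b : ℝ) ≤ (gam b)⁻¹ := by
      rw [le_inv_comm₀ (by linarith) (gam_pos hq), inv_eq_one_div, le_div_iff₀ (by linarith), gam]
      nlinarith
    rw [zpow_neg, zpow_natCast, ← inv_pow]
    refine le_trans (le_of_eq ?_) (h1.trans (pow_le_pow_left₀ (by linarith) h2 m))
    push_cast; ring

theorem gam_j_le : gam b ^ jj b ≤ 1 / q b := by
  rw [jj, pow_mul]
  refine (pow_le_pow_left₀ (pow_nonneg (gam_pos hq).le _) (gam_q_le hq) b).trans (le_of_eq ?_)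
  rw [q]; push_cast; rw [one_div_pow]

theorem gam_j_ge : 1 / (q b : ℝ) ^ 2 ≤ gam b ^ jj b := by
  rw [jj, pow_mul]
  refine le_trans (le_of_eq ?_) (pow_le_pow_left₀ (by norm_num) (gam_q_ge hq) b)
  rw [q]; push_cast; rw [one_div_pow, ← pow_mul, mul_comm, pow_mul]; norm_num

end

end Vale.Agent.P317
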