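import Vale.Agent.P317.Boch1

/-!
The Bochner inequality, its dual form and the two consequences.
-/

namespace Vale.Agent.P317.Bo

open Finset

variable {E : Type} [Fintype E] [DecidableEq E] {B : Finset (Finset (E × Bool))} {lo hi : E → ℝ}
  (hB : Fam B) (h1 : ∀ e, 0 < lo e) (h2 : ∀ e, 0 < hi e)

include hB h1 h2 in
theorem bochner (u : Finset (E × Bool) → ℝ) :
    ∑ S ∈ B, wt lo hi S * Cq lo hi S (fun c => dl lo hi S c * gr B hi u S c) ≤
      ∑ S ∈ B, wt lo hi S * L B lo hi u S ^ 2 := by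
  have h := reidx2 B fun w c d => wt lo hi w * (hi c.1 * hi d.1 *
    ((u (insert c (insert d w)) - ub B hi u (insert d w)) *
      (u (insert c (insert d w)) - ub B hi u (insert c w))))
  have h0 : 0 ≤ ∑ w, ∑ c, ∑ d, if adj B w c d then wt lo hi w * (hi c.1 * hi d.1 *
      ((u (insert c (insert d w)) - ub B hi u (insert d w)) *
        (u (insert c (insert d w)) - ub B hi u (insert c w)))) else 0 := by
    refine sum_nonneg fun w _ => ?_
    have := mul_nonneg (wt_pos h1 h2 w).le (link h2 hB u w)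
    simpa only [mul_sum, mul_ite, mul_zero] using this
  rw [← h] at h0
  refine le_trans (le_add_of_nonneg_right h0) (le_of_eq ?_)
  rw [← sum_add_distrib]
  refine sum_congr rfl fun S _ => ?_
  rw [L, sq, sum_mul_sum, Cq, ← sum_add_distrib, mul_sum, mul_sum, ← sum_add_distrib]
  refine sum_congr rfl fun c hc => ?_
  rw [← add_sum_erase S _ hc, mul_add, mul_add, add_assoc, sq]
  congr 1
  have e1 : (if pt c ∈ S then (1 - lo c.1 * hi c.1) * (dl lo hi S c * gr B hi u S c *
      (dl lo hi S (pt c) * gr B hi u S (pt c))) else 0) = ∑ d ∈ S.erase c,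
      if pt c = d then (1 - lo c.1 * hi c.1) * (dl lo hi S c * gr B hi u S c *
      (dl lo hi S d * gr B hi u S d)) else 0 := by
    rw [sum_ite_eq]
    simp [pt_ne]
  rw [e1, mul_sum, mul_sum, ← sum_add_distrib]
  refine sum_congr rfl fun d hd => ?_
  have hd' := mem_erase.1 hd
  have a1 := wt_erase lo hi hc
  have a2 := wt_erase lo hi hd
  have a3 : insert c ((S.erase c).erase d) = S.erase d := by
    rw [erase_right_comm, insert_erase (mem_erase.2 ⟨hd'.1.symm, hc⟩)]
  rw [insert_erase hd, insert_erase hc, a3]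
  simp only [gr]
  split_ifs with h3
  · have b1 : dl lo hi S d = 1 := by rw [dl, if_pos (by rw [← h3, pt_pt]; exact hc)]
    have b2 : dl lo hi (S.erase c) d = lo c.1 * hi c.1 := by
      rw [dl, if_neg (by rw [← h3, pt_pt]; exact notMem_erase _ _), ← h3]; rfl
    rw [b2] at a2
    rw [b1]
    linear_combination (-(lo c.1 * hi c.1) * ((u S - ub B hi u (S.erase c)) *
      (u S - ub B hi u (S.erase d)))) * a1 - (hi c.1 * ((u S - ub B hi u (S.erase c)) *
      (u S - ub B hi u (S.erase d)))) * a2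
  · have b2 : dl lo hi (S.erase c) d = dl lo hi S d := by
      have : pt d ≠ c := fun h4 => h3 (by rw [← h4, pt_pt])
      simp [dl, this]
    rw [b2] at a2
    linear_combination (-(dl lo hi S d) * ((u S - ub B hi u (S.erase c)) *
      (u S - ub B hi u (S.erase d)))) * a1 - (hi c.1 * ((u S - ub B hi u (S.erase c)) *
      (u S - ub B hi u (S.erase d)))) * a2

include hB in
theorem conn (u : Finset (E × Bool) → ℝ)
    (h : ∀ S ∈ B, ∀ c ∈ S, ∀ d, d ∉ S → sw S c d ∈ B → u (sw S c d) = u S) :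
    ∀ X ∈ B, ∀ Y ∈ B, u X = u Y := by
  have key : ∀ k : ℕ, ∀ X ∈ B, ∀ Y ∈ B, (X \ Y).card = k → u X = u Y := by
    intro k
    induction k with
    | zero =>
      intro X hX Y hY h0
      rw [card_eq_zero, sdiff_eq_empty_iff_subset] at h0
      rw [eq_of_subset_of_card_le h0 (by rw [hB.card X hX, hB.card Y hY])]
    | succ k ih =>
      intro X hX Y hY h0
      obtain ⟨x, hx⟩ := card_pos.1 (show 0 < (X \ Y).card by omega)
      obtain ⟨y, a1, a2, a3⟩ := hB.exch X hX Y hY x (mem_sdiff.1 hx).1 (mem_sdiff.1 hx).2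
      rw [← h X hX x (mem_sdiff.1 hx).1 y a2 a3]
      refine ih _ a3 Y hY ?_
      have : sw X x y \ Y = (X \ Y).erase x := by
        ext z
        simp only [mem_sdiff, mem_sw, mem_erase]
        constructor
        · rintro ⟨rfl | h3, h4⟩
          · exact absurd a1 h4
          · exact ⟨h3.1, h3.2, h4⟩
        · rintro ⟨h3, h4, h5⟩
          exact ⟨Or.inr ⟨h3, h4⟩, h5⟩
      rw [this, card_erase_of_mem hx]
      omega
  exact fun X hX Y hY => key _ X hX Y hY rfl

omit [Fintype E] in
include h1 h2 in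
theorem dl_pos (S : Finset (E × Bool)) (c : E × Bool) : 0 < dl lo hi S c := by
  unfold dl
  split_ifs
  exacts [one_pos, mul_pos (h1 _) (h2 _)]

include hB h1 h2 in
theorem poisson (φ : Finset (E × Bool) → ℝ) :
    ∃ u m, ∀ S ∈ B, L B lo hi u S = φ S - m := by
  let T : (Finset (E × Bool) → ℝ) →ₗ[ℝ] (Finset (E × Bool) → ℝ) :=
    { toFun := fun u S => if S ∈ B then L B lo hi u S + ∑ S ∈ B, wt lo hi S * u S else u S
      map_add' := fun u v => by
        funext S
        simp only [Pi.add_apply]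
        split_ifs
        · simp only [L, gr, ub, Pi.add_apply, mul_add, sum_add_distrib, add_div]
          rw [add_add_add_comm, ← sum_add_distrib (s := S)]
          congr 1
          exact sum_congr rfl fun c _ => by ring
        · rfl
      map_smul' := fun a u => by
        funext S
        simp only [Pi.smul_apply, smul_eq_mul, RingHom.id_apply]
        split_ifs
        · simp only [L, gr, ub, Pi.smul_apply, smul_eq_mul, mul_add, mul_sum]
          congr 1
          · refine sum_congr rfl fun c _ => ?_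
            rw [sum_congr rfl fun d _ => mul_left_comm (hi d.1) a _, ← mul_sum]
            ring
          · exact sum_congr rfl fun c _ => by ring
        · rfl }
  have hinj : Function.Injective T := by
    rw [injective_iff_map_eq_zero]
    intro u hu
    have a1 : ∀ S ∈ B, L B lo hi u S + ∑ S ∈ B, wt lo hi S * u S = 0 := fun S hS => by
      have : (if S ∈ B then L B lo hi u S + ∑ S ∈ B, wt lo hi S * u S else u S) = 0 := congrFun hu S
      rwa [if_pos hS] at this
    funext S
    by_cases hS : S ∈ B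
    swap
    · have : (if S ∈ B then L B lo hi u S + ∑ S ∈ B, wt lo hi S * u S else u S) = 0 := congrFun hu S
      rwa [if_neg hS] at this
    have hZ : 0 < ∑ S ∈ B, wt lo hi S := sum_pos (fun S _ => wt_pos h1 h2 S) ⟨S, hS⟩
    have a2 := ibp (lo := lo) B h2 u (fun _ => 1) fun _ => 1
    simp only [sub_self, zero_mul, sum_const_zero, mul_zero, one_mul] at a2
    have a3 : ∑ S ∈ B, wt lo hi S * u S = 0 := by
      rw [sum_congr rfl fun S hS => by rw [eq_neg_of_add_eq_zero_left (a1 S hS)], ← sum_mul] at a2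
      exact neg_eq_zero.1 ((mul_eq_zero.1 a2).resolve_left hZ.ne')
    have a4 := ibp (lo := lo) B h2 u u (ub B hi u)
    rw [sum_eq_zero fun S hS => by
      rw [eq_neg_of_add_eq_zero_left (a1 S hS), a3]; simp] at a4
    have n1 : ∀ S, ∀ c ∈ S, 0 ≤ (u S - ub B hi u (S.erase c)) * (dl lo hi S c * gr B hi u S c) :=
      fun S c _ => by
        rw [mul_left_comm]
        exact mul_nonneg (dl_pos h1 h2 S c).le (mul_self_nonneg _)
    have a5 : ∀ S ∈ B, ∀ c ∈ S, u S = ub B hi u (S.erase c) := by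
      intro S hS c hc
      have b1 := (sum_eq_zero_iff_of_nonneg fun S _ => mul_nonneg (wt_pos h1 h2 S).le
        (sum_nonneg (n1 S))).1 a4.symm S hS
      have b2 := (sum_eq_zero_iff_of_nonneg (n1 S)).1
        ((mul_eq_zero.1 b1).resolve_left (wt_pos h1 h2 S).ne') c hc
      rw [mul_left_comm] at b2
      exact sub_eq_zero.1 (mul_self_eq_zero.1 ((mul_eq_zero.1 b2).resolve_left
        (dl_pos h1 h2 S c).ne'))
    have a6 := conn hB u fun S hS c hc d hd h => by
      rw [a5 _ h d (mem_sw.2 (Or.inl rfl)), a5 S hS c hc, sw,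
        erase_insert fun h' => hd (mem_of_mem_erase h')]
    rw [sum_congr rfl fun X hX => by rw [a6 X hX S hS], ← sum_mul] at a3
    exact (mul_eq_zero.1 a3).resolve_left hZ.ne'
  obtain ⟨u, hu⟩ := LinearMap.injective_iff_surjective.1 hinj φ
  refine ⟨u, ∑ S ∈ B, wt lo hi S * u S, fun S hS => ?_⟩
  have : (if S ∈ B then L B lo hi u S + ∑ S ∈ B, wt lo hi S * u S else u S) = φ S := congrFun hu S
  rw [if_pos hS] at this
  linarith

include hB h1 h2 in
theorem dual (φ ψ Q : Finset (E × Bool) → ℝ) (h : ∀ S ∈ B, ∀ v : E × Bool → ℝ,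
    2 * ∑ c ∈ S, (φ S - ψ (S.erase c)) * v c ≤ Q S + Cq lo hi S v) :
    ∃ m, ∑ S ∈ B, wt lo hi S * (φ S - m) ^ 2 ≤ ∑ S ∈ B, wt lo hi S * Q S := by
  obtain ⟨u, m, hu⟩ := poisson hB h1 h2 φ
  refine ⟨m, ?_⟩
  have a1 := bochner hB h1 h2 u
  have a2 := ibp (lo := lo) B h2 u (fun S => φ S - m) fun S => ψ S - m
  simp only [sub_sub_sub_cancel_right] at a2
  rw [sum_congr rfl fun S hS => by rw [hu S hS, ← sq]] at a2
  rw [sum_congr rfl (f := fun S => wt lo hi S * L B lo hi u S ^ 2)
    (g := fun S => wt lo hi S * (φ S - m) ^ 2) fun S hS => by rw [hu S hS]] at a1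
  have a3 : 2 * ∑ S ∈ B, wt lo hi S * ∑ c ∈ S, (φ S - ψ (S.erase c)) *
      (dl lo hi S c * gr B hi u S c) ≤ ∑ S ∈ B, wt lo hi S * Q S +
      ∑ S ∈ B, wt lo hi S * Cq lo hi S (fun c => dl lo hi S c * gr B hi u S c) := by
    rw [mul_sum, ← sum_add_distrib]
    refine sum_le_sum fun S hS => ?_
    have := mul_le_mul_of_nonneg_left (h S hS fun c => dl lo hi S c * gr B hi u S c)
      (wt_pos h1 h2 S).le
    linarith
  linarith

theorem Cq_eq (S : Finset (E × Bool)) (v : E × Bool → ℝ) : Cq lo hi S v =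
    ∑ e, ((if (e, false) ∈ S then v (e, false) ^ 2 else 0) +
      (if (e, true) ∈ S then v (e, true) ^ 2 else 0) +
      if (e, false) ∈ S ∧ (e, true) ∈ S then 2 * (1 - lo e * hi e) * (v (e, false) * v (e, true))
      else 0) := by
  rw [Cq, sum_mem, sum_mem, ← sum_add_distrib]
  refine sum_congr rfl fun e _ => ?_
  by_cases a : (e, false) ∈ S <;> by_cases b : (e, true) ∈ S <;> simp [pt, a, b]
  ring

theorem wt_update {e : E} (a1 : lo e = 1) (a2 : hi e = 1) (x y : ℝ) (S : Finset (E × Bool)) :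
    wt (Function.update lo e x) (Function.update hi e y) S =
      (if cnt S e = 0 then x else if cnt S e = 1 then 1 else y) * wt lo hi S := by
  unfold wt
  rw [← mul_prod_erase univ _ (mem_univ e), ← mul_prod_erase univ _ (mem_univ e), a1, a2]
  simp only [Function.update_self, ite_self, one_mul]
  congr 1
  exact prod_congr rfl fun d hd => by simp only [Function.update_of_ne (ne_of_mem_erase hd)]

theorem sum_level (B : Finset (Finset (E × Bool))) {e : E} (a1 : lo e = 1) (a2 : hi e = 1)
    (x y : ℝ) (G : ℕ → ℝ) :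
    ∑ S ∈ B, wt (Function.update lo e x) (Function.update hi e y) S * G (cnt S e) =
      x * (∑ S ∈ B.filter (cnt · e = 0), wt lo hi S) * G 0 +
      (∑ S ∈ B.filter (cnt · e = 1), wt lo hi S) * G 1 +
      y * (∑ S ∈ B.filter (cnt · e = 2), wt lo hi S) * G 2 := by
  simp only [sum_filter, mul_sum, sum_mul, ← sum_add_distrib]
  refine sum_congr rfl fun S _ => ?_
  rw [wt_update a1 a2]
  have := cnt_le S e
  obtain h | h | h : cnt S e = 0 ∨ cnt S e = 1 ∨ cnt S e = 2 := by omega
  all_goals simp [h]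

end Vale.Agent.P317.Bo

namespace Vale.Agent.P317

open Finset Bo

theorem poin (E : Type) [Fintype E] [DecidableEq E] : PoinStmt E := by
  intro B hB lo hi t h1 h2 t0 t1 ht φ
  obtain ⟨m, hm⟩ := dual hB h1 h2 φ (ub B hi φ)
    (fun S => ∑ c ∈ S, dl lo hi S c / t * gr B hi φ S c ^ 2) fun S _ v => by
      rw [Cq_eq, sum_mem, sum_mem, mul_sum, ← sum_add_distrib]
      refine sum_le_sum fun e _ => ?_
      simp only [gr, dl, pt, ht, Bool.not_false, Bool.not_true]
      generalize φ S - ub B hi φ (S.erase (e, false)) = x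
      generalize φ S - ub B hi φ (S.erase (e, true)) = y
      generalize v (e, false) = v0
      generalize v (e, true) = v1
      by_cases a : (e, false) ∈ S <;> by_cases b : (e, true) ∈ S <;>
        simp only [a, b, if_true, if_false, and_self, and_true, and_false, div_self t0.ne']
      · have e1 : 1 / t * x ^ 2 + 1 / t * y ^ 2 + (v0 ^ 2 + v1 ^ 2 + 2 * (1 - t) * (v0 * v1)) -
            2 * (x * v0 + y * v1) =
            ((x - t * v0) ^ 2 + (y - t * v1) ^ 2) / t + (1 - t) * (v0 + v1) ^ 2 := by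
          field_simp; ring
        have e2 : 0 ≤ ((x - t * v0) ^ 2 + (y - t * v1) ^ 2) / t := by positivity
        have e3 : 0 ≤ (1 - t) * (v0 + v1) ^ 2 := mul_nonneg (by linarith) (sq_nonneg _)
        linarith
      · nlinarith [sq_nonneg (x - v0)]
      · nlinarith [sq_nonneg (y - v1)]
      · simp
  refine ⟨m, (mul_le_mul_of_nonneg_left hm t0.le).trans ?_⟩
  rw [mul_sum]
  refine sum_le_sum fun S hS => ?_
  have n0 : ∀ c d, 0 ≤ (if c ∈ S ∧ d ∉ S ∧ sw S c d ∈ B then
      min (wt lo hi S) (wt lo hi (sw S c d)) * (φ (sw S c d) - φ S) ^ 2 else 0) := fun c d => by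
    split_ifs
    · exact mul_nonneg (le_min (wt_pos h1 h2 _).le (wt_pos h1 h2 _).le) (sq_nonneg _)
    · exact le_rfl
  refine le_trans ?_ (sum_le_sum_of_subset_of_nonneg (subset_univ S) fun c _ _ =>
    sum_nonneg fun d _ => n0 c d)
  rw [mul_sum, mul_sum]
  refine sum_le_sum fun c hc => ?_
  have hcN : c ∈ Nb B (S.erase c) :=
    mem_filter.2 ⟨mem_univ _, notMem_erase _ _, by rwa [insert_erase hc]⟩
  have hA : 0 < ∑ d ∈ Nb B (S.erase c), hi d.1 := sum_pos (fun d _ => h2 _) ⟨c, hcN⟩
  have le1 : ∀ d ∈ Nb B (S.erase c), hi d.1 ≤ ∑ d ∈ Nb B (S.erase c), hi d.1 := fun d hd =>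
    single_le_sum (f := fun d : E × Bool => hi d.1) (fun d _ => (h2 _).le) hd
  have dle : ∀ S c, dl lo hi S c ≤ 1 := fun S c => by
    unfold dl
    split_ifs
    · exact le_rfl
    · rw [ht]; exact t1
  have cs := sum_sq_le_sum_mul_sum_of_sq_le_mul (Nb B (S.erase c))
    (r := fun d => hi d.1 * (φ (insert d (S.erase c)) - φ S)) (f := fun d => hi d.1)
    (g := fun d => hi d.1 * (φ (insert d (S.erase c)) - φ S) ^ 2) (fun d _ => (h2 _).le)
    (fun d _ => mul_nonneg (h2 _).le (sq_nonneg _)) fun d _ => le_of_eq (by ring)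
  have e1 : ∑ d ∈ Nb B (S.erase c), hi d.1 * (φ (insert d (S.erase c)) - φ S) =
      -((∑ d ∈ Nb B (S.erase c), hi d.1) * gr B hi φ S c) := by
    simp only [mul_sub, sum_sub_distrib, ← sum_mul, gr, ub]
    rw [mul_div_cancel₀ _ hA.ne']; ring
  rw [e1] at cs
  have w0 := wt_pos h1 h2 (S.erase c)
  have e2 : t * (wt lo hi S * (dl lo hi S c / t * gr B hi φ S c ^ 2)) =
      hi c.1 * wt lo hi (S.erase c) * gr B hi φ S c ^ 2 := by
    rw [← wt_erase lo hi hc]; field_simp
  have e3 : gr B hi φ S c ^ 2 ≤ (∑ d ∈ Nb B (S.erase c), hi d.1 *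
      (φ (insert d (S.erase c)) - φ S) ^ 2) / ∑ d ∈ Nb B (S.erase c), hi d.1 := by
    rw [le_div_iff₀ hA]
    refine le_of_mul_le_mul_left ?_ hA
    linarith
  rw [e2]
  refine (mul_le_mul_of_nonneg_left e3 (mul_pos (h2 _) w0).le).trans ?_
  rw [sum_div, mul_sum]
  refine le_trans (sum_le_sum fun d hd => ?_)
    (sum_le_sum_of_subset_of_nonneg (subset_univ (Nb B (S.erase c))) fun d _ _ => n0 c d)
  have hd' := (mem_filter.1 hd).2
  by_cases hdc : d = c
  · subst hdc
    rw [insert_erase hc]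
    simpa using n0 d d
  have hdS : d ∉ S := fun h => hd'.1 (mem_erase.2 ⟨hdc, h⟩)
  rw [if_pos ⟨hc, hdS, hd'.2⟩, ← mul_div_assoc, ← mul_assoc, mul_div_right_comm]
  refine mul_le_mul_of_nonneg_right (le_min ?_ ?_) (sq_nonneg _)
  · rw [div_le_iff₀ hA, ← wt_erase lo hi hc]
    exact mul_le_mul (mul_le_of_le_one_right (wt_pos h1 h2 _).le (dle _ _)) (le1 d hd) (h2 _).le
      (wt_pos h1 h2 _).le
  · have := wt_erase lo hi (mem_insert_self d (S.erase c))
    rw [erase_insert hd'.1] at this
    rw [div_le_iff₀ hA, show hi c.1 * wt lo hi (S.erase c) * hi d.1 =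
      hi d.1 * wt lo hi (S.erase c) * hi c.1 by ring, ← this]
    exact mul_le_mul (mul_le_of_le_one_right (wt_pos h1 h2 _).le (dle _ _)) (le1 c hcN) (h2 _).le
      (wt_pos h1 h2 _).le

theorem tri (E : Type) [Fintype E] [DecidableEq E] : TriStmt E := by
  intro B hB lo hi h1 h2 ht e a1 a2
  set a := ∑ S ∈ B.filter (cnt · e = 0), wt lo hi S with ha
  set b := ∑ S ∈ B.filter (cnt · e = 1), wt lo hi S with hb
  set c := ∑ S ∈ B.filter (cnt · e = 2), wt lo hi S with hc
  have a0 : 0 ≤ a := sum_nonneg fun S _ => (wt_pos h1 h2 S).le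
  have b0 : 0 ≤ b := sum_nonneg fun S _ => (wt_pos h1 h2 S).le
  have c0 : 0 ≤ c := sum_nonneg fun S _ => (wt_pos h1 h2 S).le
  rcases eq_or_lt_of_le (mul_nonneg a0 c0) with h0 | h0
  · rw [← h0]; positivity
  have a0' : 0 < a := lt_of_le_of_ne a0 fun h => by simp [← h] at h0
  have c0' : 0 < c := lt_of_le_of_ne c0 fun h => by simp [← h] at h0
  obtain ⟨p, p0, hp⟩ : ∃ p : ℝ, 0 < p ∧ p ^ 2 = a * c / 2 :=
    ⟨√(a * c / 2), Real.sqrt_pos.2 (by positivity), Real.sq_sqrt (by positivity)⟩
  have hxy : p / a * (p / c) = 1 / 2 := by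
    field_simp; linarith
  have u1 : ∀ d, 0 < Function.update lo e (p / a) d := fun d => by
    by_cases h : d = e
    · rw [h, Function.update_self]; positivity
    · rw [Function.update_of_ne h]; exact h1 d
  have u2 : ∀ d, 0 < Function.update hi e (p / c) d := fun d => by
    by_cases h : d = e
    · rw [h, Function.update_self]; positivity
    · rw [Function.update_of_ne h]; exact h2 d
  obtain ⟨m, hm⟩ := dual hB u1 u2 (fun S => cnt S e) (fun S => cnt S e)
    (fun S => if cnt S e = 0 then 0 else if cnt S e = 1 then 1 else 4 / 3) fun S _ v => by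
      have e0 : (if cnt S e = 0 then 0 else if cnt S e = 1 then 1 else 4 / 3 : ℝ) =
          ∑ d, if e = d then (if cnt S e = 0 then 0 else if cnt S e = 1 then 1 else 4 / 3 : ℝ)
            else 0 := by simp
      rw [Cq_eq, sum_mem, e0, mul_sum, ← sum_add_distrib]
      refine sum_le_sum fun d _ => ?_
      generalize v (d, false) = v0
      generalize v (d, true) = v1
      by_cases h : e = d
      · subst h
        simp only [Function.update_self, hxy, if_true]
        by_cases a : (e, false) ∈ S <;> by_cases b : (e, true) ∈ S <;> simp [cnt, a, b]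
        · nlinarith [sq_nonneg (v0 - v1), sq_nonneg (v0 + v1 - 4 / 3)]
        · nlinarith [sq_nonneg (1 - v0)]
        · nlinarith [sq_nonneg (1 - v1)]
      · have e1 : ∀ β, cnt (S.erase (d, β)) e = cnt S e := fun β => by simp [cnt, h]
        have t0 := mul_pos (h1 d) (h2 d)
        have t1 := ht d
        simp only [e1, sub_self, zero_mul, ite_self, if_neg h, Function.update_of_ne (Ne.symm h)]
        generalize lo d * hi d = t at *
        by_cases a : (d, false) ∈ S <;> by_cases b : (d, true) ∈ S <;> simp [a, b]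
        · nlinarith [mul_nonneg (sub_nonneg.2 t1) (sq_nonneg (v0 + v1)),
            mul_nonneg t0.le (sq_nonneg v0), mul_nonneg t0.le (sq_nonneg v1)]
        · positivity
        · positivity
  rw [sum_level B a1 a2 _ _ fun k => ((k : ℝ) - m) ^ 2,
    sum_level B a1 a2 _ _ fun k => if k = 0 then 0 else if k = 1 then 1 else 4 / 3,
    ← ha, ← hb, ← hc, div_mul_cancel₀ _ a0'.ne', div_mul_cancel₀ _ c0'.ne'] at hm
  norm_num at hm
  have h3 : 2 * p ≤ 3 * b := by
    nlinarith [mul_nonneg p0.le (sq_nonneg (m - 1)), mul_nonneg b0 (sq_nonneg (1 - m))]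
  nlinarith

end Vale.Agent.P317
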