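import Vale.Agent.P317.Base

/-!
The generator, integration by parts and the links of codimension two.
-/

namespace Vale.Agent.P317.Bo

open Finset

variable {E : Type} [Fintype E] [DecidableEq E]

/-- The other copy. -/
def pt (c : E × Bool) : E × Bool := (c.1, !c.2)

omit [Fintype E] [DecidableEq E] in
theorem pt_ne (c : E × Bool) : pt c ≠ c := by
  obtain ⟨e, β⟩ := c
  cases β <;> simp [pt]

omit [Fintype E] [DecidableEq E] in
theorem pt_pt (c : E × Bool) : pt (pt c) = c := by simp [pt]

omit [Fintype E] in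
theorem cnt_pt (S : Finset (E × Bool)) (c : E × Bool) :
    cnt S c.1 = (if c ∈ S then 1 else 0) + if pt c ∈ S then 1 else 0 := by
  obtain ⟨e, β⟩ := c
  cases β
  · rfl
  · exact add_comm _ _

variable (B : Finset (Finset (E × Bool))) (lo hi : E → ℝ)

/-- Rate of removal. -/
def dl (S : Finset (E × Bool)) (c : E × Bool) : ℝ := if pt c ∈ S then 1 else lo c.1 * hi c.1

/-- Elements completing a set to a member. -/
def Nb (x : Finset (E × Bool)) : Finset (E × Bool) := univ.filter fun c => c ∉ x ∧ insert c x ∈ B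

/-- Harmonic extension. -/
noncomputable def ub (u : Finset (E × Bool) → ℝ) (x : Finset (E × Bool)) : ℝ :=
  (∑ c ∈ Nb B x, hi c.1 * u (insert c x)) / ∑ c ∈ Nb B x, hi c.1

/-- Gradient. -/
noncomputable def gr (u : Finset (E × Bool) → ℝ) (S : Finset (E × Bool)) (c : E × Bool) : ℝ :=
  u S - ub B hi u (S.erase c)

/-- The generator. -/
noncomputable def L (u : Finset (E × Bool) → ℝ) (S : Finset (E × Bool)) : ℝ :=
  ∑ c ∈ S, dl lo hi S c * gr B hi u S c

/-- The curvature form. -/
def Cq (S : Finset (E × Bool)) (v : E × Bool → ℝ) : ℝ :=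
  ∑ c ∈ S, v c ^ 2 + ∑ c ∈ S, if pt c ∈ S then (1 - lo c.1 * hi c.1) * (v c * v (pt c)) else 0

/-- Adjacency in a link. -/
def adj (w : Finset (E × Bool)) (c d : E × Bool) : Prop :=
  d ∉ w ∧ c ∉ insert d w ∧ insert c (insert d w) ∈ B

instance (w : Finset (E × Bool)) (c d : E × Bool) : Decidable (adj B w c d) := by
  unfold adj; infer_instance

theorem wt_erase {S : Finset (E × Bool)} {c : E × Bool} (hc : c ∈ S) :
    wt lo hi S * dl lo hi S c = hi c.1 * wt lo hi (S.erase c) := by
  unfold wt dl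
  rw [← mul_prod_erase univ _ (mem_univ c.1), ← mul_prod_erase univ _ (mem_univ c.1)]
  have e1 : ∀ e ∈ univ.erase c.1, cnt (S.erase c) e = cnt S e := by
    intro e he
    have h := ne_of_mem_erase he
    have h1 : ∀ β, (e, β) ≠ c := fun β h' => h (by rw [← h'])
    simp [cnt, h1]
  have e2 : ∏ e ∈ univ.erase c.1, (if cnt (S.erase c) e = 0 then lo e else
      if cnt (S.erase c) e = 1 then 1 else hi e) = ∏ e ∈ univ.erase c.1,
      (if cnt S e = 0 then lo e else if cnt S e = 1 then 1 else hi e) :=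
    prod_congr rfl fun e he => by rw [e1 e he]
  rw [e2, cnt_pt, cnt_pt]
  generalize ∏ e ∈ univ.erase c.1,
      (if cnt S e = 0 then lo e else if cnt S e = 1 then 1 else hi e) = P
  by_cases h : pt c ∈ S <;> simp [h, hc, pt_ne]
  ring

theorem reidx (A : Finset (Finset (E × Bool))) (F : Finset (E × Bool) → E × Bool → ℝ) :
    ∑ S ∈ A, ∑ c ∈ S, F (S.erase c) c = ∑ x, ∑ c ∈ Nb A x, F x c := by
  rw [sum_sigma', sum_sigma']
  refine sum_nbij' (fun p => ⟨p.1.erase p.2, p.2⟩) (fun p => ⟨insert p.2 p.1, p.2⟩) ?_ ?_ ?_ ?_ ?_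
  · rintro ⟨S, c⟩ hp
    simp only [mem_sigma, mem_univ, true_and, Nb, mem_filter] at hp ⊢
    exact ⟨notMem_erase _ _, by rw [insert_erase hp.2]; exact hp.1⟩
  · rintro ⟨x, c⟩ hp
    simp only [mem_sigma, mem_univ, true_and, Nb, mem_filter] at hp ⊢
    exact ⟨hp.2, mem_insert_self _ _⟩
  · rintro ⟨S, c⟩ hp
    simp only [mem_sigma] at hp
    simp [insert_erase hp.2]
  · rintro ⟨x, c⟩ hp
    simp only [mem_sigma, mem_univ, true_and, Nb, mem_filter] at hp
    simp [erase_insert hp.1]
  · intro _ _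
    rfl

theorem reidx2 (F : Finset (E × Bool) → E × Bool → E × Bool → ℝ) :
    ∑ S ∈ B, ∑ c ∈ S, ∑ d ∈ S.erase c, F ((S.erase c).erase d) c d =
      ∑ w, ∑ c, ∑ d, if adj B w c d then F w c d else 0 := by
  rw [reidx B fun x c => ∑ d ∈ x, F (x.erase d) c d]
  simp only [Nb, sum_filter]
  rw [sum_comm, sum_comm (f := fun w c => ∑ d, if adj B w c d then F w c d else 0)]
  refine sum_congr rfl fun c _ => ?_
  have := reidx univ fun w d => if c ∉ insert d w ∧ insert c (insert d w) ∈ B then F w c d else 0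
  simp only [Nb, sum_filter, mem_univ, and_true] at this
  refine Eq.trans (sum_congr rfl fun x _ => ?_) (this.trans (sum_congr rfl fun w _ =>
    sum_congr rfl fun d _ => ?_))
  · split_ifs with h
    · exact sum_congr rfl fun d hd => by rw [insert_erase hd, if_pos h]
    · exact (sum_eq_zero fun d hd => by rw [insert_erase hd, if_neg h]).symm
  · by_cases h : d ∈ w <;> simp [adj, h]

variable {lo hi} (h1 : ∀ e, 0 < lo e) (h2 : ∀ e, 0 < hi e)

include h2 in
theorem harm (u : Finset (E × Bool) → ℝ) (x : Finset (E × Bool)) :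
    ∑ c ∈ Nb B x, hi c.1 * (u (insert c x) - ub B hi u x) = 0 := by
  rcases (Nb B x).eq_empty_or_nonempty with h | h
  · rw [h, sum_empty]
  · have := (sum_pos (fun c _ => h2 c.1) h).ne'
    simp only [mul_sub, sum_sub_distrib, ← sum_mul]
    rw [ub, mul_div_cancel₀ _ this, sub_self]

include h2 in
theorem ibp (u φ ψ : Finset (E × Bool) → ℝ) :
    ∑ S ∈ B, wt lo hi S * (φ S * L B lo hi u S) =
      ∑ S ∈ B, wt lo hi S * ∑ c ∈ S, (φ S - ψ (S.erase c)) * (dl lo hi S c * gr B hi u S c) := by
  have h := reidx B fun x c => wt lo hi x * ψ x * (hi c.1 * (u (insert c x) - ub B hi u x))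
  simp only [← mul_sum, harm B h2, mul_zero, sum_const_zero] at h
  rw [← add_zero (∑ S ∈ B, wt lo hi S * ∑ c ∈ S, _), ← h, ← sum_add_distrib]
  refine sum_congr rfl fun S _ => ?_
  rw [L, mul_sum, mul_sum, mul_sum, ← sum_add_distrib]
  refine sum_congr rfl fun c hc => ?_
  have := wt_erase lo hi hc
  rw [insert_erase hc, gr]
  linear_combination (ψ (S.erase c) * (u S - ub B hi u (S.erase c))) * this

variable {B}

omit [Fintype E] in
theorem adj_symm {w : Finset (E × Bool)} {c d : E × Bool} (h : adj B w c d) : adj B w d c := by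
  obtain ⟨a1, a2, a3⟩ := h
  rw [mem_insert, not_or] at a2
  exact ⟨a2.2, by rw [mem_insert, not_or]; exact ⟨Ne.symm a2.1, a1⟩, by rwa [insert_comm]⟩

theorem adj_tri (hB : Fam B) {w : Finset (E × Bool)} {c d e f : E × Bool} (h : adj B w c e)
    (h' : adj B w d f) : adj B w c d ∨ adj B w d e := by
  by_cases a1 : d = c
  · subst a1; exact Or.inr h
  by_cases a2 : d = e
  · subst a2; exact Or.inl h
  by_cases a3 : f = c
  · subst a3; exact Or.inl (adj_symm h')
  by_cases a4 : f = e
  · subst a4; exact Or.inr h'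
  have g := adj_symm h'
  obtain ⟨y, b1, b2, b3⟩ := hB.exch _ g.2.2 _ h.2.2 f (mem_insert_self _ _) (by
    simp only [mem_insert, not_or]
    exact ⟨a3, a4, h'.1⟩)
  rw [sw, erase_insert g.2.1] at b3
  have b4 : adj B w y d := ⟨g.1, fun h0 => b2 (mem_insert_of_mem h0), b3⟩
  simp only [mem_insert] at b1 b2
  rcases b1 with rfl | rfl | b1
  · exact Or.inl b4
  · exact Or.inr (adj_symm b4)
  · exact absurd (Or.inr (Or.inr b1)) b2

omit [Fintype E] in
theorem equiv_psd {α : Type} [DecidableEq α] (N : Finset α) (r : α → α → Prop) [DecidableRel r]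
    (hr : ∀ a ∈ N, r a a) (hs : ∀ a ∈ N, ∀ b ∈ N, r a b → r b a)
    (ht : ∀ a ∈ N, ∀ b ∈ N, ∀ c ∈ N, r a b → r b c → r a c) (x : α → ℝ) :
    0 ≤ ∑ a ∈ N, ∑ b ∈ N, if r a b then x a * x b else 0 := by
  have e : ∑ a ∈ N, ∑ b ∈ N, (if r a b then x a * x b else 0) =
      ∑ a ∈ N, x a * ∑ b ∈ N.filter (r a), x b := by
    refine sum_congr rfl fun a _ => ?_
    rw [mul_sum, sum_filter]
  rw [e, ← sum_fiberwise_of_maps_to (s := N) (t := N.image fun a => N.filter (r a))
    (g := fun a => N.filter (r a)) fun a ha => mem_image_of_mem _ ha]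
  refine sum_nonneg fun P hP => ?_
  obtain ⟨a, ha, rfl⟩ := mem_image.1 hP
  have e2 : N.filter (fun b => N.filter (r b) = N.filter (r a)) = N.filter (r a) := by
    ext b
    simp only [mem_filter]
    refine and_congr_right fun hb => ⟨fun h => ?_, fun h => ?_⟩
    · have : b ∈ N.filter (r b) := mem_filter.2 ⟨hb, hr b hb⟩
      rw [h] at this
      exact (mem_filter.1 this).2
    · ext c
      simp only [mem_filter]
      exact and_congr_right fun hc =>
        ⟨fun h' => ht a ha b hb c hc h h', fun h' => ht b hb a ha c hc (hs a ha b hb h) h'⟩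
  rw [sum_congr rfl (g := fun b => x b * ∑ c ∈ N.filter (r a), x c) fun b hb => by
    rw [(mem_filter.1 hb).2], e2, ← sum_mul]
  exact mul_self_nonneg _

include h2 in
theorem link (hB : Fam B) (u : Finset (E × Bool) → ℝ) (w : Finset (E × Bool)) :
    0 ≤ ∑ c, ∑ d, if adj B w c d then hi c.1 * hi d.1 *
      ((u (insert c (insert d w)) - ub B hi u (insert d w)) *
        (u (insert c (insert d w)) - ub B hi u (insert c w))) else 0 := by
  classical
  set N : Finset (E × Bool) := univ.filter fun c => ∃ d, adj B w c d with hN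
  obtain ⟨g, hg⟩ : ∃ g, ∑ c ∈ N, hi c.1 * (ub B hi u (insert c w) - g) = 0 := by
    rcases N.eq_empty_or_nonempty with h | h
    · exact ⟨0, by rw [h, sum_empty]⟩
    · have := (sum_pos (fun c _ => h2 c.1) h).ne'
      refine ⟨(∑ c ∈ N, hi c.1 * ub B hi u (insert c w)) / ∑ c ∈ N, hi c.1, ?_⟩
      simp only [mul_sub, sum_sub_distrib, ← sum_mul]
      rw [mul_div_cancel₀ _ this, sub_self]
  set x : E × Bool → ℝ := fun c => hi c.1 * (ub B hi u (insert c w) - g) with hx
  have hh : ∀ d, ∑ c, (if adj B w c d then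
      hi c.1 * (u (insert c (insert d w)) - ub B hi u (insert d w)) else 0) = 0 := by
    intro d
    by_cases hd : d ∈ w
    · exact sum_eq_zero fun c _ => if_neg fun h => h.1 hd
    · have := harm B h2 u (insert d w)
      rw [Nb, sum_filter] at this
      refine Eq.trans (sum_congr rfl fun c _ => ?_) this
      simp only [adj, hd, not_false_eq_true, true_and]
  have s1 : ∑ c, ∑ d, (if adj B w c d then x d *
      (hi c.1 * (u (insert c (insert d w)) - ub B hi u (insert d w))) else 0) = 0 := by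
    rw [sum_comm]
    refine sum_eq_zero fun d _ => ?_
    have := congrArg (x d * ·) (hh d)
    simpa only [mul_sum, mul_ite, mul_zero] using this
  have s2 : ∑ c, ∑ d, (if adj B w c d then x c *
      (hi d.1 * (u (insert c (insert d w)) - ub B hi u (insert c w))) else 0) = 0 := by
    refine Eq.trans ?_ s1
    rw [sum_comm]
    refine sum_congr rfl fun d _ => sum_congr rfl fun c _ => ?_
    rw [insert_comm]
    exact if_congr ⟨adj_symm, adj_symm⟩ rfl rfl
  have s3 : ∑ c, ∑ d, (if adj B w c d then x c * x d else 0) ≤ 0 := by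
    have a1 : ∑ c, ∑ d, (if adj B w c d then x c * x d else 0) =
        ∑ c ∈ N, ∑ d ∈ N, if adj B w c d then x c * x d else 0 := by
      symm
      refine (sum_congr rfl fun c _ => sum_subset (subset_univ N) fun d _ hd => if_neg fun h =>
        hd (mem_filter.2 ⟨mem_univ _, c, adj_symm h⟩)).trans ?_
      exact sum_subset (subset_univ N) fun c _ hc => sum_eq_zero fun d _ => if_neg fun h =>
        hc (mem_filter.2 ⟨mem_univ _, d, h⟩)
    have a2 := equiv_psd N (fun c d => ¬ adj B w c d) (fun c _ h => h.2.1 (mem_insert_self _ _))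
      (fun c _ d _ h h' => h (adj_symm h')) (fun c _ d hd e _ h h' h'' => by
        obtain ⟨f, hf⟩ := (mem_filter.1 hd).2
        exact (adj_tri hB h'' hf).elim h h') x
    have a3 : ∑ c ∈ N, ∑ d ∈ N, (if adj B w c d then x c * x d else 0) +
        ∑ c ∈ N, ∑ d ∈ N, (if ¬ adj B w c d then x c * x d else 0) =
        (∑ c ∈ N, x c) * ∑ c ∈ N, x c := by
      rw [sum_mul_sum, ← sum_add_distrib]
      refine sum_congr rfl fun c _ => ?_
      rw [← sum_add_distrib]
      exact sum_congr rfl fun d _ => by split_ifs <;> simp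
    rw [hg] at a3
    linarith
  have s4 : 0 ≤ ∑ c, ∑ d, (if adj B w c d then hi c.1 * hi d.1 * (u (insert c (insert d w)) -
      ub B hi u (insert c w) - ub B hi u (insert d w) + g) ^ 2 else 0) :=
    sum_nonneg fun c _ => sum_nonneg fun d _ => by
      have := h2 c.1
      have := h2 d.1
      split_ifs <;> positivity
  have s5 : ∑ c, ∑ d, (if adj B w c d then hi c.1 * hi d.1 * (u (insert c (insert d w)) -
      ub B hi u (insert c w) - ub B hi u (insert d w) + g) ^ 2 else 0) =
      ∑ c, ∑ d, (if adj B w c d then hi c.1 * hi d.1 *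
      ((u (insert c (insert d w)) - ub B hi u (insert d w)) *
        (u (insert c (insert d w)) - ub B hi u (insert c w))) else 0) -
      ∑ c, ∑ d, (if adj B w c d then x d *
      (hi c.1 * (u (insert c (insert d w)) - ub B hi u (insert d w))) else 0) -
      ∑ c, ∑ d, (if adj B w c d then x c *
      (hi d.1 * (u (insert c (insert d w)) - ub B hi u (insert c w))) else 0) +
      ∑ c, ∑ d, (if adj B w c d then x c * x d else 0) := by
    simp only [← sum_sub_distrib, ← sum_add_distrib]
    refine sum_congr rfl fun c _ => sum_congr rfl fun d _ => ?_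
    split_ifs
    · simp only [hx]; ring
    · simp
  linarith

end Vale.Agent.P317.Bo
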