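import Vale.Agent.P317.Base

/-!
The capacity bound.
-/

namespace Vale.Agent.P317

namespace Cp

open Finset

variable {E : Type} [Fintype E] [DecidableEq E]

theorem wt_upd (lo hi : E → ℝ) (e : E) (x y : ℝ) (S : Finset (E × Bool)) :
    wt (Function.update lo e x) (Function.update hi e y) S =
      (if cnt S e = 0 then x else if cnt S e = 1 then 1 else y) *
        wt (Function.update lo e 1) (Function.update hi e 1) S := by
  unfold wt
  rw [← mul_prod_erase univ _ (mem_univ e), ← mul_prod_erase univ _ (mem_univ e)]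
  simp only [Function.update_self, ite_self, one_mul]
  congr 1
  refine prod_congr rfl fun a ha => ?_
  have := ne_of_mem_erase ha
  simp only [Function.update_of_ne this]

theorem sum_upd (B : Finset (Finset (E × Bool))) (lo hi : E → ℝ) (e : E) (x y : ℝ) :
    ∑ S ∈ B, wt (Function.update lo e x) (Function.update hi e y) S =
      x * (∑ S ∈ B.filter (cnt · e = 0), wt (Function.update lo e 1) (Function.update hi e 1) S) +
      (∑ S ∈ B.filter (cnt · e = 1), wt (Function.update lo e 1) (Function.update hi e 1) S) +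
      y * (∑ S ∈ B.filter (cnt · e = 2), wt (Function.update lo e 1) (Function.update hi e 1) S) := by
  simp only [sum_filter, mul_sum, ← sum_add_distrib]
  refine sum_congr rfl fun S _ => ?_
  rw [wt_upd]
  have := cnt_le S e
  obtain h | h | h : cnt S e = 0 ∨ cnt S e = 1 ∨ cnt S e = 2 := by omega
  all_goals simp [h]

theorem pick {γ x : ℝ} (h1 : 1 / 2 ≤ γ) (h2 : γ < 1) (hx : 0 < x) :
    ∃ k : ℤ, x ≤ γ ^ k ∧ γ ^ k ≤ 2 * x := by
  have h0 : 0 < γ := by linarith
  obtain ⟨m, h3, h4⟩ := exists_mem_Ioc_zpow hx ((one_lt_inv₀ h0).2 h2)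
  refine ⟨-(m + 1), by rwa [← inv_zpow'], ?_⟩
  rw [← inv_zpow', zpow_add_one₀ (by positivity)]
  have h5 : γ⁻¹ ≤ 2 := by
    rw [inv_le_comm₀ h0 (by norm_num)]
    linarith
  have h6 : 0 < γ⁻¹ ^ m := by positivity
  nlinarith

theorem one_step {γ s a b c : ℝ} (h1 : 1 / 2 ≤ γ) (h2 : γ < 1) (hs : 0 ≤ s) (ha : 0 ≤ a)
    (hb : 0 < b) (hc : 0 ≤ c) (h : a * c ≤ 5 * b ^ 2) :
    ∃ k : ℤ, s / γ ^ k * a + b + s * γ ^ k * c ≤ (1 + 7 * s) * b := by
  have h0 : 0 < γ := by linarith
  obtain ⟨x, hx, h3, h4⟩ : ∃ x, 0 < x ∧ a ≤ 3 * b * x ∧ c * x ≤ 2 * b := by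
    rcases ha.eq_or_lt with rfl | ha'
    · refine ⟨b / (b + c), by positivity, by positivity, ?_⟩
      rw [← mul_div_assoc, div_le_iff₀ (by positivity)]
      nlinarith
    · refine ⟨a / (3 * b), by positivity, le_of_eq (by field_simp), ?_⟩
      rw [← mul_div_assoc, div_le_iff₀ (by positivity)]
      nlinarith
  obtain ⟨k, h5, h6⟩ := pick h1 h2 hx
  refine ⟨k, ?_⟩
  have hz : 0 < γ ^ k := by positivity
  have h7 : a / γ ^ k ≤ 3 * b := by
    rw [div_le_iff₀ hz]
    nlinarith
  have h8 : γ ^ k * c ≤ 4 * b := by nlinarith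
  have h9 : s / γ ^ k * a = s * (a / γ ^ k) := by ring
  rw [h9, mul_assoc]
  nlinarith [mul_le_mul_of_nonneg_left h7 hs, mul_le_mul_of_nonneg_left h8 hs]

theorem ind (h : TriStmt E) {B : Finset (Finset (E × Bool))} (hB : Fam B) (hT : ∃ S ∈ B, Tr S)
    {γ : ℝ} (j : ℕ) (h1 : 1 / 2 ≤ γ) (h2 : γ < 1) {s0 : ℝ} (h3 : 0 < s0) (h4 : s0 ≤ 1)
    (D : Finset E) :
    ∃ k : E → ℤ, ∑ S ∈ B, wt (fun e => if e ∈ D then γ ^ ((j : ℤ) - k e) else s0)
      (fun e => if e ∈ D then γ ^ ((j : ℤ) + k e) else s0) S ≤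
      (1 + 7 * γ ^ j) ^ D.card * ∑ S ∈ B, wt (fun _ => s0) (fun _ => s0) S := by
  have h0 : 0 < γ := by linarith
  induction D using Finset.induction_on with
  | empty => exact ⟨fun _ => 0, by simp⟩
  | insert e D he ih =>
    obtain ⟨k, hk⟩ := ih
    set lo : E → ℝ := fun e => if e ∈ D then γ ^ ((j : ℤ) - k e) else s0 with hlo
    set hi : E → ℝ := fun e => if e ∈ D then γ ^ ((j : ℤ) + k e) else s0 with hhi
    have p1 : ∀ a, 0 < Function.update lo e 1 a := by
      intro a
      rw [Function.update_apply, hlo]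
      dsimp only
      split_ifs <;> positivity
    have p2 : ∀ a, 0 < Function.update hi e 1 a := by
      intro a
      rw [Function.update_apply, hhi]
      dsimp only
      split_ifs <;> positivity
    have p3 : ∀ a, Function.update lo e 1 a * Function.update hi e 1 a ≤ 1 := by
      intro a
      rw [Function.update_apply, Function.update_apply, hlo, hhi]
      dsimp only
      split_ifs
      · simp
      · rw [← zpow_add₀ h0.ne']
        exact zpow_le_one₀ h0 h2.le (by omega)
      · nlinarith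
    have tri := h B hB _ _ p1 p2 p3 e (by simp) (by simp)
    have old := sum_upd B lo hi e s0 s0
    rw [show Function.update lo e s0 = lo from Function.update_eq_self_iff.2 (by simp [hlo, he]),
      show Function.update hi e s0 = hi from Function.update_eq_self_iff.2 (by simp [hhi, he])]
      at old
    have nn : ∀ i : ℕ, 0 ≤ ∑ S ∈ B.filter (cnt · e = i),
        wt (Function.update lo e 1) (Function.update hi e 1) S :=
      fun i => sum_nonneg fun S _ => (wt_pos p1 p2 S).le
    have hb : 0 < ∑ S ∈ B.filter (cnt · e = 1),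
        wt (Function.update lo e 1) (Function.update hi e 1) S := by
      obtain ⟨S, hS, hS'⟩ := hT
      exact sum_pos (fun S _ => wt_pos p1 p2 S) ⟨S, mem_filter.2 ⟨hS, hS' e⟩⟩
    have hs : 0 ≤ γ ^ j := by positivity
    obtain ⟨z, hz⟩ := one_step h1 h2 hs (nn 0) hb (nn 2) tri
    refine ⟨Function.update k e z, ?_⟩
    have e1 : (fun a => if a ∈ insert e D then γ ^ ((j : ℤ) - Function.update k e z a) else s0) =
        Function.update lo e (γ ^ j / γ ^ z) := by
      funext a
      by_cases ha : a = e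
      · subst ha
        simp [zpow_sub₀ h0.ne']
      · simp [hlo, ha]
    have e2 : (fun a => if a ∈ insert e D then γ ^ ((j : ℤ) + Function.update k e z a) else s0) =
        Function.update hi e (γ ^ j * γ ^ z) := by
      funext a
      by_cases ha : a = e
      · subst ha
        simp [zpow_add₀ h0.ne']
      · simp [hhi, ha]
    rw [e1, e2, sum_upd, card_insert_of_notMem he, pow_succ']
    refine hz.trans ?_
    rw [mul_assoc]
    refine mul_le_mul_of_nonneg_left (le_trans ?_ hk) (by positivity)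
    rw [old]
    nlinarith [mul_nonneg h3.le (nn 0), mul_nonneg h3.le (nn 2)]

theorem base (B : Finset (Finset (E × Bool))) {s0 : ℝ} (h3 : 0 < s0) (h4 : s0 ≤ 1) :
    ∑ S ∈ B, wt (fun _ => s0) (fun _ => s0) S ≤ (B.filter Tr).card + B.card * s0 := by
  rw [card_filter, Nat.cast_sum, ← nsmul_eq_mul, ← sum_const, ← sum_add_distrib]
  refine sum_le_sum fun S _ => ?_
  by_cases hS : Tr S
  · rw [wt_tr _ _ hS, if_pos hS]
    push_cast
    linarith
  · rw [if_neg hS]
    obtain ⟨e, he⟩ := not_forall.1 hS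
    unfold wt
    rw [← mul_prod_erase univ _ (mem_univ e)]
    have a1 : (if cnt S e = 0 then s0 else if cnt S e = 1 then 1 else s0) = s0 := by
      simp [he]
    have a2 : ∏ a ∈ univ.erase e, (if cnt S a = 0 then s0 else if cnt S a = 1 then 1 else s0) ≤ 1 :=
      prod_le_one (fun a _ => by split_ifs <;> linarith) fun a _ => by split_ifs <;> linarith
    rw [a1]
    push_cast
    nlinarith

theorem part1 (h : TriStmt E) {B : Finset (Finset (E × Bool))} (hB : Fam B) (hT : ∃ S ∈ B, Tr S)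
    {γ : ℝ} (j : ℕ) (h1 : 1 / 2 ≤ γ) (h2 : γ < 1) (h3 : 14 * Fintype.card E * γ ^ j ≤ 1) :
    ∃ k : E → ℤ, ∑ S ∈ B, γ ^ W j k S ≤ 4 * (B.filter Tr).card := by
  have h0 : 0 < γ := by linarith
  have p4 : (1 : ℝ) ≤ 4 ^ Fintype.card E := one_le_pow₀ (by norm_num)
  have s1 : (0 : ℝ) < 1 / 4 ^ Fintype.card E := by positivity
  have s2 : (1 : ℝ) / 4 ^ Fintype.card E ≤ 1 := by rwa [div_le_one (by positivity)]
  obtain ⟨k, hk⟩ := ind h hB hT j h1 h2 s1 s2 univ
  refine ⟨k, ?_⟩
  simp only [mem_univ, if_true, card_univ] at hk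
  simp only [gam_W h0.ne']
  refine hk.trans ?_
  have a1 := base B s1 s2
  have a2 : (B.card : ℝ) * (1 / 4 ^ Fintype.card E) ≤ 1 := by
    rw [mul_one_div, div_le_one (by positivity)]
    exact_mod_cast card_fam B
  have a3 : (1 : ℝ) ≤ (B.filter Tr).card := by
    obtain ⟨S, hS, hS'⟩ := hT
    exact_mod_cast card_pos.2 ⟨S, mem_filter.2 ⟨hS, hS'⟩⟩
  have hs : 0 ≤ γ ^ j := by positivity
  have a4 : (1 + 7 * γ ^ j) ^ Fintype.card E ≤ 2 := by
    have b1 : 1 + 7 * γ ^ j ≤ Real.exp (7 * γ ^ j) := by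
      have := Real.add_one_le_exp (7 * γ ^ j)
      linarith
    refine (pow_le_pow_left₀ (by positivity) b1 _).trans ?_
    rw [← Real.exp_nat_mul]
    refine (Real.exp_le_exp.2 (show _ ≤ Real.log 2 from ?_)).trans
      (Real.exp_log (by norm_num)).le
    have := Real.log_two_gt_d9
    linarith
  have a5 : 0 ≤ ∑ S ∈ B, wt (fun _ : E => (1 : ℝ) / 4 ^ Fintype.card E)
      (fun _ => 1 / 4 ^ Fintype.card E) S :=
    sum_nonneg fun S _ => (wt_pos (fun _ => s1) (fun _ => s1) S).le
  nlinarith [mul_le_mul_of_nonneg_right a4 a5]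

theorem aug {B : Finset (Finset (E × Bool))} (hB : Fam B) (p : E × Bool → Prop) [DecidablePred p]
    {S : Finset (E × Bool)} (hS : S ∈ B) (m : ℕ) : ∀ T ∈ B, (T \ S).card = m →
    (T.filter p).card < (S.filter p).card →
    ∃ y ∈ S, p y ∧ ∃ x, x ∉ S ∧ ¬p x ∧ sw S y x ∈ B := by
  induction m using Nat.strong_induction_on with
  | _ m ih =>
    intro T hT hm hc
    by_cases h : ∃ y ∈ T, y ∉ S ∧ p y
    · obtain ⟨y, y1, y2, y3⟩ := h
      obtain ⟨z, z1, z2, z3⟩ := hB.exch T hT S hS y y1 y2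
      refine ih _ ?_ _ z3 rfl (lt_of_le_of_lt ?_ hc)
      · rw [← hm]
        refine card_lt_card ⟨fun x hx => ?_, fun hx => ?_⟩
        · rw [mem_sdiff, mem_sw] at hx
          rcases hx with ⟨rfl | hx, hx'⟩
          · exact absurd z1 hx'
          · exact mem_sdiff.2 ⟨hx.2, hx'⟩
        · have := hx (mem_sdiff.2 ⟨y1, y2⟩)
          rw [mem_sdiff, mem_sw] at this
          rcases this.1 with rfl | h'
          · exact y2 z1
          · exact h'.1 rfl
      · have a1 : (sw T y z).filter p ⊆ insert z ((T.filter p).erase y) := by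
          intro x hx
          rw [mem_filter, mem_sw] at hx
          rw [mem_insert, mem_erase, mem_filter]
          tauto
        have a2 := card_erase_add_one (mem_filter.2 ⟨y1, y3⟩ : y ∈ T.filter p)
        exact (card_le_card a1).trans ((card_insert_le _ _).trans a2.le)
    · push Not at h
      obtain ⟨y, y1, y2, y3⟩ : ∃ y ∈ S, y ∉ T ∧ p y := by
        by_contra h'
        push Not at h'
        refine absurd (card_le_card fun x hx => ?_) (not_le.2 hc)
        rw [mem_filter] at hx ⊢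
        exact ⟨by_contra fun a => h' x hx.1 a hx.2, hx.2⟩
      obtain ⟨x, x1, x2, x3⟩ := hB.exch S hS T hT y y1 y2
      exact ⟨y, y1, y3, x, x2, h x x1 x2, x3⟩

/-- The linear part of the energy. -/
def ex (k : E → ℤ) (S : Finset (E × Bool)) : ℤ := ∑ e, k e * ((cnt S e : ℤ) - 1)

theorem ex_eq (k : E → ℤ) (S : Finset (E × Bool)) : ex k S = ∑ c ∈ S, k c.1 - ∑ e, k e := by
  rw [sum_fst, ← sum_sub_distrib]
  exact sum_congr rfl fun e _ => by ring

theorem ex_sw (k : E → ℤ) {S : Finset (E × Bool)} {y x : E × Bool} (hy : y ∈ S) (hx : x ∉ S) :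
    ex k (sw S y x) = ex k S - k y.1 + k x.1 := by
  rw [ex_eq, ex_eq, sw, sum_insert fun h => hx (mem_of_mem_erase h), ← add_sum_erase S _ hy]
  ring

theorem W_eq (j : ℕ) (k : E → ℤ) (S : Finset (E × Bool)) :
    W j k S = j * ∑ e, |(cnt S e : ℤ) - 1| + ex k S := by
  rw [W, sum_add_distrib, mul_sum, ex]

theorem abs_le_card (S : Finset (E × Bool)) :
    ∑ e, |(cnt S e : ℤ) - 1| ≤ Fintype.card E := by
  refine (sum_le_card_nsmul _ _ 1 fun e _ => ?_).trans (by simp)
  have := cnt_le S e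
  rw [abs_le]
  omega

theorem trunc {B : Finset (Finset (E × Bool))} (hB : Fam B) (hT : ∃ S ∈ B, Tr S) (k : E → ℤ)
    (G : ℕ) : ∃ k' : E → ℤ, (∀ e, 0 ≤ k' e ∧ k' e ≤ Fintype.card E * G) ∧
      ∀ S ∈ B, ex k S ≤ ex k' S ∨ ∃ S' ∈ B, ex k' S' + G ≤ ex k' S := by
  classical
  obtain ⟨T, hT, hT'⟩ := hT
  obtain ⟨m, A, hm⟩ : ∃ (m : E → ℕ) (A : ℤ), ∀ e, k e = m e - A := by
    refine ⟨fun e => (k e + ∑ a, |k a|).toNat, ∑ a, |k a|, fun e => ?_⟩
    have a1 := single_le_sum (f := fun a => |k a|) (fun a _ => abs_nonneg _) (mem_univ e)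
    have a2 := neg_abs_le (k e)
    dsimp only at a1 ⊢
    omega
  obtain ⟨M, hM⟩ : ∃ M : ℕ, ∀ e, m e ≤ M :=
    ⟨∑ a, m a, fun e => single_le_sum (f := m) (fun a _ => Nat.zero_le _) (mem_univ e)⟩
  let mk : ℕ → Prop := fun u => ∃ e, u < m e ∧ m e ≤ u + G
  refine ⟨fun e => ((range (m e)).filter mk).card, fun e => ⟨Int.natCast_nonneg _, ?_⟩,
    fun S hS => ?_⟩
  · have a1 : (range (m e)).filter mk ⊆ univ.biUnion fun a => Ico (m a - G) (m a) := by
      intro u hu
      obtain ⟨a, a1, a2⟩ := (mem_filter.1 hu).2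
      exact mem_biUnion.2 ⟨a, mem_univ _, mem_Ico.2 ⟨by omega, a1⟩⟩
    have a2 := (card_le_card a1).trans (card_biUnion_le_card_mul _ _ G fun a _ => by
      rw [Nat.card_Ico]; omega)
    rw [card_univ] at a2
    dsimp only
    exact_mod_cast a2
  by_cases h : ∃ u, ¬mk u ∧ 0 < ∑ e, if u < m e then (cnt S e : ℤ) - 1 else 0
  · right
    obtain ⟨u, u1, u2⟩ := h
    have c1 : ∀ X : Finset (E × Bool), ((X.filter fun c => u < m c.1).card : ℤ) =
        ∑ e, if u < m e then (cnt X e : ℤ) else 0 := by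
      intro X
      rw [card_filter]
      push_cast
      rw [sum_fst X fun e => if u < m e then 1 else 0]
      exact sum_congr rfl fun e _ => by split_ifs <;> simp
    have c2 : ((T.filter fun c => u < m c.1).card : ℤ) < (S.filter fun c => u < m c.1).card := by
      rw [c1, c1, ← sub_pos, ← sum_sub_distrib]
      refine u2.trans_eq (sum_congr rfl fun e _ => ?_)
      rw [hT' e]
      split_ifs <;> simp
    obtain ⟨y, y1, y2, x, x1, x2, x3⟩ := aug hB _ hS _ T hT rfl (by exact_mod_cast c2)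
    refine ⟨_, x3, ?_⟩
    rw [ex_sw _ y1 x1]
    have d1 : u + G < m y.1 := by
      by_contra d
      exact u1 ⟨y.1, y2, not_lt.1 d⟩
    have d2 : (range (m x.1)).filter mk ∪ Ico (m y.1 - G) (m y.1) ⊆ (range (m y.1)).filter mk := by
      intro v hv
      rw [mem_union, mem_filter, mem_range, mem_Ico] at hv
      rw [mem_filter, mem_range]
      rcases hv with hv | hv
      · exact ⟨by omega, hv.2⟩
      · exact ⟨hv.2, y.1, hv.2, by omega⟩
    have d3 : Disjoint ((range (m x.1)).filter mk) (Ico (m y.1 - G) (m y.1)) := by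
      rw [disjoint_left]
      intro v hv hv'
      rw [mem_filter, mem_range] at hv
      rw [mem_Ico] at hv'
      omega
    have d4 := card_le_card d2
    rw [card_union_of_disjoint d3, Nat.card_Ico] at d4
    omega
  · left
    push Not at h
    have c1 : ∀ e, k e = ((range (m e)).filter mk).card - A +
        ∑ u ∈ (range M).filter (¬mk ·), if u < m e then (1 : ℤ) else 0 := by
      intro e
      have a1 := card_filter_add_card_filter_not (s := range (m e)) mk
      have a2 : ((range M).filter (¬mk ·)).filter (· < m e) = (range (m e)).filter (¬mk ·) := by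
        ext u
        have := hM e
        simp only [mem_filter, mem_range]
        exact ⟨fun a => ⟨a.2, a.1.2⟩, fun a => ⟨⟨by omega, a.2⟩, a.1⟩⟩
      rw [sum_boole, a2, hm e]
      rw [card_range] at a1
      omega
    have c2 : ex k S = ex (fun e => ((range (m e)).filter mk).card) S -
        A * ∑ e, ((cnt S e : ℤ) - 1) +
        ∑ u ∈ (range M).filter (¬mk ·), ∑ e, if u < m e then (cnt S e : ℤ) - 1 else 0 := by
      rw [sum_comm, ex, ex, mul_sum, ← sum_sub_distrib, ← sum_add_distrib]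
      refine sum_congr rfl fun e _ => ?_
      rw [c1 e, add_mul, sum_mul, sub_mul]
      simp only [ite_mul, one_mul, zero_mul]
    rw [c2, hB.sum_g hS, mul_zero, sub_zero, add_le_iff_nonpos_right]
    exact sum_nonpos fun u hu => h u (mem_filter.1 hu).2

end Cp

open Finset Cp in
theorem cap (E : Type) [Fintype E] [DecidableEq E] (h : TriStmt E) : CapStmt E := by
  intro B hB hT γ j G h1 h2 h3 h4
  have h0 : 0 < γ := by linarith
  obtain ⟨k, hk⟩ := part1 h hB hT j h1 h2 h3
  obtain ⟨k', b1, b2⟩ := trunc hB hT k G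
  refine ⟨k', b1, ?_⟩
  obtain ⟨T, hT, hT'⟩ := hT
  obtain ⟨Z, hZ, hZ'⟩ := exists_min_image B (ex k') ⟨T, hT⟩
  have p4 : (0 : ℝ) < 4 ^ Fintype.card E := by positivity
  have a2 : (B.card : ℝ) ≤ 4 ^ Fintype.card E := by exact_mod_cast card_fam B
  have a3 : (1 : ℝ) ≤ (B.filter Tr).card := by
    exact_mod_cast card_pos.2 ⟨T, mem_filter.2 ⟨hT, hT'⟩⟩
  have a4 : ((B.filter Tr).card : ℝ) ≤ B.card := by exact_mod_cast card_filter_le _ _
  have anti : ∀ {x y : ℤ}, x ≤ y → γ ^ y ≤ γ ^ x := fun a => zpow_le_zpow_right_of_le_one₀ h0 h2.le a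
  have key : ∀ S ∈ B, γ ^ W j k' S ≤ γ ^ W j k S + 1 / 4 ^ Fintype.card E := by
    intro S hS
    have q1 : (0 : ℝ) < 1 / 4 ^ Fintype.card E := by positivity
    have q2 : 0 < γ ^ W j k S := by positivity
    rcases b2 S hS with c | ⟨S', c1, c2⟩
    · have : γ ^ W j k' S ≤ γ ^ W j k S := anti (by rw [W_eq, W_eq]; omega)
      linarith
    · have d1 := hZ' S' c1
      have d0 : (0 : ℤ) ≤ G := Int.natCast_nonneg _
      have hG : γ ^ W j k' S * γ ^ (j * Fintype.card E) ≤ γ ^ G * γ ^ W j k Z ∨ G = 0 := by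
        rcases b2 Z hZ with d2 | ⟨Z', d2, d3⟩
        · left
          rw [← zpow_natCast, ← zpow_natCast, ← zpow_add₀ h0.ne', ← zpow_add₀ h0.ne']
          refine anti ?_
          rw [W_eq, W_eq]
          have d4 := mul_le_mul_of_nonneg_left (abs_le_card Z) (Int.natCast_nonneg j)
          have d5 : 0 ≤ (j : ℤ) * ∑ e, |(cnt S e : ℤ) - 1| :=
            mul_nonneg (Int.natCast_nonneg j) (sum_nonneg fun e _ => abs_nonneg _)
          push_cast
          omega
        · right
          have := hZ' Z' d2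
          omega
      have p16 : (16 : ℝ) ^ Fintype.card E = 4 ^ Fintype.card E * 4 ^ Fintype.card E := by
        rw [← mul_pow]; norm_num
      have d6 : 0 < γ ^ (j * Fintype.card E) := by positivity
      rcases hG with hG | rfl
      · have d7 : γ ^ W j k Z ≤ 4 * 4 ^ Fintype.card E := by
          have := single_le_sum (f := fun S => γ ^ W j k S) (fun S _ => by positivity) hZ
          linarith
        have d8 : γ ^ W j k' S ≤ 1 / 4 ^ Fintype.card E := by
          rw [le_div_iff₀ p4]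
          refine le_of_mul_le_mul_right ?_ d6
          have d9 : 0 < γ ^ G := by positivity
          have := mul_le_mul_of_nonneg_left d7 d9.le
          have := mul_le_mul_of_nonneg_right (hG.trans this) p4.le
          rw [p16] at h4
          nlinarith
        linarith
      · exfalso
        have d7 : γ ^ (j * Fintype.card E) ≤ 1 := pow_le_one₀ h0.le h2.le
        have d8 : (1 : ℝ) ≤ 16 ^ Fintype.card E := one_le_pow₀ (by norm_num)
        rw [pow_zero] at h4
        linarith
  refine (sum_le_sum key).trans ?_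
  rw [sum_add_distrib, sum_const, nsmul_eq_mul, mul_one_div]
  have : (B.card : ℝ) / 4 ^ Fintype.card E ≤ 1 := by rwa [div_le_one p4]
  linarith

end Vale.Agent.P317
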