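import Mathlib

/-!
Oracle algorithms for two matroids: definitions used in the statement.
-/

namespace Vale.Agent.P317

/-- Self-delimiting binary code of a list: each item is preceded by `1`, the end is `0`. -/
def codeList {α : Type} (f : α → List Bool) (l : List α) : List Bool :=
  (l.flatMap fun a => true :: f a) ++ [false]

/-- Code of a pair. -/
def codePair (x y : List Bool) : List Bool := true :: (x ++ y)

/-- Code of a bit. -/
def codeBit (b : Bool) : List Bool := if b then [true, false, false] else [false]

/-- Code of a list of bits. -/
def codeBits (l : List Bool) : List Bool := codeList codeBit l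

/-- Code of a number: the list of its binary digits. -/
def codeNat (n : ℕ) : List Bool := codeBits n.bits

/-- Code of the data of one round: a list of numbers, the random bits, the answers so far. -/
def codeIn (a : List ℕ × List Bool × List Bool) : List Bool :=
  codePair (codeList codeNat a.1) (codePair (codeBits a.2.1) (codeBits a.2.2))

/-- Code of the result of one round: the next query and a fraction. -/
def codeOut (a : (Bool × List Bool) × ℕ × ℕ) : List Bool :=
  codePair (codePair (codeBit a.1.1) (codeBits a.1.2)) (codePair (codeNat a.2.1) (codeNat a.2.2))

open Classical in
/-- The independence oracles: the bit chooses the matroid, the list is the indicator of a set. -/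
noncomputable def oracle {n : ℕ} (M₁ M₂ : Matroid (Fin n)) (y : Bool × List Bool) : Bool :=
  decide ((if y.1 then M₂ else M₁).Indep {i : Fin n | y.2.getD i false = true})

/-- The answers of the oracle in the first rounds; each query is computed from earlier answers. -/
def answers (O : Bool × List Bool → Bool) (next : List Bool → Bool × List Bool) : ℕ → List Bool
  | 0 => []
  | t + 1 => answers O next t ++ [O (next (answers O next t))]

/-- The number output after `T` oracle calls. -/
def estimate (f : List ℕ × List Bool × List Bool → (Bool × List Bool) × ℕ × ℕ)
    (O : Bool × List Bool → Bool) (x : List ℕ) (ρ : List Bool) (T : ℕ) : ℚ :=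
  ((f (x, ρ, answers O (fun l => (f (x, ρ, l)).1) T)).2.1 : ℚ) /
    (f (x, ρ, answers O (fun l => (f (x, ρ, l)).1) T)).2.2

end Vale.Agent.P317
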