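import Vale.Agent.P317.Mat

/-!
The nested loops of the algorithm as one flat loop; the answers of the oracle as an iteration.
-/

namespace Vale.Agent.P317.Mt

section

variable {σ : Type}

/-- Iteration of a time dependent step. -/
def rt (F : ℕ → List Bool → σ → σ) (L : ℕ) (l : List Bool) (x : σ) : ℕ → σ
  | 0 => x
  | t + 1 => F t ((l.drop (t * L)).take L) (rt F L l x t)

/-- A periodic extra action. -/
def wrap (M : ℕ) (h : σ → σ) (F : ℕ → List Bool → σ → σ) (s : ℕ) (l : List Bool) (x : σ) : σ :=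
  if (s + 1) % M = 0 then h (F s l x) else F s l x

variable {F : ℕ → List Bool → σ → σ} {L : ℕ}

theorem rt_add (l : List Bool) (x : σ) (S T : ℕ) : rt F L l x (S + T) =
    rt (fun s => F (S + s)) L (l.drop (S * L)) (rt F L l x S) T := by
  induction T with
  | zero => rfl
  | succ T ih => rw [← add_assoc, rt, rt, ih, List.drop_drop, add_mul]

theorem rt_take (l : List Bool) (x : σ) {P : ℕ} (T : ℕ) (h : T * L ≤ P) :
    rt F L (l.take P) x T = rt F L l x T := by
  induction T with
  | zero => rfl
  | succ T ih =>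
    rw [add_mul, one_mul] at h
    rw [rt, rt, ih (by omega), List.drop_take, List.take_take, min_eq_left (by omega)]

theorem rt_mul {P : ℕ} (h : ∀ s, F (P + s) = F s) (U : ℕ) : ∀ (l : List Bool) (x : σ),
    rt F L l x (U * P) = run (fun l x => rt F L l x P) (P * L) U l x := by
  induction U with
  | zero => intro l x; rw [zero_mul]; rfl
  | succ U ih =>
    intro l x
    rw [show (U + 1) * P = P + U * P by ring, rt_add, funext h, ih, run, rt_take l x P le_rfl]

theorem rt_const (G : List Bool → σ → σ) (T : ℕ) (l : List Bool) (x : σ) :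
    rt (fun _ => G) L l x T = run G L T l x := by
  induction T with
  | zero => rfl
  | succ T ih => rw [run_add, rt, ih]; rfl

theorem rt_wrap {M : ℕ} (hM : 0 < M) (h : σ → σ) (l : List Bool) (x : σ) :
    rt (wrap M h F) L l x M = h (rt F L l x M) := by
  have key : ∀ T < M, rt (wrap M h F) L l x T = rt F L l x T := by
    intro T hT
    induction T with
    | zero => rfl
    | succ T ih => rw [rt, rt, ih (by omega), wrap, if_neg (by rw [Nat.mod_eq_of_lt hT]; omega)]
  obtain ⟨T, rfl⟩ : ∃ T, M = T + 1 := ⟨M - 1, by omega⟩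
  rw [rt, rt, key T (by omega), wrap, if_pos (Nat.mod_self _)]

theorem wrap_per {M : ℕ} (hF : ∀ s, F (M + s) = F s) (h : σ → σ) (s : ℕ) :
    wrap M h F (M + s) = wrap M h F s := by
  funext l x
  rw [wrap, wrap, hF, add_assoc, Nat.add_mod_left]

theorem per_mul {P : ℕ} (hF : ∀ s, F (P + s) = F s) (U s : ℕ) : F (U * P + s) = F s := by
  induction U with
  | zero => rw [zero_mul, zero_add]
  | succ U ih => rw [show (U + 1) * P + s = P + (U * P + s) by ring, hF, ih]

theorem answers_fold {O : Bool × List Bool → Bool} {next : List Bool → Bool × List Bool}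
    (G : σ → Bool → σ) (Q : σ → Bool × List Bool) (y : σ) (h : ∀ l, next l = Q (l.foldl G y))
    (t : ℕ) : (answers O next t).foldl G y = (fun z => G z (O (Q z)))^[t] y := by
  induction t with
  | zero => rfl
  | succ t ih => rw [answers, List.foldl_append, h, ih, Function.iterate_succ_apply']; rfl

end

variable {n : ℕ} (b : ℕ) (B : Finset (Finset (Fin n × Bool)))

/-- The flat step. -/
def flat : ℕ → List Bool → St n → St n :=
  wrap (T3 b * (T2 b * T1 b)) h3 (wrap (T2 b * T1 b) h2 (wrap (T1 b) h1 fun _ => fstep b B))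

theorem rt_flat (U : ℕ) (l : List Bool) (x : St n) :
    rt (flat b B) (B0 b) l x (U * (T3 b * (T2 b * T1 b))) =
      run (stg b B) (T3 b * (T2 b * (T1 b * B0 b))) U l x := by
  have hq : 0 < q b := Nat.two_pow_pos b
  have a1 : 0 < T1 b := pow_pos hq _
  have a2 : 0 < T2 b * T1 b := mul_pos (pow_pos hq _) a1
  have a3 : 0 < T3 b * (T2 b * T1 b) := mul_pos (pow_pos hq _) a2
  have p1 := wrap_per (F := fun _ => fstep b B) (M := T1 b) (fun _ => rfl) h1
  have p2 := wrap_per (per_mul p1 (T2 b)) h2
  have p3 := wrap_per (per_mul p2 (T3 b)) h3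
  have e1 : (fun l x => rt (wrap (T1 b) h1 fun _ => fstep b B) (B0 b) l x (T1 b)) = att b B := by
    funext l x; rw [rt_wrap a1, rt_const]; rfl
  have e2 : (fun l x => rt (wrap (T2 b * T1 b) h2 (wrap (T1 b) h1 fun _ => fstep b B)) (B0 b) l x
      (T2 b * T1 b)) = smp b B := by
    funext l x; rw [rt_wrap a2, rt_mul p1, e1]; rfl
  have e3 : (fun l x => rt (flat b B) (B0 b) l x (T3 b * (T2 b * T1 b))) = stg b B := by
    funext l x; rw [flat, rt_wrap a3, rt_mul p2, e2, mul_assoc]; rfl
  rw [rt_mul (F := flat b B) p3, e3, mul_assoc, mul_assoc]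

/-- All stored sets are members of the family. -/
def Good (x : St n) : Prop := x.S ∈ B ∧ x.X ∈ B ∧ ∀ β, x.R β ∈ B

variable {b B}

theorem good_flat (s : ℕ) (l : List Bool) {x : St n} (h : Good B x) : Good B (flat b B s l x) := by
  have g0 : Good B (fstep b B l x) := by
    obtain ⟨S, hS, e⟩ := fstep_eq (b := b) l h.1
    rw [e]; exact ⟨(mem_res.1 hS).1, h.2⟩
  have g1 : ∀ x, Good B x → Good B (h1 x) := fun x h => by
    unfold h1; split_ifs
    exacts [⟨h.1, h.1, h.2.2⟩, h]
  have g2 : ∀ x, Good B x → Good B (h2 x) := fun x h => by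
    unfold h2; split_ifs
    · refine ⟨h.1, h.2.1, fun β => ?_⟩
      dsimp only
      split_ifs
      exacts [h.2.1, h.2.2 β]
    · exact h
  have g3 : ∀ x, Good B x → Good B (h3 x) := fun x h => ⟨h.2.2 _, h.2.1, fun _ => h.2.2 _⟩
  have gw : ∀ (M : ℕ) (g : St n → St n) (F : ℕ → List Bool → St n → St n),
      (∀ x, Good B x → Good B (g x)) → Good B (F s l x) → Good B (wrap M g F s l x) :=
    fun M g F hg hF => by
      unfold wrap; split_ifs
      exacts [hg _ hF, hF]
  exact gw _ _ _ g3 (gw _ _ _ g2 (gw _ _ _ g1 g0))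

end Vale.Agent.P317.Mt
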