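import Vale.Agent.P317.Base

/-!
The law of the estimate.
-/

namespace Vale.Agent.P317

open Finset
open Vale.Agent.P328 (Ex val)
open Vale.Agent.P328.Lw

namespace La

variable {n : ℕ} {b : ℕ} {B : Finset (Finset (Fin n × Bool))}

/-- States between two samples. -/
structure Inv (B : Finset (Finset (Fin n × Bool))) (e : ℕ) (S : Finset (Fin n × Bool)) (d : ℕ)
    (x : St n) : Prop where
  hS : x.S ∈ res B e S
  hk : ∀ i, x.k i = 0
  hf : x.fl = false
  he : x.e = e
  hd : x.den = d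
  hR : ∀ β, x.R β ∈ res B e S
  hc : ∀ β, 0 < x.c β → Tr (x.R β) ∧ bit (x.R β) e = β

theorem smp_inv {e d : ℕ} {S : Finset (Fin n × Bool)} (l : List Bool) {x : St n}
    (h : Inv B e S d x) :
    Inv B e S d (smp b B l x) ∧ ∀ β, (smp b B l x).c β = x.c β ∨ (smp b B l x).c β = x.c β + 1 := by
  have key := run_inv (att b B) (T1 b * B0 b) (fun y => y.S ∈ res B e S ∧ y.e = e ∧ y.den = d ∧
    y.R = x.R ∧ y.c = x.c ∧ (y.fl = true → y.X ∈ res B e S ∧ Tr y.X)) (by
      rintro l y ⟨h1, h2, h3, h4, h5, h6⟩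
      obtain ⟨T, hT, e1⟩ := frun_eq (b := b) (B0 b) (T1 b) l (mem_res.1 h1).1
      rw [h2, res_eq h1] at hT
      rw [att, e1, P317.h1]
      split_ifs with h7
      · exact ⟨hT, h2, h3, h4, h5, fun _ => ⟨hT, h7.2⟩⟩
      · exact ⟨hT, h2, h3, h4, h5, h6⟩) (T2 b) l x
    ⟨h.hS, h.he, h.hd, rfl, rfl, fun h' => by simp [h.hf] at h'⟩
  rw [smp]
  generalize run (att b B) (T1 b * B0 b) (T2 b) l x = y at key
  obtain ⟨h1, h2, h3, h4, h5, h6⟩ := key
  rw [P317.h2]
  split_ifs with h7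
  · refine ⟨⟨h1, fun _ => rfl, rfl, h2, h3, fun β => ?_, fun β => ?_⟩, fun β => ?_⟩
    · dsimp only
      split_ifs
      exacts [(h6 h7).1, h4 ▸ h.hR β]
    · dsimp only
      split_ifs with h8
      · exact fun _ => ⟨(h6 h7).2, by rw [h8, h2]⟩
      · rw [h4, h5]; exact h.hc β
    · dsimp only
      rw [h5]
      split_ifs
      exacts [Or.inr rfl, Or.inl rfl]
  · exact ⟨⟨h1, fun _ => rfl, by simpa using h7, h2, h3, h4 ▸ h.hR, by
      dsimp only; rw [h4, h5]; exact h.hc⟩, fun β => Or.inl (congrFun h5 β)⟩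

/-- The share of the transversals of one kind. -/
noncomputable def pr (B : Finset (Finset (Fin n × Bool))) (e : ℕ) (S : Finset (Fin n × Bool))
    (β : Bool) : ℝ :=
  (((res B e S).filter fun T => Tr T ∧ bit T e = β).card : ℝ) / ((res B e S).filter Tr).card

theorem mom (hs : SampStmt b B) {e d : ℕ} {S : Finset (Fin n × Bool)}
    (hN : ∃ T ∈ res B e S, Tr T) (β : Bool) {θ : ℝ} (hθ : |θ| ≤ 1) (T : ℕ) :
    ∀ x, Inv B e S d x → Ex (T * (T2 b * (T1 b * B0 b)))
      (fun l => Real.exp (θ * (run (smp b B) (T2 b * (T1 b * B0 b)) T l x).c β)) ≤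
      Real.exp (θ * x.c β + T * (θ ^ 2 + θ * pr B e S β + |θ| * (2 / (q b : ℝ) ^ 2))) := by
  induction T with
  | zero => intro x _; simp [run, Ex]
  | succ T ih =>
    intro x hx
    set κ := θ ^ 2 + θ * pr B e S β + |θ| * (2 / (q b : ℝ) ^ 2) with hκ
    set A := Real.exp (θ * x.c β + T * κ) with hA
    have h1 := hs x (mem_res.1 hx.hS).1 hx.hk hx.hf (by rwa [hx.he, res_eq hx.hS]) β
    rw [hx.he, res_eq hx.hS, ← pr] at h1
    rw [Ex_run (smp b B) _ T fun y => Real.exp (θ * y.c β)]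
    refine (Ex_mono (G := fun l => A * (1 + θ ^ 2) + A * θ * (((smp b B l x).c β : ℝ) - x.c β) +
      0 * 0) fun l _ => (ih _ (smp_inv l hx).1).trans ?_).trans ?_
    · rcases (smp_inv (b := b) l hx).2 β with h | h
      · rw [h, ← hA]
        nlinarith [Real.exp_pos (θ * x.c β + T * κ), sq_nonneg θ]
      · have h2 := (abs_le.1 (Real.abs_exp_sub_one_sub_id_le hθ)).2
        rw [h, show θ * ((x.c β + 1 : ℕ) : ℝ) + T * κ = θ * x.c β + T * κ + θ by push_cast; ring,
          Real.exp_add, ← hA]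
        push_cast
        nlinarith [Real.exp_pos (θ * x.c β + T * κ)]
    · rw [Ex_lin _ _ _ _ _ fun _ => 0, zero_mul, add_zero, show θ * x.c β + (T + 1 : ℕ) * κ =
        θ * x.c β + T * κ + κ by push_cast; ring, Real.exp_add, ← hA, mul_assoc, ← mul_add]
      refine mul_le_mul_of_nonneg_left (le_trans ?_ (Real.add_one_le_exp κ)) (Real.exp_pos _).le
      have h2 := (le_abs_self _).trans ((abs_mul _ _).trans_le
        (mul_le_mul_of_nonneg_left h1 (abs_nonneg θ)))
      linarith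

/-- A bound for the indicator of a large deviation. -/
noncomputable def dev (Q p c : ℝ) : ℝ :=
  Real.exp (-(Q ^ 2 * p / 2) - Q / 2) * Real.exp (1 / (2 * Q) * c) +
    Real.exp (Q ^ 2 * p / 2 - Q / 2) * Real.exp (-(1 / (2 * Q)) * c)

theorem dev_nonneg (Q p c : ℝ) : 0 ≤ dev Q p c := by unfold dev; positivity

theorem dev_lt {Q p c : ℝ} (hQ : 0 < Q) (h : dev Q p c < 1) : |c - Q ^ 3 * p| ≤ Q ^ 2 := by
  rw [dev, ← Real.exp_add, ← Real.exp_add] at h
  have h1 := Real.exp_lt_one_iff.1 (lt_of_le_of_lt (le_add_of_nonneg_right (Real.exp_pos _).le) h)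
  have h2 := Real.exp_lt_one_iff.1 (lt_of_le_of_lt (le_add_of_nonneg_left (Real.exp_pos _).le) h)
  have h3 : c = 2 * Q * (1 / (2 * Q) * c) := by field_simp
  rw [abs_le]
  constructor <;> nlinarith

theorem Ex_dev (hq : 256 * (n + 1) ^ 2 ≤ q b) (hs : SampStmt b B) {e d : ℕ}
    {S : Finset (Fin n × Bool)} (hN : ∃ T ∈ res B e S, Tr T) (β : Bool) {x : St n}
    (hx : Inv B e S d x) (h0 : x.c β = 0) : Ex (T3 b * (T2 b * (T1 b * B0 b)))
      (fun l => dev (q b) (pr B e S β) ((run (smp b B) (T2 b * (T1 b * B0 b)) (T3 b) l x).c β)) ≤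
      2 * Real.exp (-(q b / 8)) := by
  have hQ := qR hq
  have a1 : |1 / (2 * (q b : ℝ))| = 1 / (2 * q b) := abs_of_pos (by positivity)
  have a2 : 1 / (2 * (q b : ℝ)) ≤ 1 := by rw [div_le_one (by positivity)]; linarith
  have h1 := mom hs hN β (a1.trans_le a2) (T3 b) x hx
  have h2 := mom hs hN β ((abs_neg _).trans_le (a1.trans_le a2)) (T3 b) x hx
  have h3 := Ex_lin (T3 b * (T2 b * (T1 b * B0 b))) 0
    (Real.exp (-((q b : ℝ) ^ 2 * pr B e S β / 2) - q b / 2))
    (Real.exp ((q b : ℝ) ^ 2 * pr B e S β / 2 - q b / 2))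
    (fun l => Real.exp (1 / (2 * (q b : ℝ)) *
      (run (smp b B) (T2 b * (T1 b * B0 b)) (T3 b) l x).c β))
    (fun l => Real.exp (-(1 / (2 * (q b : ℝ))) *
      (run (smp b B) (T2 b * (T1 b * B0 b)) (T3 b) l x).c β))
  simp only [zero_add] at h3
  simp only [dev]
  rw [h3, two_mul (Real.exp _)]
  rw [h0] at h1 h2
  rw [abs_neg] at h2
  rw [a1] at h1 h2
  have hT : ((T3 b : ℕ) : ℝ) = (q b : ℝ) ^ 3 := by rw [T3]; push_cast; rfl
  refine add_le_add ((mul_le_mul_of_nonneg_left h1 (Real.exp_pos _).le).trans ?_)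
    ((mul_le_mul_of_nonneg_left h2 (Real.exp_pos _).le).trans ?_)
  all_goals
    rw [← Real.exp_add, Real.exp_le_exp, hT]
    refine le_trans (le_of_eq (b := 1 - (q b : ℝ) / 4) ?_) (by linarith)
    field_simp
    ring

theorem bit_iff {T : Finset (Fin n × Bool)} (e : Fin n) : bit T e = true ↔ (e, true) ∈ T := by
  rw [bit, decide_eq_true_iff]
  exact ⟨fun ⟨c, h1, h2, h3⟩ => by rwa [← h3, ← Fin.ext h2], fun h => ⟨_, h, rfl, rfl⟩⟩

theorem res_succ {e : ℕ} (he : e < n) {S R : Finset (Fin n × Bool)} (hR : R ∈ res B e S)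
    (h : Tr R) : (res B (e + 1) R).filter Tr =
      (res B e S).filter fun T => Tr T ∧ bit T e = bit R e := by
  ext T
  rw [← res_eq hR]
  simp only [mem_filter, mem_res]
  have e1 : bit T e = bit R e ↔ (((⟨e, he⟩ : Fin n), true) ∈ T ↔ ((⟨e, he⟩ : Fin n), true) ∈ R) := by
    rw [← bit_iff, ← bit_iff, Bool.eq_iff_iff]
  rw [e1]
  refine ⟨fun ⟨⟨h1, h2⟩, h3⟩ => ⟨⟨h1, fun c hc => h2 c (by omega)⟩, h3, h2 _ (by simp)⟩,
    fun ⟨⟨h1, h2⟩, h3, h4⟩ => ⟨⟨h1, fun c hc => ?_⟩, h3⟩⟩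
  rcases (Nat.lt_succ_iff.1 hc).lt_or_eq with h5 | h5
  · exact h2 c h5
  · obtain ⟨c, β⟩ := c
    obtain rfl : c = ⟨e, he⟩ := Fin.ext h5
    cases β
    · have a1 := h3 ⟨e, he⟩
      have a2 := h ⟨e, he⟩
      unfold cnt at a1 a2
      split_ifs at a1 a2 <;> first | omega | tauto
    · exact h4

theorem pr_sum {e : ℕ} {S : Finset (Fin n × Bool)} (hN : ∃ T ∈ res B e S, Tr T) :
    pr B e S false + pr B e S true = 1 := by
  have h0 : 0 < ((res B e S).filter Tr).card :=
    card_pos.2 (hN.imp fun _ h => mem_filter.2 h)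
  rw [pr, pr, ← add_div, div_eq_one_iff_eq (by exact_mod_cast h0.ne'), ← Nat.cast_add,
    ← card_filter_add_card_filter_not (s := (res B e S).filter Tr) (fun T => bit T e = false),
    filter_filter, filter_filter]
  simp

/-- States between two stages. -/
def Good (B : Finset (Finset (Fin n × Bool))) (x : St n) : Prop :=
  Inv B x.e x.S x.den x ∧ ∀ β, x.c β = 0

theorem good_h3 {e d : ℕ} {S : Finset (Fin n × Bool)} {y : St n} (h : Inv B e S d y) :
    Good B (h3 y) :=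
  ⟨⟨self_res (mem_res.1 (h.hR _)).1, h.hk, h.hf, rfl, rfl, fun _ => self_res (mem_res.1 (h.hR _)).1,
    fun _ h => absurd h (lt_irrefl 0)⟩, fun _ => rfl⟩

theorem inv_run (L T : ℕ) (l : List Bool) {x : St n} (h : Good B x) :
    Inv B x.e x.S x.den (run (smp b B) L T l x) :=
  run_inv _ _ (Inv B x.e x.S x.den) (fun l _ hy => (smp_inv l hy).1) T l x h.1

open Classical in
/-- Indicator. -/
noncomputable def ind (p : Prop) : ℝ := if p then 1 else 0

theorem ind_nonneg (p : Prop) : 0 ≤ ind p := by unfold ind; split_ifs <;> norm_num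

theorem ind_mono {p p' : Prop} (h : p → p') : ind p ≤ ind p' := by
  unfold ind
  by_cases hp : p
  · rw [if_pos hp, if_pos (h hp)]
  · rw [if_neg hp]; exact ind_nonneg p'

/-- The final denominator is good. -/
def Ok (b : ℕ) (B : Finset (Finset (Fin n × Bool))) (r : ℕ) (x : St n) (d : ℕ) : Prop :=
  ∃ D : ℕ, d = x.den * D ∧
    (1 - 4 / (q b : ℝ)) ^ r * ((res B x.e x.S).filter Tr).card * D ≤ ((q b : ℝ) ^ 3) ^ r ∧
    ((q b : ℝ) ^ 3) ^ r ≤ (1 + 4 / (q b : ℝ)) ^ r * ((res B x.e x.S).filter Tr).card * D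

theorem ok_step (hq : 256 * (n + 1) ^ 2 ≤ q b) {x y : St n} (he : x.e < n)
    (hN : ∃ T ∈ res B x.e x.S, Tr T) (hy : Inv B x.e x.S x.den y)
    (h : ∀ β, |(y.c β : ℝ) - (q b : ℝ) ^ 3 * pr B x.e x.S β| ≤ (q b : ℝ) ^ 2) :
    Tr (h3 y).S ∧ ∀ r d, Ok b B r (h3 y) d → Ok b B (r + 1) x d := by
  have hQ := qR hq
  obtain ⟨β, hβ⟩ : ∃ β, β = decide (y.c false ≤ y.c true) := ⟨_, rfl⟩
  have h1 : (q b : ℝ) ^ 3 ≤ 4 * y.c β := by
    have a1 := (abs_le.1 (h false)).1
    have a2 := (abs_le.1 (h true)).1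
    have a3 := pr_sum hN
    have a4 : (y.c false : ℝ) + y.c true ≤ 2 * y.c β := by
      have : y.c false + y.c true ≤ 2 * y.c β := by
        by_cases a5 : y.c false ≤ y.c true
        · rw [hβ, decide_eq_true a5]; omega
        · rw [hβ, decide_eq_false a5]; omega
      exact_mod_cast this
    have a5 : (q b : ℝ) ^ 3 * pr B x.e x.S false + (q b : ℝ) ^ 3 * pr B x.e x.S true =
        (q b : ℝ) ^ 3 := by rw [← mul_add, a3, mul_one]
    nlinarith [sq_nonneg (q b : ℝ)]
  have h2 : 0 < y.c β := by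
    have : (0 : ℝ) < y.c β := by linarith [show (0 : ℝ) < (q b : ℝ) ^ 3 by positivity]
    exact_mod_cast this
  obtain ⟨h4, h5⟩ := hy.hc β h2
  have e1 : (h3 y).S = y.R β := by rw [hβ]; rfl
  have e2 : (h3 y).e = x.e + 1 := by rw [← hy.he]; rfl
  have e3 : (h3 y).den = x.den * y.c β := by rw [← hy.hd, hβ]; rfl
  refine ⟨e1 ▸ h4, fun r d ⟨D, h6, h7, h8⟩ => ⟨y.c β * D, by rw [h6, e3, mul_assoc], ?_⟩⟩
  rw [e1, e2, res_succ he (hy.hR β) h4, h5] at h7 h8
  have h0 : (0 : ℝ) < ((res B x.e x.S).filter Tr).card :=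
    Nat.cast_pos.2 (card_pos.2 (hN.imp fun _ h => mem_filter.2 h))
  have h9 := abs_le.1 (h β)
  rw [(div_eq_iff h0.ne').1 (rfl : _ = pr B x.e x.S β)] at h7 h8
  generalize (((res B x.e x.S).filter Tr).card : ℝ) = N at h0 h7 h8
  generalize pr B x.e x.S β = p at h7 h8 h9
  have a1 : (q b : ℝ) ^ 2 ≤ 4 / q b * y.c β := by
    rw [div_mul_eq_mul_div, le_div_iff₀ (by linarith)]; linarith
  have a2 : 0 ≤ 1 - 4 / (q b : ℝ) := by rw [sub_nonneg, div_le_one (by linarith)]; linarith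
  have a3 : (1 - 4 / (q b : ℝ)) * y.c β ≤ (q b : ℝ) ^ 3 * p := by linarith
  have a4 : (q b : ℝ) ^ 3 * p ≤ (1 + 4 / (q b : ℝ)) * y.c β := by linarith
  have a5 := mul_le_mul_of_nonneg_left a3 (show 0 ≤ (1 - 4 / (q b : ℝ)) ^ r * N * D by positivity)
  have a6 := mul_le_mul_of_nonneg_left a4 (show 0 ≤ (1 + 4 / (q b : ℝ)) ^ r * N * D by positivity)
  have a7 := mul_le_mul_of_nonneg_right h7 (show 0 ≤ (q b : ℝ) ^ 3 by positivity)
  have a8 := mul_le_mul_of_nonneg_right h8 (show 0 ≤ (q b : ℝ) ^ 3 by positivity)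
  simp only [pow_succ _ r]
  push_cast
  constructor <;> linarith

theorem stages (hq : 256 * (n + 1) ^ 2 ≤ q b) (hs : SampStmt b B) (r : ℕ) :
    ∀ x : St n, Good B x → x.e + r = n → (∃ T ∈ res B x.e x.S, Tr T) →
    1 - 4 * r * Real.exp (-(q b / 8)) ≤ Ex (r * (T3 b * (T2 b * (T1 b * B0 b)))) fun l =>
      ind (Ok b B r x (run (stg b B) (T3 b * (T2 b * (T1 b * B0 b))) r l x).den) := by
  induction r with
  | zero =>
    intro x hx he ⟨T, h1, h2⟩
    have h3 : (res B x.e x.S).filter Tr = {T} := by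
      have key : ∀ U ∈ res B x.e x.S, U = x.S := fun U hU =>
        Finset.ext fun c => (mem_res.1 hU).2 c (by omega)
      refine eq_singleton_iff_unique_mem.2 ⟨mem_filter.2 ⟨h1, h2⟩, fun U hU => ?_⟩
      rw [key T h1, key U (mem_filter.1 hU).1]
    have h4 : Ok b B 0 x x.den := ⟨1, by simp [h3]⟩
    simp [Ex, run, ind, h4]
  | succ r ih =>
    intro x hx he hN
    rw [Ex_run (stg b B) _ r fun y => ind (Ok b B (r + 1) x y.den)]
    have h1 := Ex_dev hq hs hN false hx.1 (hx.2 _)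
    have h2 := Ex_dev hq hs hN true hx.1 (hx.2 _)
    refine le_trans ?_ (Ex_mono (F := fun l => 1 - 4 * r * Real.exp (-(q b / 8)) +
      -1 * dev (q b) (pr B x.e x.S false)
        ((run (smp b B) (T2 b * (T1 b * B0 b)) (T3 b) l x).c false) +
      -1 * dev (q b) (pr B x.e x.S true)
        ((run (smp b B) (T2 b * (T1 b * B0 b)) (T3 b) l x).c true)) fun l _ => ?_)
    · rw [Ex_lin]
      push_cast
      linarith
    · have hy := inv_run (b := b) (T2 b * (T1 b * B0 b)) (T3 b) l hx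
      rw [stg]
      generalize run (smp b B) (T2 b * (T1 b * B0 b)) (T3 b) l x = y at hy
      have a1 := dev_nonneg (q b) (pr B x.e x.S false) (y.c false)
      have a2 := dev_nonneg (q b) (pr B x.e x.S true) (y.c true)
      by_cases h : dev (q b) (pr B x.e x.S false) (y.c false) +
          dev (q b) (pr B x.e x.S true) (y.c true) < 1
      · obtain ⟨h4, h5⟩ := ok_step hq (by omega) hN hy fun β => dev_lt (by linarith [qR hq]) (by
          cases β <;> linarith)
        have h6 := good_h3 hy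
        refine le_trans (by linarith) ((ih _ h6 ?_ ⟨_, h6.1.hS, h4⟩).trans
          (Ex_mono fun l _ => ind_mono (h5 _ _)))
        rw [show (h3 y).e = y.e + 1 from rfl, hy.he]
        omega
      · refine le_trans ?_ (Ex_mono (F := fun _ => 0) fun l _ => ind_nonneg _)
        rw [Ex_const]
        have : 0 ≤ 4 * r * Real.exp (-((q b : ℝ) / 8)) := by positivity
        linarith

theorem pow_le {a : ℝ} (ha : 0 ≤ a) (m : ℕ) (h : 2 * m * a ≤ 1) : (1 + a) ^ m ≤ 1 + 2 * m * a := by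
  induction m with
  | zero => simp
  | succ m ih =>
    push_cast at h ⊢
    have h1 : 2 * m * a ≤ 1 := by linarith
    have h2 := mul_le_mul_of_nonneg_right (ih h1) (show 0 ≤ 1 + a by linarith)
    rw [pow_succ]
    nlinarith

end La

open La in
theorem law {n : ℕ} (b : ℕ) (B : Finset (Finset (Fin n × Bool))) (_hB : Fam B)
    (hq : 256 * (n + 1) ^ 2 ≤ q b) (hs : SampStmt b B) : LawStmt b B := by
  intro S hS k l P hk h1 h2 hP
  have hQ := qR hq
  have hg : Good B (init S) := ⟨⟨self_res hS, fun _ => rfl, rfl, rfl, rfl, fun _ => self_res hS,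
    fun _ h => absurd h (lt_irrefl 0)⟩, fun _ => rfl⟩
  by_cases hN : ∃ T ∈ B, Tr T
  · have h3 := stages hq hs n _ hg (zero_add n) (by rwa [show (init S).e = 0 from rfl, res_zero])
    rw [← Ex_run_le (stg b B) _ hP fun y => ind (Ok b B n (init S) y.den)] at h3
    refine le_trans ?_ (h3.trans (Ex_mono fun ρ _ => ?_))
    · have a1 : Real.exp (-((q b : ℝ) / 8)) ≤ (1 / 2) ^ (l + n + 2) := by
        have a2 : (16 : ℝ) * (l + n + 2 : ℕ) ≤ q b := by exact_mod_cast h2
        refine le_trans (Real.exp_le_exp.2 (show _ ≤ (l + n + 2 : ℕ) * (-1 : ℝ) by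
          linarith [Nat.cast_nonneg (α := ℝ) (l + n + 2)])) ?_
        rw [Real.exp_nat_mul]
        exact pow_le_pow_left₀ (Real.exp_pos _).le (by linarith [Real.exp_neg_one_lt_d9]) _
      have a2 : (n : ℝ) ≤ 2 ^ n := by exact_mod_cast Nat.lt_two_pow_self.le
      have a3 : (4 : ℝ) * 2 ^ n * (1 / 2) ^ (l + n + 2) = 1 / 2 ^ l := by
        rw [one_div_pow, pow_add, pow_add]; field_simp; norm_num
      have a4 : 4 * n * Real.exp (-((q b : ℝ) / 8)) ≤ 4 * 2 ^ n * (1 / 2) ^ (l + n + 2) := by gcongr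
      linarith
    · rw [← fden]
      by_cases h : Ok b B n (init S) (fden b B S ρ)
      swap
      · rw [ind, if_neg h]
        split_ifs <;> norm_num
      rw [ind, if_pos h, if_pos]
      obtain ⟨D, h4, h5, h6⟩ := h
      rw [show (init S).e = 0 from rfl, res_zero] at h5 h6
      rw [h4, show (init S).den = 1 from rfl, one_mul]
      have hk' : (1 : ℝ) ≤ k := by exact_mod_cast hk
      have a1 : 2 * n * (4 / (q b : ℝ)) ≤ 1 / k := by
        have : (8 : ℝ) * n * k ≤ q b := by exact_mod_cast h1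
        rw [← mul_div_assoc, div_le_div_iff₀ (by linarith) (by linarith)]
        linarith
      have a2 : 1 / (k : ℝ) ≤ 1 := by rw [div_le_one (by linarith)]; exact hk'
      have a3 := pow_le (show 0 ≤ 4 / (q b : ℝ) by positivity) n (a1.trans a2)
      have a4 := one_add_mul_le_pow (a := -(4 / (q b : ℝ))) (by
        have : 4 / (q b : ℝ) ≤ 1 := by rw [div_le_one (by linarith)]; linarith
        linarith) n
      rw [← sub_eq_add_neg] at a4
      have a5 : 0 ≤ n * (4 / (q b : ℝ)) := by positivity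
      have a6 : (0 : ℝ) < D := by
        refine Nat.cast_pos.2 (Nat.pos_of_ne_zero ?_)
        rintro rfl
        exact absurd h6 (by simp; positivity)
      have a7 : (0 : ℝ) ≤ (B.filter Tr).card * D := by positivity
      rw [← Rat.cast_le (K := ℝ), ← Rat.cast_le (K := ℝ), T3]
      push_cast
      rw [le_div_iff₀ a6, div_le_iff₀ a6]
      constructor <;> nlinarith
  · have h3 : B.filter Tr = ∅ := filter_eq_empty_iff.2 fun T hT h => hN ⟨T, hT, h⟩
    have h4 : ∀ l x, Good B x → Good B (stg b B l x) ∧ (stg b B l x).den = 0 := fun l x hx => by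
      have hy := inv_run (b := b) (T2 b * (T1 b * B0 b)) (T3 b) l hx
      refine ⟨good_h3 hy, mul_eq_zero_of_right _ (Nat.eq_zero_of_not_pos fun h => ?_)⟩
      exact hN ⟨_, (mem_res.1 (hy.hR _)).1, (hy.hc _ h).1⟩
    have h5 : ∀ ρ, fden b B S ρ = 0 := fun ρ => by
      rcases n with _ | n
      · exact absurd ⟨S, hS, fun e => e.elim0⟩ hN
      · exact (run_inv _ _ (fun x => Good B x ∧ x.den = 0) (fun l x hx => h4 l x hx.1) n _ _
          (h4 _ _ hg)).2
    simp [h3, h5, Ex_const]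

end Vale.Agent.P317
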