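import Vale.Agent.P317.Base

/-!
The family of a pair of matroids, the oracle test of an exchange, the greedy start.
-/

namespace Vale.Agent.P317.Mt

open Finset

variable {n : ℕ}

/-- The subset of the ground set described by one side of `S`. -/
def pt (S : Finset (Fin n × Bool)) (β : Bool) : Set (Fin n) := {e | (e, β) ∈ S ↔ β = false}

theorem mem_f {S : Finset (Fin n × Bool)} {e : Fin n} : e ∈ pt S false ↔ (e, false) ∈ S := by
  simp [pt]

theorem mem_t {S : Finset (Fin n × Bool)} {e : Fin n} : e ∈ pt S true ↔ (e, true) ∉ S := by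
  simp [pt]

open Classical in
/-- The family of a pair of matroids. -/
noncomputable def fam (M : Bool → Matroid (Fin n)) : Finset (Finset (Fin n × Bool)) :=
  univ.filter fun S => ∀ β, (M β).IsBase (pt S β)

variable {M : Bool → Matroid (Fin n)} {S : Finset (Fin n × Bool)}

theorem mem_fam : S ∈ fam M ↔ ∀ β, (M β).IsBase (pt S β) := by simp [fam]

theorem sw_other {e f : Fin n} {β γ : Bool} (h : γ ≠ β) : pt (sw S (e, β) (f, β)) γ = pt S γ := by
  ext x; simp [pt, mem_sw, h]

theorem sw_f {e f : Fin n} :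
    pt (sw S (e, false) (f, false)) false = insert f (pt S false \ {e}) := by
  ext x; simp only [mem_f, mem_sw, Set.mem_insert_iff, Set.mem_sdiff, Set.mem_singleton_iff]
  simp [and_comm]

theorem sw_t {e f : Fin n} (he : (e, true) ∈ S) (hf : (f, true) ∉ S) :
    pt (sw S (e, true) (f, true)) true = insert e (pt S true \ {f}) := by
  have : e ≠ f := fun h => hf (h ▸ he)
  ext x; simp only [mem_t, mem_sw, Set.mem_insert_iff, Set.mem_sdiff, Set.mem_singleton_iff]
  by_cases h1 : x = e
  · simp [h1, this]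
  · by_cases h2 : x = f <;> simp [h1, h2, this.symm]

theorem exch' {N : Matroid (Fin n)} (hE : N.E = Set.univ) {A A' : Set (Fin n)} (h : N.IsBase A)
    (h' : N.IsBase A') {e : Fin n} (he : e ∈ A') (he' : e ∉ A) :
    ∃ f, f ∈ A ∧ f ∉ A' ∧ N.IsBase (insert e (A \ {f})) := by
  obtain ⟨f, hf, h1⟩ := h.compl_isBase_dual.exchange h'.compl_isBase_dual (e := e)
    (by simp [hE, he, he'])
  simp only [hE, Set.mem_sdiff, Set.mem_univ, true_and, not_not] at hf
  refine ⟨f, hf.2, hf.1, ?_⟩
  have h2 := h1.compl_isBase_of_dual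
  rw [hE] at h2
  have hne : e ≠ f := fun h3 => he' (h3 ▸ hf.2)
  refine (congrArg N.IsBase ?_).mp h2
  ext x
  by_cases h3 : x = e
  · simp [h3, hne]
  · by_cases h4 : x = f
    · simp [h4, hne.symm]
    · simp [h3, h4]

theorem ncard_pt (S : Finset (Fin n × Bool)) (β : Bool) :
    (pt S β).ncard = ∑ e, if ((e, β) ∈ S ↔ β = false) then 1 else 0 := by
  rw [← card_filter, ← Set.ncard_coe_finset]
  congr 1
  ext x; simp [pt]

theorem fam_Fam (hE : ∀ β, (M β).E = Set.univ) (hr : (M false).eRank = (M true).eRank) :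
    Fam (fam M) where
  card S hS := by
    rw [mem_fam] at hS
    have h1 : (pt S false).ncard = (pt S true).ncard := by
      rw [Set.ncard_def, Set.ncard_def, (hS false).encard_eq_eRank, (hS true).encard_eq_eRank, hr]
    rw [ncard_pt, ncard_pt] at h1
    rw [← sum_cnt]
    simp only [cnt, sum_add_distrib]
    simp only [iff_true, Bool.true_eq_false, iff_false] at h1
    rw [h1, ← sum_add_distrib, ← card_univ, card_eq_sum_ones]
    refine sum_congr rfl fun e _ => ?_
    by_cases h : (e, true) ∈ S <;> simp [h]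
  exch X hX Y hY x hx hx' := by
    rw [mem_fam] at hX hY
    obtain ⟨e, β⟩ := x
    cases β
    · obtain ⟨f, ⟨h1, h2⟩, h3⟩ := (hX false).exchange_mem (hY false) (mem_f.2 hx) (mt mem_f.1 hx')
      refine ⟨(f, false), mem_f.1 h1, mt mem_f.2 h2, mem_fam.2 fun γ => ?_⟩
      cases γ
      · rwa [sw_f]
      · rw [sw_other (by simp)]; exact hX true
    · obtain ⟨f, h1, h2, h3⟩ := exch' (hE true) (hX true) (hY true) (mem_t.2 hx')
        (fun h => mem_t.1 h hx)
      refine ⟨(f, true), not_not.1 (mt mem_t.2 h2), mem_t.1 h1, mem_fam.2 fun γ => ?_⟩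
      cases γ
      · rw [sw_other (by simp)]; exact hX false
      · rwa [sw_t hx (mem_t.1 h1)]

theorem tr_iff : Tr S ↔ ∀ e, ((e, false) ∈ S ↔ (e, true) ∉ S) := by
  refine forall_congr' fun e => ?_
  unfold cnt
  by_cases h1 : (e, false) ∈ S <;> by_cases h2 : (e, true) ∈ S <;> simp [h1, h2]

theorem fam_card : ((fam M).filter Tr).card =
    {X | (M false).IsBase X ∧ (M true).IsBase X}.ncard := by
  classical
  rw [← Set.ncard_coe_finset]
  have key : ∀ S : Finset (Fin n × Bool), Tr S → pt S true = pt S false := fun S h => by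
    ext x; rw [mem_t, mem_f, tr_iff.1 h]
  refine Set.ncard_congr (fun S _ => pt S false) ?_ ?_ ?_
  · intro S hS
    simp only [coe_filter, Set.mem_setOf_eq, mem_fam] at hS
    exact ⟨hS.1 false, key S hS.2 ▸ hS.1 true⟩
  · intro S T hS hT h
    simp only [coe_filter, Set.mem_setOf_eq] at hS hT
    have h1 : ∀ e, (e, false) ∈ S ↔ (e, false) ∈ T := fun e => by rw [← mem_f, ← mem_f, h]
    ext ⟨e, β⟩
    cases β
    · exact h1 e
    · rw [← not_iff_not, ← tr_iff.1 hS.2, ← tr_iff.1 hT.2, h1]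
  · intro X hX
    have h1 : Tr (univ.filter fun c : Fin n × Bool => (c.1 ∈ X ↔ c.2 = false)) :=
      tr_iff.2 fun e => by simp
    have h2 : pt (univ.filter fun c : Fin n × Bool => (c.1 ∈ X ↔ c.2 = false)) false = X := by
      ext x; simp [mem_f]
    refine ⟨_, ?_, h2⟩
    simp only [coe_filter, Set.mem_setOf_eq, mem_fam]
    refine ⟨fun β => ?_, h1⟩
    cases β
    · rw [h2]; exact hX.1
    · rw [key _ h1, h2]; exact hX.2

theorem sw_mem (hS : S ∈ fam M) {c d : Fin n × Bool} (hc : c ∈ S) (hd : d ∉ S) :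
    sw S c d ∈ fam M ↔ c.2 = d.2 ∧ (M c.2).Indep (pt (sw S c d) c.2) := by
  rw [mem_fam] at hS ⊢
  obtain ⟨e, β⟩ := c
  obtain ⟨f, γ⟩ := d
  constructor
  · intro h
    refine ⟨?_, (h β).indep⟩
    cases β <;> cases γ
    · rfl
    · have h1 := (h false).eq_of_subset_isBase (hS false) fun x hx => by
        rw [mem_f, mem_sw] at hx
        simp only [Prod.mk.injEq, Bool.false_eq_true, and_false, false_or] at hx
        exact mem_f.2 hx.2
      have h2 := mem_f.2 hc
      rw [← h1, mem_f, mem_sw] at h2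
      simp at h2
    · have h1 := (hS false).eq_of_subset_isBase (h false) fun x hx => by
        rw [mem_f, mem_sw]
        exact Or.inr ⟨by simp, mem_f.1 hx⟩
      refine absurd (mem_f.1 ?_) hd
      rw [h1, mem_f, mem_sw]
      exact Or.inl rfl
    · rfl
  · rintro ⟨rfl, h⟩ δ
    by_cases h1 : δ = β
    · subst h1
      cases δ
      · rw [sw_f] at h ⊢
        exact (hS false).exchange_isBase_of_indep (mt mem_f.1 hd) h
      · rw [sw_t hc hd] at h ⊢
        exact (hS true).exchange_isBase_of_indep (fun h2 => mem_t.1 h2 hc) h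
    · rw [sw_other h1]; exact hS δ

/-- The invariant of the greedy rounds. -/
def GI (M : Bool → Matroid (Fin n)) (t : ℕ) (S : Finset (Fin n × Bool)) : Prop :=
  (∀ β, (M β).Indep (pt S β)) ∧ ∀ (β : Bool) (i : Fin n), i + β.toNat * n < t → i ∉ pt S β →
    ¬ (M β).Indep (insert i (pt S β))

theorem GI_zero (h : ∀ c, c ∈ S ↔ c.2 = true) : GI M 0 S := by
  refine ⟨fun β => ?_, fun _ _ h => absurd h (Nat.not_lt_zero _)⟩
  have : pt S β = ∅ := by ext x; cases β <;> simp [pt, h]
  rw [this]; exact (M β).empty_indep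

theorem GI_end (hE : ∀ β, (M β).E = Set.univ) (h : GI M (2 * n) S) : S ∈ fam M :=
  mem_fam.2 fun β => (h.1 β).isBase_of_forall_insert fun e he => h.2 β e
    (by have := e.2; cases β <;> simp <;> omega) he.2

theorem GI_step {t : ℕ} (h : GI M t S) {β : Bool} {i : Fin n} (ht : i + β.toNat * n = t)
    {S' : Finset (Fin n × Bool)} (h1 : pt S' β = insert i (pt S β))
    (h2 : ∀ γ, γ ≠ β → pt S' γ = pt S γ) :
    ((M β).Indep (pt S' β) → GI M (t + 1) S') ∧ (¬ (M β).Indep (pt S' β) → GI M (t + 1) S) := by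
  have key : ∀ (γ : Bool) (j : Fin n), j + γ.toNat * n < t + 1 →
      j + γ.toNat * n < t ∨ (γ = β ∧ j = i) := by
    intro γ j hj
    have := i.2
    have := j.2
    rw [Fin.ext_iff]
    cases β <;> cases γ <;> simp at ht hj ⊢ <;> omega
  refine ⟨fun h3 => ⟨fun γ => ?_, fun γ j hj hj' => ?_⟩, fun h3 => ⟨h.1, fun γ j hj hj' => ?_⟩⟩
  · by_cases h4 : γ = β
    · rwa [h4]
    · rw [h2 γ h4]; exact h.1 γ
  · by_cases h4 : γ = β
    · subst h4
      rw [h1] at hj' ⊢
      rcases key γ j hj with h5 | ⟨-, rfl⟩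
      · exact fun h6 => h.2 γ j h5 (fun h7 => hj' (Or.inr h7))
          (h6.subset (Set.insert_subset_insert (Set.subset_insert _ _)))
      · exact absurd (Or.inl rfl) hj'
    · rw [h2 γ h4] at hj' ⊢
      exact h.2 γ j ((key γ j hj).resolve_right fun h5 => h4 h5.1) hj'
  · rcases key γ j hj with h5 | ⟨rfl, rfl⟩
    · exact h.2 γ j h5 hj'
    · rwa [← h1]

end Vale.Agent.P317.Mt
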