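import Vale.Agent.P317.Base
import Vale.Agent.P328.Law2

/-!
Mixing of the exchange chain and the law of one attempt.
-/

namespace Vale.Agent.P317

open Finset
open Vale.Agent.P328 (Ex val)
open Vale.Agent.P328.Lw

namespace Mx

section

variable {σ A : Type} [Fintype A] (B : Finset σ) (ok : σ → A → Prop) [DecidableRel ok]
  (mv : σ → A → σ) (w : σ → ℝ) (θ : ℝ)

/-- Reversible moves. -/
def Rev : Prop := ∃ rv : A → A, (∀ a, rv (rv a) = a) ∧
  ∀ S ∈ B, ∀ a, ok S a → mv S a ∈ B ∧ ok (mv S a) (rv a) ∧ mv (mv S a) (rv a) = S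

/-- Conductance. -/
noncomputable def cd (S : σ) (a : A) : ℝ := if ok S a then θ * min (w S) (w (mv S a)) else 0

/-- Dirichlet form. -/
noncomputable def Dir (F G : σ → ℝ) : ℝ :=
  ∑ S ∈ B, ∑ a, cd ok mv w θ S a * ((F (mv S a) - F S) * (G (mv S a) - G S))

/-- The Metropolis operator. -/
noncomputable def Op (F : σ → ℝ) (S : σ) : ℝ :=
  F S + θ * ∑ a, if ok S a then min 1 (w (mv S a) / w S) * (F (mv S a) - F S) else 0

variable {B ok mv w θ}

theorem swap (h : Rev B ok mv) (H : σ → σ → ℝ) :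
    ∑ S ∈ B, ∑ a, (if ok S a then H S (mv S a) else 0) =
      ∑ S ∈ B, ∑ a, (if ok S a then H (mv S a) S else 0) := by
  obtain ⟨rv, h1, h2⟩ := h
  rw [← sum_product', ← sum_product', ← sum_filter, ← sum_filter]
  have hm : ∀ p ∈ (B ×ˢ univ).filter fun p : σ × A => ok p.1 p.2,
      (mv p.1 p.2, rv p.2) ∈ (B ×ˢ univ).filter fun p : σ × A => ok p.1 p.2 := by
    intro p hp
    rw [mem_filter, mem_product] at hp ⊢
    have := h2 _ hp.1.1 _ hp.2
    exact ⟨⟨this.1, mem_univ _⟩, this.2.1⟩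
  have hi : ∀ p ∈ (B ×ˢ univ).filter fun p : σ × A => ok p.1 p.2, mv (mv p.1 p.2) (rv p.2) = p.1 := by
    intro p hp
    rw [mem_filter, mem_product] at hp
    exact (h2 _ hp.1.1 _ hp.2).2.2
  refine sum_nbij' (fun p => (mv p.1 p.2, rv p.2)) (fun p => (mv p.1 p.2, rv p.2)) hm hm
    (fun p hp => Prod.ext (hi p hp) (h1 _)) (fun p hp => Prod.ext (hi p hp) (h1 _))
    fun p hp => ?_
  simp only [hi p hp]

theorem gen (F : σ → ℝ) {S : σ} (hx : 0 < w S) : w S * (Op ok mv w θ F S - F S) =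
    ∑ a, cd ok mv w θ S a * (F (mv S a) - F S) := by
  unfold Op cd
  rw [add_sub_cancel_left, mul_sum, mul_sum]
  refine sum_congr rfl fun a _ => ?_
  split_ifs
  · have : min (w S) (w (mv S a)) = w S * min 1 (w (mv S a) / w S) := by
      rw [mul_min_of_nonneg _ _ hx.le, mul_one, mul_div_cancel₀ _ hx.ne']
    rw [this]
    ring
  · simp

theorem ibp (h : Rev B ok mv) (hw : ∀ S ∈ B, 0 < w S) (F G : σ → ℝ) :
    ∑ S ∈ B, G S * (w S * (Op ok mv w θ F S - F S)) = - (1 / 2) * Dir B ok mv w θ F G := by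
  have h1 : ∑ S ∈ B, G S * (w S * (Op ok mv w θ F S - F S)) = ∑ S ∈ B, ∑ a,
      if ok S a then θ * min (w S) (w (mv S a)) * ((F (mv S a) - F S) * G S) else 0 := by
    refine sum_congr rfl fun S hS => ?_
    rw [gen F (hw S hS), mul_sum]
    refine sum_congr rfl fun a _ => ?_
    unfold cd
    split_ifs <;> ring
  have h2 := swap h fun x y => θ * min (w x) (w y) * ((F y - F x) * G x)
  have h3 : Dir B ok mv w θ F G = - (∑ S ∈ B, ∑ a, if ok S a then
      θ * min (w (mv S a)) (w S) * ((F S - F (mv S a)) * G (mv S a)) else 0) - ∑ S ∈ B, ∑ a,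
      if ok S a then θ * min (w S) (w (mv S a)) * ((F (mv S a) - F S) * G S) else 0 := by
    simp only [Dir, ← sum_neg_distrib, ← sum_sub_distrib]
    refine sum_congr rfl fun S _ => sum_congr rfl fun a _ => ?_
    unfold cd
    rw [min_comm (w (mv S a))]
    split_ifs <;> ring
  rw [h1, h3, ← h2]
  ring

theorem contr (h : Rev B ok mv) (hw : ∀ S ∈ B, 0 < w S) (hθ : 0 < θ)
    (hθ' : θ * Fintype.card A ≤ 1 / 2) (F : σ → ℝ) :
    ∑ S ∈ B, w S * Op ok mv w θ F S ^ 2 ≤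
      ∑ S ∈ B, w S * F S ^ 2 - 1 / 2 * Dir B ok mv w θ F F := by
  have h1 := ibp (θ := θ) h hw F F
  obtain ⟨rv, -, h⟩ := h
  have h2 : ∑ S ∈ B, w S * (Op ok mv w θ F S - F S) ^ 2 ≤ 1 / 2 * Dir B ok mv w θ F F := by
    rw [Dir, mul_sum]
    refine sum_le_sum fun S hS => ?_
    have hx := hw S hS
    have h0 : ∀ a, 0 ≤ cd ok mv w θ S a ∧ cd ok mv w θ S a ≤ θ * w S := fun a => by
      unfold cd
      split_ifs with ha
      · exact ⟨mul_nonneg hθ.le (le_min hx.le (hw _ (h S hS a ha).1).le),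
          mul_le_mul_of_nonneg_left (min_le_left _ _) hθ.le⟩
      · exact ⟨le_rfl, by positivity⟩
    have a1 : (∑ a, cd ok mv w θ S a * (F (mv S a) - F S)) ^ 2 ≤ (∑ a, cd ok mv w θ S a) *
        ∑ a, cd ok mv w θ S a * ((F (mv S a) - F S) * (F (mv S a) - F S)) :=
      sum_sq_le_sum_mul_sum_of_sq_le_mul _ (fun a _ => (h0 a).1)
        (fun a _ => mul_nonneg (h0 a).1 (mul_self_nonneg _)) fun a _ => le_of_eq (by ring)
    have a2 : ∑ a, cd ok mv w θ S a ≤ 1 / 2 * w S :=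
      calc ∑ a, cd ok mv w θ S a ≤ ∑ _a : A, θ * w S := sum_le_sum fun a _ => (h0 a).2
        _ = θ * Fintype.card A * w S := by rw [sum_const, card_univ, nsmul_eq_mul]; ring
        _ ≤ _ := mul_le_mul_of_nonneg_right hθ' hx.le
    have a3 := a1.trans (mul_le_mul_of_nonneg_right a2
      (sum_nonneg fun a _ => mul_nonneg (h0 a).1 (mul_self_nonneg _)))
    rw [← gen F hx] at a3
    refine le_of_mul_le_mul_left ?_ hx
    calc w S * (w S * (Op ok mv w θ F S - F S) ^ 2) = (w S * (Op ok mv w θ F S - F S)) ^ 2 := by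
          ring
      _ ≤ _ := a3
      _ = _ := by ring
  have h3 : ∑ S ∈ B, w S * Op ok mv w θ F S ^ 2 = ∑ S ∈ B, w S * F S ^ 2 +
      2 * ∑ S ∈ B, F S * (w S * (Op ok mv w θ F S - F S)) +
      ∑ S ∈ B, w S * (Op ok mv w θ F S - F S) ^ 2 := by
    rw [mul_sum, ← sum_add_distrib, ← sum_add_distrib]
    exact sum_congr rfl fun x _ => by ring
  linarith

theorem mean (h : Rev B ok mv) (hw : ∀ S ∈ B, 0 < w S) (F : σ → ℝ) :
    ∑ S ∈ B, w S * Op ok mv w θ F S = ∑ S ∈ B, w S * F S := by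
  have h1 := ibp (θ := θ) h hw F fun _ => 1
  simp only [Dir, sub_self, mul_zero, sum_const_zero, one_mul, mul_sub, sum_sub_distrib] at h1
  linarith

theorem iter_sub (μ : ℝ) (T : ℕ) (F : σ → ℝ) :
    (Op ok mv w θ)^[T] (fun x => F x - μ) = fun x => (Op ok mv w θ)^[T] F x - μ := by
  induction T with
  | zero => rfl
  | succ T ih =>
    rw [Function.iterate_succ_apply', Function.iterate_succ_apply', ih]
    funext x
    simp only [Op, sub_sub_sub_cancel_right]
    ring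

theorem chain (h : Rev B ok mv) (hw : ∀ S ∈ B, 0 < w S) (hθ : 0 < θ)
    (hθ' : θ * Fintype.card A ≤ 1 / 2) {t : ℝ} (ht : 0 < t) (ht' : θ * t ≤ 1)
    (hp : ∀ φ : σ → ℝ, ∃ m, t * ∑ S ∈ B, w S * (φ S - m) ^ 2 ≤ ∑ S ∈ B, ∑ a,
      if ok S a then min (w S) (w (mv S a)) * (φ (mv S a) - φ S) ^ 2 else 0)
    (F : σ → ℝ) (hF : ∀ S ∈ B, |F S| ≤ 1) {x0 : σ} (hx0 : x0 ∈ B) (T : ℕ) :
    ((Op ok mv w θ)^[T] F x0 - (∑ S ∈ B, w S * F S) / ∑ S ∈ B, w S) ^ 2 ≤
      4 * ((∑ S ∈ B, w S) / w x0) * (1 - θ * t / 2) ^ T := by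
  have hZ : 0 < ∑ x ∈ B, w x := sum_pos hw ⟨x0, hx0⟩
  have hg0 : 0 ≤ 1 - θ * t / 2 := by linarith
  have poin : ∀ G : σ → ℝ, ∑ x ∈ B, w x * G x = 0 →
      θ * t * ∑ x ∈ B, w x * G x ^ 2 ≤ Dir B ok mv w θ G G := by
    intro G hG
    obtain ⟨a, ha⟩ := hp G
    have e1 : ∑ x ∈ B, w x * (G x - a) ^ 2 = ∑ x ∈ B, w x * G x ^ 2 -
        2 * a * ∑ x ∈ B, w x * G x + ∑ x ∈ B, w x * a ^ 2 := by
      rw [mul_sum, ← sum_sub_distrib, ← sum_add_distrib]
      exact sum_congr rfl fun x _ => by ring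
    have e2 : 0 ≤ ∑ x ∈ B, w x * a ^ 2 :=
      sum_nonneg fun x hx => mul_nonneg (hw x hx).le (sq_nonneg _)
    have e3 : Dir B ok mv w θ G G = θ * ∑ S ∈ B, ∑ a,
        if ok S a then min (w S) (w (mv S a)) * (G (mv S a) - G S) ^ 2 else 0 := by
      rw [Dir, mul_sum]
      refine sum_congr rfl fun S _ => ?_
      rw [mul_sum]
      refine sum_congr rfl fun a _ => ?_
      unfold cd
      split_ifs <;> ring
    rw [e3, mul_assoc]
    refine mul_le_mul_of_nonneg_left (le_trans (mul_le_mul_of_nonneg_left ?_ ht.le) ha) hθ.le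
    rw [e1, hG]
    linarith
  have key : ∀ G : σ → ℝ, ∑ x ∈ B, w x * G x = 0 → ∀ T : ℕ,
      ∑ x ∈ B, w x * (Op ok mv w θ)^[T] G x = 0 ∧
      ∑ x ∈ B, w x * (Op ok mv w θ)^[T] G x ^ 2 ≤
        (∑ x ∈ B, w x * G x ^ 2) * (1 - θ * t / 2) ^ T := by
    intro G hG T
    induction T with
    | zero => exact ⟨hG, by simp⟩
    | succ T ih =>
      rw [Function.iterate_succ_apply']
      refine ⟨(mean h hw _).trans ih.1, ?_⟩
      have h1 := contr h hw hθ hθ' ((Op ok mv w θ)^[T] G)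
      have h2 := poin _ ih.1
      have h3 := mul_le_mul_of_nonneg_right ih.2 hg0
      rw [pow_succ (1 - θ * t / 2), ← mul_assoc]
      linarith
  obtain ⟨μ, hμ⟩ : ∃ μ, μ = (∑ x ∈ B, w x * F x) / ∑ x ∈ B, w x := ⟨_, rfl⟩
  rw [← hμ]
  have h0 : ∑ x ∈ B, w x * (F x - μ) = 0 := by
    simp only [mul_sub, sum_sub_distrib]
    rw [← sum_mul, hμ, mul_div_cancel₀ _ hZ.ne', sub_self]
  have h1 := (key _ h0 T).2
  rw [iter_sub] at h1
  have h2 : w x0 * ((Op ok mv w θ)^[T] F x0 - μ) ^ 2 ≤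
      ∑ x ∈ B, w x * ((Op ok mv w θ)^[T] F x - μ) ^ 2 :=
    single_le_sum (f := fun x => w x * ((Op ok mv w θ)^[T] F x - μ) ^ 2)
      (fun x hx => mul_nonneg (hw x hx).le (sq_nonneg _)) hx0
  have h3 : |μ| ≤ 1 := by
    rw [hμ, abs_div, abs_of_pos hZ, div_le_one hZ]
    refine (abs_sum_le_sum_abs _ _).trans (sum_le_sum fun x hx => ?_)
    rw [abs_mul, abs_of_pos (hw x hx)]
    exact mul_le_of_le_one_right (hw x hx).le (hF x hx)
  have h4 : ∑ x ∈ B, w x * (F x - μ) ^ 2 ≤ 4 * ∑ x ∈ B, w x := by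
    rw [mul_sum]
    refine sum_le_sum fun x hx => ?_
    have a1 := abs_le.1 (hF x hx)
    have a2 := abs_le.1 h3
    rw [mul_comm 4]
    exact mul_le_mul_of_nonneg_left (by nlinarith) (hw x hx).le
  have h5 := mul_le_mul_of_nonneg_right h4 (pow_nonneg hg0 T)
  have h6 := hw x0 hx0
  refine le_of_mul_le_mul_left ?_ h6
  calc w x0 * ((Op ok mv w θ)^[T] F x0 - μ) ^ 2
      ≤ 4 * (∑ x ∈ B, w x) * (1 - θ * t / 2) ^ T := (h2.trans h1).trans h5
    _ = _ := by field_simp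

end

end Mx

theorem mix (E : Type) [Fintype E] [DecidableEq E] (h : PoinStmt E) : MixStmt E := by
  intro B hB lo hi t θ h1 h2 ht ht1 h3 hθ hθ1 hθ2 F hF S0 hS0 T
  have e : Kop B (wt lo hi) θ = Mx.Op
      (fun S (a : (E × Bool) × (E × Bool)) => a.1 ∈ S ∧ a.2 ∉ S ∧ sw S a.1 a.2 ∈ B)
      (fun S a => sw S a.1 a.2) (wt lo hi) θ := by
    funext F S
    rw [Kop, Mx.Op, Fintype.sum_prod_type (α₁ := E × Bool)]
  rw [e]
  have hrev : Mx.Rev B
      (fun S (a : (E × Bool) × (E × Bool)) => a.1 ∈ S ∧ a.2 ∉ S ∧ sw S a.1 a.2 ∈ B)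
      (fun S a => sw S a.1 a.2) := by
    refine ⟨Prod.swap, Prod.swap_swap, fun S hS a ha => ?_⟩
    have h5 : sw (sw S a.1 a.2) a.2 a.1 ∈ B := by
      rw [sw_sw ha.1 ha.2.1]
      exact hS
    have h6 : a.1 ∉ sw S a.1 a.2 := fun hc => by
      rcases mem_sw.1 hc with h4 | h4
      · exact ha.2.1 (by rw [← h4]; exact ha.1)
      · exact h4.1 rfl
    exact ⟨ha.2.2, ⟨mem_sw.2 (Or.inl rfl), h6, h5⟩, sw_sw ha.1 ha.2.1⟩
  refine Mx.chain hrev (fun S _ => wt_pos h1 h2 S) hθ ?_ ht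
    (mul_le_one₀ hθ1 ht.le ht1) (fun φ => ?_) F hF hS0 T
  · refine le_trans (le_of_eq ?_) hθ2
    simp only [Fintype.card_prod, Fintype.card_bool]
    push_cast
    ring
  · obtain ⟨m, hm⟩ := h B hB lo hi t h1 h2 ht ht1 h3 φ
    refine ⟨m, hm.trans (le_of_eq (sum_congr rfl fun S _ => ?_))⟩
    rw [Fintype.sum_prod_type (α₁ := E × Bool) (α₂ := E × Bool)]

namespace Mx

variable {n b : ℕ} {B : Finset (Finset (Fin n × Bool))} (hq : 256 * (n + 1) ^ 2 ≤ q b)
include hq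

theorem W_le {k : Fin n → ℤ} (hk : ∀ e, |k e| ≤ T2 b) (S : Finset (Fin n × Bool)) :
    |W (jj b) k S| ≤ (q b ^ 15 : ℕ) := by
  have h1 := n_le hq
  have h2 := b_le (b := b)
  have h3 : jj b ≤ q b ^ 14 := by
    rw [jj]
    refine (Nat.mul_le_mul_left _ h2).trans ?_
    rw [← sq]
    exact Nat.pow_le_pow_right (by omega) (by norm_num)
  have h4 : ∀ e, |(jj b : ℤ) * |(cnt S e : ℤ) - 1| + k e * ((cnt S e : ℤ) - 1)| ≤
      2 * (q b ^ 14 : ℕ) := fun e => by
    have a1 : |(cnt S e : ℤ) - 1| ≤ 1 := by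
      have := cnt_le S e
      rw [abs_le]
      omega
    have a2 : |k e| ≤ (q b ^ 14 : ℕ) := hk e
    have a3 : (jj b : ℤ) ≤ (q b ^ 14 : ℕ) := by exact_mod_cast h3
    refine (abs_add_le _ _).trans ?_
    rw [abs_mul, abs_mul, abs_abs, Nat.abs_cast]
    have a4 := mul_le_of_le_one_right (Nat.cast_nonneg (α := ℤ) (jj b)) a1
    have a5 := mul_le_of_le_one_right (abs_nonneg (k e)) a1
    omega
  refine (abs_sum_le_sum_abs _ _).trans ((sum_le_sum fun e _ => h4 e).trans ?_)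
  rw [sum_const, card_univ, Fintype.card_fin, nsmul_eq_mul]
  have h5 : n * (2 * q b ^ 14) ≤ q b ^ 15 := by
    rw [pow_succ' (q b) 14, ← mul_assoc]
    exact Nat.mul_le_mul_right _ (by omega)
  exact_mod_cast h5

theorem Ex_fil (G : Finset (Fin n × Bool) → ℝ) {x : St n} (hx : x.S ∈ B)
    (hk : ∀ e, |x.k e| ≤ T2 b) (c d : Fin n × Bool) :
    Ex (K4 b) (fun l => G (fmove b B x c d (val l)).S) - G x.S =
      if c ∈ x.S ∧ d ∉ x.S ∧ sw x.S c d ∈ res B x.e x.S then
        min 1 (gam b ^ W (jj b) x.k (sw x.S c d) / gam b ^ W (jj b) x.k x.S) *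
          (G (sw x.S c d) - G x.S) else 0 := by
  split_ifs with h
  · have h1 := (sw_res (self_res hx) h.1 h.2.1).1 h.2.2
    have hq' := q_ge hq
    have g := gam_pos hq
    have g1 := (gam_lt hq).le
    have hD : inc b x c d ≤ q b ^ 17 := min_le_right _ _
    have e0 : min 1 (gam b ^ W (jj b) x.k (sw x.S c d) / gam b ^ W (jj b) x.k x.S) =
        gam b ^ inc b x c d := by
      have a1 := abs_le.1 (W_le hq hk (sw x.S c d))
      have a2 := abs_le.1 (W_le hq hk x.S)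
      have a3 : 2 * q b ^ 15 ≤ q b ^ 17 := by
        rw [show q b ^ 17 = q b * q b * q b ^ 15 by ring]
        exact Nat.mul_le_mul_right _ (by nlinarith)
      rw [inc, min_eq_left (a := Int.toNat _) (by omega), ← zpow_sub₀ g.ne']
      generalize W (jj b) x.k (sw x.S c d) - W (jj b) x.k x.S = z
      obtain ⟨m, rfl | rfl⟩ := z.eq_nat_or_neg
      · rw [zpow_natCast, Int.toNat_natCast]
        exact min_eq_right (pow_le_one₀ g.le g1)
      · rw [Int.toNat_neg_natCast, pow_zero, zpow_neg, zpow_natCast]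
        exact min_eq_left ((one_le_inv₀ (by positivity)).2 (pow_le_one₀ g.le g1))
    obtain ⟨E, hE⟩ := Nat.exists_eq_add_of_le hD
    have e1 : 2 ^ K4 b = q b ^ E * q b ^ inc b x c d := by
      rw [K4, pow_mul, ← pow_add, hE, add_comm]; rfl
    rw [Ex_val (K4 b) fun u => G (fmove b B x c d u).S, e0]
    have e2 : ∀ u, G (fmove b B x c d u).S =
        if u < (q b - 1) ^ inc b x c d * q b ^ E then G (sw x.S c d) else G x.S := by
      intro u
      rw [fmove, e1, ← mul_assoc]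
      simp only [Nat.mul_lt_mul_right (show 0 < q b ^ inc b x c d by positivity), h.1, h.2.1, h1.1,
        h1.2.1, h1.2.2, true_and, not_false_eq_true]
      split_ifs <;> rfl
    simp only [e2]
    generalize inc b x c d = D at *
    rw [sum_ite_lt (by
      rw [e1, mul_comm]; exact Nat.mul_le_mul_left _ (Nat.pow_le_pow_left (by omega) _))]
    have e3 : (2 : ℝ) ^ K4 b = (q b : ℝ) ^ E * (q b : ℝ) ^ D := by exact_mod_cast e1
    have h0 : (0 : ℝ) < q b := by positivity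
    have e4 : gam b = ((q b : ℝ) - 1) / q b := by rw [gam]; field_simp
    push_cast [Nat.cast_sub (show 1 ≤ q b by omega)]
    rw [e3, e4, div_pow]
    field_simp
    ring
  · have e : ∀ u, fmove b B x c d u = x := fun u => if_neg fun h' =>
      h ⟨h'.1, h'.2.1, (sw_res (self_res hx) h'.1 h'.2.1).2 ⟨h'.2.2.1, h'.2.2.2.1, h'.2.2.2.2.1⟩⟩
    simp only [e, Ex_const, sub_self]

theorem Ex_step (G : Finset (Fin n × Bool) → ℝ) {x : St n} (hx : x.S ∈ B)
    (hk : ∀ e, |x.k e| ≤ T2 b) :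
    Ex (B0 b) (fun l => G (fstep b B l x).S) =
      Kop (res B x.e x.S) (fun S => gam b ^ W (jj b) x.k S) (1 / (4 * (q b : ℝ) ^ 2)) G x.S := by
  obtain ⟨g, hg⟩ : ∃ g : Fin n × Bool → Fin n × Bool → ℝ, ∀ c d,
      Ex (K4 b) (fun l => G (fmove b B x c d (val l)).S) = G x.S + g c d :=
    ⟨fun c d => Ex (K4 b) (fun l => G (fmove b B x c d (val l)).S) - G x.S, fun _ _ => by ring⟩
  let H : ℕ → Bool → ℕ → Bool → ℝ := fun u β v β' =>
    G x.S + if h : u < n then (if h' : v < n then g (⟨u, h⟩, β) (⟨v, h'⟩, β') else 0) else 0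
  have e0 : ∀ l : List Bool, l.length = b → ∀ β, ∀ l' : List Bool, l'.length = b → ∀ β',
      Ex (K4 b) (fun r => G (fstep b B (l ++ β :: (l' ++ β' :: r)) x).S) =
        H (val l) β (val l') β' := by
    intro l hl β l' hl' β'
    have a1 : ∀ r, (l ++ β :: (l' ++ β' :: r)).take b = l := fun r => List.take_left' hl
    have a2 : ∀ r, (l ++ β :: (l' ++ β' :: r)).drop b = β :: (l' ++ β' :: r) :=
      fun r => List.drop_left' hl
    have a3 : ∀ r, (l ++ β :: (l' ++ β' :: r)).drop (b + 1) = l' ++ β' :: r := fun r => by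
      rw [← List.drop_drop, a2]; rfl
    have a4 : ∀ r, (l ++ β :: (l' ++ β' :: r)).drop (2 * b + 1) = β' :: r := fun r => by
      rw [show 2 * b + 1 = b + 1 + b by ring, ← List.drop_drop, a3, List.drop_left' hl']
    have a5 : ∀ r, (l ++ β :: (l' ++ β' :: r)).drop (2 * b + 2) = r := fun r => by
      rw [show 2 * b + 2 = 2 * b + 1 + 1 by ring, ← List.drop_drop, a4]; rfl
    have a6 : ∀ r, (l' ++ β' :: r).take b = l' := fun r => List.take_left' hl'
    simp only [fstep, a1, a2, a3, a4, a5, a6, H, List.headD_cons]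
    by_cases h1 : val l < n
    · by_cases h2 : val l' < n
      · simp only [h1, h2, and_self, dif_pos]
        rw [← hg]
        exact Ex_take le_rfl fun r => G (fmove b B x (⟨_, h1⟩, β) (⟨_, h2⟩, β') (val r)).S
      · simp [h1, h2, Ex_const]
    · simp [h1, Ex_const]
  have e1 : Ex (B0 b) (fun l => G (fstep b B l x).S) = Ex b fun l =>
      ((Ex b fun l' => (H (val l) false (val l') false + H (val l) false (val l') true) / 2) +
        Ex b fun l' => (H (val l) true (val l') false + H (val l) true (val l') true) / 2) / 2 := by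
    rw [B0, show 2 * b + 2 + K4 b = b + ((b + (K4 b + 1)) + 1) by ring, Ex_app]
    refine Ex_congr fun l hl => ?_
    rw [Ex, Ex_app, Ex_app]
    congr 2 <;> exact Ex_congr fun l' hl' => by rw [Ex, e0 l hl _ l' hl', e0 l hl _ l' hl']
  have hn : n ≤ 2 ^ b := by
    have := n_le hq
    unfold q at this
    omega
  have e2 : ∀ u β, Ex b (fun l' => (H u β (val l') false + H u β (val l') true) / 2) =
      G x.S + (if h : u < n then ∑ d, g (⟨u, h⟩, β) d else 0) / (2 * q b) := fun u β => by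
    rw [Ex_val b fun v => (H u β v false + H u β v true) / 2]
    simp only [H, ← sum_div, sum_add_distrib, sum_const, card_range, nsmul_eq_mul]
    by_cases h : u < n
    · simp only [h, dif_pos]
      rw [sum_dite hn fun j => g (⟨u, h⟩, β) (j, false), sum_dite hn fun j => g (⟨u, h⟩, β) (j, true),
        Fintype.sum_prod_type]
      simp only [Fintype.sum_bool, sum_add_distrib, q]
      push_cast
      field_simp
      ring
    · simp only [h, dif_neg, not_false_eq_true, sum_const_zero, zero_div, add_zero]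
      push_cast
      field_simp
      ring
  simp only [e1, e2]
  rw [Ex_val b fun u => (G x.S + (if h : u < n then ∑ d, g (⟨u, h⟩, false) d else 0) / (2 * q b) +
    (G x.S + (if h : u < n then ∑ d, g (⟨u, h⟩, true) d else 0) / (2 * q b))) / 2]
  simp only [← sum_div, sum_add_distrib, sum_const, card_range, nsmul_eq_mul]
  rw [sum_dite hn fun j => ∑ d, g (j, false) d, sum_dite hn fun j => ∑ d, g (j, true) d, Kop]
  have e3 : ∀ c d, (if c ∈ x.S ∧ d ∉ x.S ∧ sw x.S c d ∈ res B x.e x.S then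
      min 1 (gam b ^ W (jj b) x.k (sw x.S c d) / gam b ^ W (jj b) x.k x.S) *
        (G (sw x.S c d) - G x.S) else 0) = g c d := fun c d => by
    rw [← Ex_fil hq G hx hk, hg, add_sub_cancel_left]
  simp only [e3]
  rw [Fintype.sum_prod_type]
  simp only [Fintype.sum_bool, sum_add_distrib]
  generalize ∑ j, ∑ d, g (j, false) d = s0
  generalize ∑ j, ∑ d, g (j, true) d = s1
  simp only [q]
  push_cast
  field_simp
  ring

theorem Ex_all (G : Finset (Fin n × Bool) → ℝ) (T : ℕ) : ∀ x : St n, x.S ∈ B →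
    (∀ e, |x.k e| ≤ T2 b) → Ex (T * B0 b) (fun l => G (run (fstep b B) (B0 b) T l x).S) =
      (Kop (res B x.e x.S) (fun S => gam b ^ W (jj b) x.k S) (1 / (4 * (q b : ℝ) ^ 2)))^[T]
        G x.S := by
  induction T with
  | zero =>
    intro x _ _
    simp [Ex, run]
  | succ T ih =>
    intro x hx hk
    rw [Ex_run _ _ T (fun y : St n => G y.S), Function.iterate_succ_apply', ← Ex_step hq _ hx hk]
    refine Ex_congr fun l _ => ?_
    obtain ⟨S, hS, e⟩ := fstep_eq (b := b) l hx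
    rw [e, ih { x with S := S } (mem_res.1 hS).1 hk, res_eq hS]

omit hq in
theorem zb {γ : ℝ} (h1 : 1 / 2 ≤ γ) (h2 : γ ≤ 1) {z : ℤ} {m : ℕ} (h : |z| ≤ m) :
    (1 / 2) ^ m ≤ γ ^ z ∧ γ ^ z ≤ 2 ^ m := by
  have h0 : 0 < γ := by linarith
  obtain ⟨k, rfl | rfl⟩ := z.eq_nat_or_neg
  · rw [Nat.abs_cast, Nat.cast_le] at h
    rw [zpow_natCast]
    exact ⟨(pow_le_pow_of_le_one (by norm_num) (by norm_num) h).trans
      (pow_le_pow_left₀ (by norm_num) h1 _), (pow_le_one₀ h0.le h2).trans (one_le_pow₀ one_le_two)⟩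
  · rw [abs_neg, Nat.abs_cast, Nat.cast_le] at h
    rw [zpow_neg, zpow_natCast, ← inv_pow]
    have h3 : 1 ≤ γ⁻¹ := (one_le_inv₀ h0).2 h2
    have h4 : γ⁻¹ ≤ 2 := by
      rw [inv_le_comm₀ h0 (by norm_num)]
      linarith
    exact ⟨(pow_le_one₀ (by norm_num) (by norm_num)).trans (one_le_pow₀ h3),
      (pow_le_pow_left₀ (by linarith) h4 _).trans (pow_le_pow_right₀ one_le_two h)⟩

theorem num {z d : ℝ} (z0 : 0 ≤ z) (hz : z ≤ 4 ^ n * 2 ^ q b ^ 15 / (1 / 2 : ℝ) ^ q b ^ 15)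
    (hd : d ≤ (1 / 2) ^ q b ^ 18) : 4 * z * d ≤ ((1 / 2) ^ q b) ^ 2 := by
  have h1 := n_le hq
  have i : 2 + 2 * n + q b ^ 15 + q b ^ 15 + q b * 2 ≤ q b ^ 18 := by
    have a1 : q b ^ 1 ≤ q b ^ 15 := Nat.pow_le_pow_right (by omega) (by norm_num)
    have a2 : q b ^ 16 ≤ q b ^ 18 := Nat.pow_le_pow_right (by omega) (by norm_num)
    have a3 : 256 * q b ^ 15 ≤ q b ^ 16 := by
      rw [pow_succ' (q b) 15]
      exact Nat.mul_le_mul_right _ (by omega)
    rw [pow_one] at a1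
    omega
  obtain ⟨E, hE⟩ := Nat.exists_eq_add_of_le i
  rw [hE] at hd
  generalize q b ^ 15 = A at *
  generalize q b = Q at *
  calc _ ≤ 4 * z * (1 / 2) ^ (2 + 2 * n + A + A + Q * 2 + E) :=
      mul_le_mul_of_nonneg_left hd (by positivity)
    _ ≤ 4 * (4 ^ n * 2 ^ A / (1 / 2 : ℝ) ^ A) * (1 / 2) ^ (2 + 2 * n + A + A + Q * 2 + E) := by
      gcongr
    _ = ((1 / 2) ^ Q) ^ 2 * (1 / 2) ^ E := by
      simp only [pow_add, pow_mul, one_div, inv_pow]
      rw [show (2 : ℝ) ^ 2 = 4 by norm_num]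
      field_simp
    _ ≤ _ := mul_le_of_le_one_right (by positivity) (pow_le_one₀ (by norm_num) (by norm_num))

end Mx

theorem step {n : ℕ} (b : ℕ) (B : Finset (Finset (Fin n × Bool))) (hB : Fam B)
    (hq : 256 * (n + 1) ^ 2 ≤ q b) (h : MixStmt (Fin n)) : StepStmt b B := by
  intro x hx hk H hH
  have g := gam_pos hq
  have g1 := (gam_lt hq).le
  have hR := qR hq
  have e : (fun S => gam b ^ W (jj b) x.k S) = wt (fun e => gam b ^ ((jj b : ℤ) - x.k e))
      fun e => gam b ^ ((jj b : ℤ) + x.k e) := funext fun S => gam_W g.ne' _ _ S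
  have hn : (256 : ℝ) * (n + 1) ≤ q b := by exact_mod_cast n_le hq
  have hn0 : (0 : ℝ) ≤ n := Nat.cast_nonneg n
  have h1 := h _ (hB.res x.e x.S) (fun e => gam b ^ ((jj b : ℤ) - x.k e))
    (fun e => gam b ^ ((jj b : ℤ) + x.k e)) ((gam b ^ jj b) ^ 2) (1 / (4 * (q b : ℝ) ^ 2))
    (fun _ => zpow_pos g _) (fun _ => zpow_pos g _) (by positivity)
    (pow_le_one₀ (by positivity) (pow_le_one₀ g.le g1))
    (fun e => by rw [← zpow_add₀ g.ne', ← pow_mul, ← zpow_natCast]; congr 1; push_cast; ring)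
    (by positivity) (by rw [div_le_one (by positivity)]; nlinarith)
    (by
      rw [Fintype.card_fin, div_mul_eq_mul_div, div_le_iff₀ (by positivity)]
      nlinarith) H hH x.S (self_res hx) (T1 b)
  rw [← e] at h1
  rw [Mx.Ex_all hq H _ x hx hk]
  refine abs_le_of_sq_le_sq (h1.trans (Mx.num hq ?_ ?_ ?_)) (by positivity)
  · exact div_nonneg (sum_nonneg fun S _ => (zpow_pos g _).le) (zpow_pos g _).le
  · refine div_le_div₀ (by positivity) ?_ (by positivity)
      (Mx.zb (gam_half hq) g1 (Mx.W_le hq hk _)).1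
    refine (sum_le_sum fun S _ => (Mx.zb (gam_half hq) g1 (Mx.W_le hq hk S)).2).trans ?_
    rw [sum_const, nsmul_eq_mul]
    refine mul_le_mul_of_nonneg_right ?_ (by positivity)
    have := card_fam (res B x.e x.S)
    rw [Fintype.card_fin] at this
    exact_mod_cast this
  · have hq' := q_ge hq
    have d : (1 - 1 / ((8 * q b ^ 6 : ℕ) : ℝ)) ^ T1 b ≤ (1 / 2) ^ q b ^ 18 :=
      decay (Nat.succ_le_of_lt (by positivity)) (by
        rw [T1, show q b ^ 25 = q b * q b ^ 6 * q b ^ 18 by ring]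
        exact Nat.mul_le_mul_right _ (Nat.mul_le_mul_right _ (by omega)))
    refine le_trans (pow_le_pow_left₀ ?_ ?_ _) d
    · have a1 : (gam b ^ jj b) ^ 2 ≤ 1 := pow_le_one₀ (by positivity) (pow_le_one₀ g.le g1)
      have a2 : 1 / (4 * (q b : ℝ) ^ 2) ≤ 1 := by
        rw [div_le_one (by positivity)]
        nlinarith
      have a3 := mul_le_one₀ a2 (by positivity) a1
      linarith
    · have a1 := pow_le_pow_left₀ (by positivity) (gam_j_ge hq) 2
      have a2 := mul_le_mul_of_nonneg_left a1 (show 0 ≤ 1 / (4 * (q b : ℝ) ^ 2) by positivity)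
      have a3 : 1 / ((8 * q b ^ 6 : ℕ) : ℝ) =
          1 / (4 * (q b : ℝ) ^ 2) * (1 / (q b : ℝ) ^ 2) ^ 2 / 2 := by
        push_cast
        field_simp
        norm_num
      linarith

end Vale.Agent.P317
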