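import Vale.Agent.P317.Base

/-!
One sample is a nearly uniform transversal.
-/

namespace Vale.Agent.P317

open Finset
open Vale.Agent.P328 (Ex val)
open Vale.Agent.P328.Lw

namespace Sm

variable {n : ℕ} {b : ℕ} {B : Finset (Finset (Fin n × Bool))}

theorem Ex_near {L : ℕ} {F G : List Bool → ℝ} {c : ℝ} (h : ∀ l, |F l - G l| ≤ c) :
    |Ex L F - Ex L G| ≤ c := by
  have h1 : Ex L F ≤ Ex L fun l => c + 1 * G l + 0 * G l :=
    Ex_mono fun l _ => by have := abs_le.1 (h l); linarith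
  have h2 : Ex L G ≤ Ex L fun l => c + 1 * F l + 0 * F l :=
    Ex_mono fun l _ => by have := abs_le.1 (h l); linarith
  rw [Ex_lin] at h1 h2
  rw [abs_le]; constructor <;> linarith

theorem Ex_mul (L : ℕ) (c : ℝ) (F : List Bool → ℝ) : Ex L (fun l => c * F l) = c * Ex L F := by
  have := Ex_lin L 0 c 0 F F
  simpa using this

/-- The invariant of the attempts. -/
structure Inv (b : ℕ) (B : Finset (Finset (Fin n × Bool))) (x y : St n) (t : ℕ) : Prop where
  mem : y.S ∈ res B x.e x.S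
  e : y.e = x.e
  c : y.c = x.c
  k : ∀ i, |y.k i| + t ≤ T2 b

theorem g_abs (S : Finset (Fin n × Bool)) (i : Fin n) : |(cnt S i : ℤ) - 1| ≤ 1 := by
  have := cnt_le S i
  rw [abs_le]; constructor <;> omega

theorem att_eq {x y : St n} {t : ℕ} (h : Inv b B x y t) (l : List Bool) :
    ∃ S ∈ res B x.e x.S, att b B l y = h1 { y with S := S } ∧
      (run (fstep b B) (B0 b) (T1 b) l y).S = S := by
  obtain ⟨S, hS, e⟩ := frun_eq (b := b) (B0 b) (T1 b) l (mem_res.1 h.mem).1
  rw [h.e, res_eq h.mem] at hS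
  exact ⟨S, hS, by rw [att, e], by rw [e]⟩

theorem Inv.att {x y : St n} {t : ℕ} (h : Inv b B x y (t + 1)) (l : List Bool) :
    Inv b B x (att b B l y) t := by
  obtain ⟨S, hS, e, -⟩ := att_eq h l
  rw [e]
  unfold h1
  split_ifs
  · exact ⟨hS, h.e, h.c, fun i => by have := h.k i; push_cast at this ⊢; linarith⟩
  · refine ⟨hS, h.e, h.c, fun i => ?_⟩
    have h1 := h.k i
    have h2 := g_abs S i
    have h3 := abs_add_le (y.k i) ((cnt S i : ℤ) - 1)
    push_cast at h1 ⊢
    linarith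

theorem att_fl {x y : St n} {t : ℕ} (h : Inv b B x y t) (l : List Bool) (hy : y.fl = true) :
    (att b B l y).fl = true ∧ (att b B l y).X = y.X := by
  obtain ⟨S, hS, e, -⟩ := att_eq h l
  rw [e]
  unfold h1
  rw [if_neg (by simp [hy])]
  exact ⟨hy, rfl⟩

theorem att_law (hs : StepStmt b B) {x y : St n} {t : ℕ} (h : Inv b B x y t) (G : St n → ℝ)
    {M : ℝ} (hM : 0 < M) (hG : ∀ S ∈ res B x.e x.S, |G (h1 { y with S := S })| ≤ M) :
    |Ex (T1 b * B0 b) (fun l => G (att b B l y)) -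
      (∑ S ∈ res B x.e x.S, gam b ^ W (jj b) y.k S * G (h1 { y with S := S })) /
        ∑ S ∈ res B x.e x.S, gam b ^ W (jj b) y.k S| ≤ M * (1 / 2) ^ q b := by
  have hr : res B y.e y.S = res B x.e x.S := by rw [h.e, res_eq h.mem]
  have h1' := hs y (mem_res.1 h.mem).1 (fun i => by
    have := h.k i
    have h0 : (0 : ℤ) ≤ t := by positivity
    linarith) (fun S => M⁻¹ * G (h1 { y with S := S })) (fun S hS => by
      rw [hr] at hS
      rw [abs_mul, abs_of_pos (inv_pos.2 hM), inv_mul_le_iff₀ hM, mul_one]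
      exact hG S hS)
  rw [hr, Ex_mul] at h1'
  have e1 : Ex (T1 b * B0 b) (fun l => G (att b B l y)) = Ex (T1 b * B0 b)
      fun l => G (h1 { y with S := (run (fstep b B) (B0 b) (T1 b) l y).S }) :=
    Ex_congr fun l _ => by
      obtain ⟨S, -, e, e'⟩ := att_eq h l
      rw [e, e']
  have e2 : ∑ S ∈ res B x.e x.S, gam b ^ W (jj b) y.k S * (M⁻¹ * G (h1 { y with S := S })) =
      M⁻¹ * ∑ S ∈ res B x.e x.S, gam b ^ W (jj b) y.k S * G (h1 { y with S := S }) := by
    rw [mul_sum]; exact sum_congr rfl fun S _ => by ring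
  rw [e2, mul_div_assoc, ← mul_sub, abs_mul, abs_of_pos (inv_pos.2 hM), inv_mul_le_iff₀ hM] at h1'
  rw [e1]; exact h1'

/-- The centred indicator. -/
noncomputable def ph (e : ℕ) (β : Bool) (p : ℝ) (y : St n) : ℝ :=
  if y.fl = true then (if bit y.X e = β then 1 else 0) - p else 0

theorem ph_one (hs : StepStmt b B) {x y : St n} {t : ℕ}
    (h : Inv b B x y t) (β : Bool) {p : ℝ} (p0 : 0 ≤ p) (p1 : p ≤ 1)
    (hp : (((res B x.e x.S).filter fun S => Tr S ∧ bit S x.e = β).card : ℝ) =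
      p * ((res B x.e x.S).filter Tr).card) :
    |Ex (T1 b * B0 b) (fun l => ph x.e β p (att b B l y)) - ph x.e β p y| ≤ (1 / 2) ^ q b := by
  by_cases hy : y.fl = true
  · rw [Ex_congr (G := fun _ => ph x.e β p y) fun l _ => by
      obtain ⟨a1, a2⟩ := att_fl h l hy
      simp only [ph, a1, a2, hy], Ex_const, sub_self, abs_zero]
    positivity
  · have h1' := att_law hs h (ph x.e β p) one_pos fun S _ => by
      unfold ph
      split_ifs
      · rw [abs_le]; constructor <;> linarith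
      · rw [abs_le]; constructor <;> linarith
      · simp
    have e : ∑ S ∈ res B x.e x.S, gam b ^ W (jj b) y.k S * ph x.e β p (h1 { y with S := S }) =
        0 := by
      have e1 : ∀ S ∈ res B x.e x.S,
          gam b ^ W (jj b) y.k S * ph x.e β p (h1 { y with S := S }) =
            (if Tr S ∧ bit S x.e = β then 1 else 0) - p * if Tr S then 1 else 0 := by
        intro S _
        by_cases hT : Tr S
        · rw [W_tr _ _ hT]
          have : y.fl = false := by simpa using hy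
          simp [h1, ph, hT, this]
        · simp [h1, ph, hT, hy]
      rw [sum_congr rfl e1, sum_sub_distrib, ← mul_sum, sum_boole, sum_boole, hp, sub_self]
    rw [e, zero_div, one_mul] at h1'
    rw [show ph x.e β p y = 0 by simp [ph, hy]]
    exact h1'

theorem ph_run (hs : StepStmt b B) {x : St n}
    (β : Bool) {p : ℝ} (p0 : 0 ≤ p) (p1 : p ≤ 1)
    (hp : (((res B x.e x.S).filter fun S => Tr S ∧ bit S x.e = β).card : ℝ) =
      p * ((res B x.e x.S).filter Tr).card) (t : ℕ) : ∀ y, Inv b B x y t →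
    |Ex (t * (T1 b * B0 b)) (fun l => ph x.e β p (run (att b B) (T1 b * B0 b) t l y)) -
      ph x.e β p y| ≤ t * (1 / 2) ^ q b := by
  induction t with
  | zero => intro y _; simp [run, Ex]
  | succ t ih =>
    intro y h
    rw [Ex_run]
    have h1' := Ex_near (L := T1 b * B0 b) fun l => ih _ (h.att l)
    have h2 := ph_one hs h β p0 p1 hp
    rw [abs_le] at h1' h2 ⊢
    push_cast
    constructor <;> linarith [h1'.1, h1'.2, h2.1, h2.2]

/-- The Lyapunov function. -/
noncomputable def V (b : ℕ) (κ k : Fin n → ℤ) : ℝ := ∑ i, ((k i : ℝ) - κ i) ^ 2 + 10 * q b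

/-- The Lyapunov function on alive states. -/
noncomputable def ps (b : ℕ) (κ : Fin n → ℤ) (y : St n) : ℝ := if y.fl = true then 0 else V b κ y.k

/-- The indicator of alive states. -/
noncomputable def al (y : St n) : ℝ := if y.fl = true then 0 else 1

theorem V_ge (κ k : Fin n → ℤ) : 10 * (q b : ℝ) ≤ V b κ k :=
  le_add_of_nonneg_left (sum_nonneg fun _ _ => sq_nonneg _)

theorem V_le (hq : 256 * (n + 1) ^ 2 ≤ q b) (κ k : Fin n → ℤ) {A : ℝ} (hA : 1 ≤ A)
    (h : ∀ i, |(k i : ℝ) - κ i| ≤ 3 * A) : V b κ k ≤ q b * A ^ 2 * 11 := by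
  have h1 : ∑ i, ((k i : ℝ) - κ i) ^ 2 ≤ ∑ _i : Fin n, (3 * A) ^ 2 :=
    sum_le_sum fun i _ => by rw [← sq_abs]; exact pow_le_pow_left₀ (abs_nonneg _) (h i) 2
  rw [sum_const, card_univ, Fintype.card_fin, nsmul_eq_mul] at h1
  have h2 : (256 : ℝ) * (n + 1) ≤ q b := by exact_mod_cast n_le hq
  have h3 : 1 ≤ A ^ 2 := one_le_pow₀ hA
  have h4 := qR hq
  unfold V
  nlinarith

theorem drift (hq : 256 * (n + 1) ^ 2 ≤ q b) {C : Finset (Finset (Fin n × Bool))}
    (κ k : Fin n → ℤ) (hκ : ∑ S ∈ C, gam b ^ W (jj b) κ S ≤ 5 * (C.filter Tr).card) :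
    ∑ S ∈ C, gam b ^ W (jj b) k S * (if Tr S then 0 else
      V b κ fun i => k i + ((cnt S i : ℤ) - 1)) ≤
      (V b κ k - 2 * q b + n) * ∑ S ∈ C, gam b ^ W (jj b) k S := by
  have hg := gam_pos hq
  have hq0 : (0 : ℝ) < q b := by linarith [qR hq]
  have key : ∀ S ∈ C, gam b ^ W (jj b) k S * (if Tr S then 0 else
      V b κ fun i => k i + ((cnt S i : ℤ) - 1)) ≤ (V b κ k - 2 * q b + n) * gam b ^ W (jj b) k S +
        2 * q b * gam b ^ W (jj b) κ S - 10 * q b * if Tr S then 1 else 0 := by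
    intro S _
    by_cases hT : Tr S
    · rw [W_tr _ _ hT, W_tr _ _ hT, if_pos hT, if_pos hT]
      have := V_ge (b := b) κ k
      have h0 : (0 : ℝ) ≤ n := by positivity
      simp only [zpow_zero]
      linarith
    · rw [if_neg hT, if_neg hT, mul_zero, sub_zero]
      set X : ℤ := ∑ i, (κ i - k i) * ((cnt S i : ℤ) - 1) with hX
      have e1 : W (jj b) κ S = W (jj b) k S + X := by
        rw [W, W, hX, ← sum_add_distrib]
        exact sum_congr rfl fun i _ => by ring
      have e2 : V b κ (fun i => k i + ((cnt S i : ℤ) - 1)) ≤ V b κ k - 2 * X + n := by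
        have : ∑ i, (((k i + ((cnt S i : ℤ) - 1) : ℤ) : ℝ) - κ i) ^ 2 ≤
            ∑ i, (((k i : ℝ) - κ i) ^ 2 - 2 * (((κ i - k i) * ((cnt S i : ℤ) - 1) : ℤ) : ℝ) + 1) :=
          sum_le_sum fun i _ => by
            have h1 : |(((cnt S i : ℤ) - 1 : ℤ) : ℝ)| ≤ 1 := by exact_mod_cast g_abs S i
            have h2 := (sq_le_one_iff_abs_le_one _).2 h1
            push_cast at h2 ⊢
            nlinarith
        rw [sum_add_distrib, sum_sub_distrib, ← mul_sum, ← Int.cast_sum, ← hX] at this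
        simp only [sum_const, card_univ, Fintype.card_fin, nsmul_eq_mul, mul_one] at this
        unfold V
        linarith
      have e3 := gam_zpow hq X
      have e4 : (q b : ℝ) - X ≤ q b * gam b ^ X := by
        have := mul_le_mul_of_nonneg_left e3 hq0.le
        rwa [mul_sub, mul_one, mul_div_cancel₀ _ hq0.ne'] at this
      rw [e1, zpow_add₀ hg.ne']
      have hw : 0 < gam b ^ W (jj b) k S := zpow_pos hg _
      nlinarith
  refine (sum_le_sum key).trans ?_
  rw [sum_sub_distrib, sum_add_distrib, ← mul_sum, ← mul_sum, ← mul_sum, sum_boole]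
  nlinarith

theorem ps_one (hq : 256 * (n + 1) ^ 2 ≤ q b) (hs : StepStmt b B) {x y : St n} {t : ℕ}
    (h : Inv b B x y t) (κ : Fin n → ℤ) (hb : ∀ i, |κ i| ≤ (q b : ℤ) ^ 3)
    (hκ : ∑ S ∈ res B x.e x.S, gam b ^ W (jj b) κ S ≤ 5 * ((res B x.e x.S).filter Tr).card) :
    Ex (T1 b * B0 b) (fun l => ps b κ (att b B l y)) ≤ ps b κ y - al y := by
  by_cases hy : y.fl = true
  · rw [Ex_congr (G := fun _ => 0) fun l _ => by simp only [ps, (att_fl h l hy).1, if_true],
      Ex_const]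
    simp [ps, al, hy]
  · have hy' : y.fl = false := by simpa using hy
    have h4 := qR hq
    have hq1 : (1 : ℝ) ≤ q b := by linarith
    have e1 : ∀ S, ps b κ (h1 { y with S := S }) = if Tr S then 0 else
        V b κ fun i => y.k i + ((cnt S i : ℤ) - 1) := by
      intro S
      by_cases hT : Tr S <;> simp [h1, ps, hT, hy']
    have h1' := att_law hs h (ps b κ) (M := (q b : ℝ) ^ 30) (by positivity) fun S _ => by
      rw [e1]
      split_ifs
      · simp
      · rw [abs_of_nonneg (le_trans (by positivity) (V_ge _ _))]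
        refine (V_le hq _ _ (A := (q b : ℝ) ^ 14) (one_le_pow₀ hq1) fun i => ?_).trans ?_
        · have a1 : |(y.k i : ℝ)| ≤ (q b : ℝ) ^ 14 := by
            have a := h.k i
            have h0 : (0 : ℤ) ≤ t := by positivity
            have a' : |y.k i| ≤ (q b : ℤ) ^ 14 := by
              rw [T2] at a; push_cast at a; linarith
            exact_mod_cast a'
          have a2 : |(κ i : ℝ)| ≤ (q b : ℝ) ^ 3 := by exact_mod_cast hb i
          have a3 : |(((cnt S i : ℤ) - 1 : ℤ) : ℝ)| ≤ 1 := by exact_mod_cast g_abs S i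
          have a4 : (q b : ℝ) ^ 3 ≤ (q b : ℝ) ^ 14 := pow_le_pow_right₀ hq1 (by norm_num)
          have a5 : (1 : ℝ) ≤ (q b : ℝ) ^ 14 := one_le_pow₀ hq1
          rw [Int.cast_add]
          rw [abs_le] at a1 a2 a3 ⊢
          constructor <;> linarith [a1.1, a1.2, a2.1, a2.2, a3.1, a3.2]
        · have : (q b : ℝ) ^ 30 = q b * ((q b : ℝ) ^ 14) ^ 2 * q b := by ring
          rw [this]
          exact mul_le_mul_of_nonneg_left (by linarith) (by positivity)
    simp only [e1] at h1'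
    have hZ : 0 < ∑ S ∈ res B x.e x.S, gam b ^ W (jj b) y.k S :=
      sum_pos (fun S _ => zpow_pos (gam_pos hq) _) ⟨_, h.mem⟩
    have h2 := drift hq κ y.k hκ
    rw [← div_le_iff₀ hZ] at h2
    have h3 : (q b : ℝ) ^ 30 * (1 / 2) ^ q b ≤ 1 := by
      rw [one_div_pow, mul_one_div, div_le_one (by positivity)]
      exact_mod_cast pow30 hq
    have h5 : (256 : ℝ) * (n + 1) ≤ q b := by exact_mod_cast n_le hq
    have h6 := (abs_le.1 h1').2
    have h0 : (0 : ℝ) ≤ n := by positivity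
    simp only [ps, al, hy, if_false, Bool.false_eq_true] at h6 ⊢
    linarith

theorem al_run {x : St n} (t : ℕ) : ∀ y l, Inv b B x y t →
    al (run (att b B) (T1 b * B0 b) t l y) ≤ al y ∧
      (run (att b B) (T1 b * B0 b) t l y).e = x.e ∧
      (run (att b B) (T1 b * B0 b) t l y).c = x.c := by
  induction t with
  | zero => exact fun y _ h => ⟨le_rfl, h.e, h.c⟩
  | succ t ih =>
    intro y l h
    obtain ⟨a1, a2⟩ := ih _ (l.drop (T1 b * B0 b)) (h.att (l.take (T1 b * B0 b)))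
    refine ⟨a1.trans ?_, a2⟩
    by_cases hy : y.fl = true
    · simp [al, hy, (att_fl h _ hy).1]
    · simp only [al, hy]
      split_ifs <;> simp_all

theorem ps_run (hq : 256 * (n + 1) ^ 2 ≤ q b) (hs : StepStmt b B) {x : St n}
    (κ : Fin n → ℤ) (hb : ∀ i, |κ i| ≤ (q b : ℤ) ^ 3)
    (hκ : ∑ S ∈ res B x.e x.S, gam b ^ W (jj b) κ S ≤ 5 * ((res B x.e x.S).filter Tr).card)
    (t : ℕ) : ∀ y, Inv b B x y t →
    t * Ex (t * (T1 b * B0 b)) (fun l => al (run (att b B) (T1 b * B0 b) t l y)) ≤ ps b κ y := by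
  induction t with
  | zero =>
    intro y _
    have := V_ge (b := b) κ y.k
    have := qR hq
    simp only [Nat.cast_zero, zero_mul, ps]
    split_ifs <;> linarith
  | succ t ih =>
    intro y h
    have h1' : Ex ((t + 1) * (T1 b * B0 b))
        (fun l => al (run (att b B) (T1 b * B0 b) (t + 1) l y)) ≤ al y :=
      (Ex_mono fun l _ => (al_run _ y l h).1).trans (Ex_const _ _).le
    have h2 := ps_one hq hs h κ hb hκ
    have h3 : t * Ex ((t + 1) * (T1 b * B0 b))
        (fun l => al (run (att b B) (T1 b * B0 b) (t + 1) l y)) ≤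
        Ex (T1 b * B0 b) (fun l => ps b κ (att b B l y)) := by
      rw [Ex_run, ← Ex_mul]
      exact Ex_mono fun l _ => ih _ (h.att l)
    push_cast
    linarith

theorem exists_kap (hB : Fam B) (hq : 256 * (n + 1) ^ 2 ≤ q b) (hc : CapStmt (Fin n))
    (hT : ∃ S ∈ B, Tr S) : ∃ κ : Fin n → ℤ, (∀ i, |κ i| ≤ (q b : ℤ) ^ 3) ∧
      ∑ S ∈ B, gam b ^ W (jj b) κ S ≤ 5 * (B.filter Tr).card := by
  have h4 := qR hq
  have h5 : (256 : ℝ) * (n + 1) ≤ q b := by exact_mod_cast n_le hq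
  have hg := gam_pos hq
  obtain ⟨κ, h1, h2⟩ := hc B hB hT (gam b) (jj b) (jj b * n + q b * (4 * n + 2)) (gam_half hq)
    (gam_lt hq) (by
      rw [Fintype.card_fin]
      refine (mul_le_mul_of_nonneg_left (gam_j_le hq) (by positivity)).trans ?_
      rw [mul_one_div, div_le_one (by linarith)]
      linarith) (by
      rw [Fintype.card_fin, pow_add, pow_mul (gam b) (q b)]
      have a1 : (gam b ^ q b) ^ (4 * n + 2) ≤ (1 / 2) ^ (4 * n + 2) :=
        pow_le_pow_left₀ (by positivity) (gam_q_le hq) _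
      have a2 : (4 : ℝ) * 16 ^ n * (1 / 2) ^ (4 * n + 2) = 1 := by
        have : (16 : ℝ) ^ n * ((1 / 2) ^ 4) ^ n = 1 := by rw [← mul_pow]; norm_num
        rw [pow_add, pow_mul]
        linarith
      have a3 : 0 < gam b ^ (jj b * n) := by positivity
      calc 4 * 16 ^ n * (gam b ^ (jj b * n) * (gam b ^ q b) ^ (4 * n + 2))
          ≤ 4 * 16 ^ n * (gam b ^ (jj b * n) * (1 / 2) ^ (4 * n + 2)) := by gcongr
        _ = gam b ^ (jj b * n) * (4 * 16 ^ n * (1 / 2) ^ (4 * n + 2)) := by ring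
        _ = _ := by rw [a2, mul_one])
  refine ⟨κ, fun i => ?_, h2⟩
  obtain ⟨a1, a2⟩ := h1 i
  rw [abs_of_nonneg a1]
  refine a2.trans ?_
  rw [Fintype.card_fin]
  have a3 : n * (jj b * n + q b * (4 * n + 2)) ≤ q b ^ 3 := by
    have b1 : b ≤ q b := b_le
    have b2 := q_ge hq
    have b3 : 2 * (n * n) ≤ q b := by nlinarith
    have b4 : n * (4 * n + 2) ≤ q b := by nlinarith
    have b5 : 2 * (n * n * b) ≤ q b * q b := by nlinarith
    have b6 : 2 * (n * (4 * n + 2)) ≤ q b * q b := by nlinarith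
    have b7 : n * (jj b * n + q b * (4 * n + 2)) = q b * (n * n * b + n * (4 * n + 2)) := by
      rw [jj]; ring
    rw [b7, show q b ^ 3 = q b * (q b * q b) by ring]
    exact Nat.mul_le_mul_left _ (by omega)
  exact_mod_cast a3

end Sm

open Sm in
theorem samp {n : ℕ} (b : ℕ) (B : Finset (Finset (Fin n × Bool))) (hB : Fam B)
    (hq : 256 * (n + 1) ^ 2 ≤ q b) (hs : StepStmt b B) (hc : CapStmt (Fin n)) :
    SampStmt b B := by
  intro x hx hk hf hT β
  obtain ⟨κ, hb, hκ⟩ := exists_kap (hB.res x.e x.S) hq hc hT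
  have hI : Inv b B x x (T2 b) := ⟨self_res hx, rfl, rfl, fun i => by simp [hk i]⟩
  have hN : (0 : ℝ) < ((res B x.e x.S).filter Tr).card := by
    obtain ⟨S, h1, h2⟩ := hT
    exact_mod_cast card_pos.2 ⟨S, mem_filter.2 ⟨h1, h2⟩⟩
  set p : ℝ := (((res B x.e x.S).filter fun S => Tr S ∧ bit S x.e = β).card : ℝ) /
    ((res B x.e x.S).filter Tr).card with hp
  have p0 : 0 ≤ p := by positivity
  have p1 : p ≤ 1 := by
    rw [hp, div_le_one hN]
    refine Nat.cast_le.2 (card_le_card fun S hS => ?_)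
    rw [mem_filter] at hS ⊢
    exact ⟨hS.1, hS.2.1⟩
  have h1 := ph_run hs β p0 p1 (by rw [hp, div_mul_cancel₀ _ hN.ne']) _ x hI
  have h2' := ps_run hq hs κ hb hκ _ x hI
  have e : Ex (T2 b * (T1 b * B0 b)) (fun l => ((smp b B l x).c β : ℝ) - x.c β) =
      Ex (T2 b * (T1 b * B0 b)) fun l =>
        p + 1 * ph x.e β p (run (att b B) (T1 b * B0 b) (T2 b) l x) +
          -p * al (run (att b B) (T1 b * B0 b) (T2 b) l x) := by
    refine Ex_congr fun l _ => ?_
    obtain ⟨-, a1, a2⟩ := al_run _ x l hI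
    rw [smp]
    generalize run (att b B) (T1 b * B0 b) (T2 b) l x = y at a1 a2
    unfold h2 ph al
    by_cases hy : y.fl = true
    · simp only [hy, if_true, a1, a2]
      by_cases hβ : β = bit y.X x.e
      · rw [if_pos hβ, if_pos hβ.symm]; push_cast; ring
      · rw [if_neg hβ, if_neg (Ne.symm hβ)]; ring
    · simp [hy, a2]
  rw [e, Ex_lin]
  have h4 := qR hq
  have hq1 : (1 : ℝ) ≤ q b := by linarith
  have hq0 : (0 : ℝ) < q b := by linarith
  rw [show ph x.e β p x = 0 by simp [ph, hf], sub_zero] at h1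
  have h3 : 0 ≤ Ex (T2 b * (T1 b * B0 b))
      fun l => al (run (att b B) (T1 b * B0 b) (T2 b) l x) :=
    (Ex_const _ _).ge.trans (Ex_mono fun l _ => by unfold al; split_ifs <;> norm_num)
  have h5 : ps b κ x ≤ q b * ((q b : ℝ) ^ 3) ^ 2 * 11 := by
    rw [show ps b κ x = V b κ x.k by simp [ps, hf]]
    refine V_le hq _ _ (one_le_pow₀ hq1) fun i => ?_
    have a2 : |(κ i : ℝ)| ≤ (q b : ℝ) ^ 3 := by exact_mod_cast hb i
    rw [hk i, Int.cast_zero, zero_sub, abs_neg]
    have : (0 : ℝ) ≤ (q b : ℝ) ^ 3 := by positivity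
    linarith
  have hT2 : (T2 b : ℝ) = (q b : ℝ) ^ 14 := by rw [T2]; push_cast; rfl
  have h6 : Ex (T2 b * (T1 b * B0 b)) (fun l => al (run (att b B) (T1 b * B0 b) (T2 b) l x)) ≤
      1 / (q b : ℝ) ^ 2 := by
    rw [hT2] at h2'
    have a := h2'.trans h5
    rw [← le_div_iff₀' (by positivity)] at a
    refine a.trans ?_
    rw [div_le_div_iff₀ (by positivity) (by positivity)]
    have a1 : (11 : ℝ) ≤ (q b : ℝ) ^ 5 := le_trans (by linarith) (le_self_pow₀ hq1 (by norm_num))
    calc (q b : ℝ) * ((q b : ℝ) ^ 3) ^ 2 * 11 * (q b : ℝ) ^ 2 = (q b : ℝ) ^ 9 * 11 := by ring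
      _ ≤ (q b : ℝ) ^ 9 * (q b : ℝ) ^ 5 := by gcongr
      _ = _ := by ring
  have h7 : (T2 b : ℝ) * (1 / 2) ^ q b ≤ 1 / (q b : ℝ) ^ 2 := by
    rw [hT2, one_div_pow, mul_one_div, div_le_div_iff₀ (by positivity) (by positivity), one_mul]
    have a : (q b : ℝ) ^ 30 ≤ 2 ^ q b := by exact_mod_cast pow30 hq
    refine le_trans ?_ a
    rw [← pow_add]
    exact pow_le_pow_right₀ hq1 (by norm_num)
  have h8 := mul_le_mul p1 h6 h3 zero_le_one
  have h9 := mul_nonneg p0 h3
  have h10 : 2 / (q b : ℝ) ^ 2 = 1 / (q b : ℝ) ^ 2 + 1 / (q b : ℝ) ^ 2 := by ring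
  rw [abs_le] at h1 ⊢
  constructor <;> linarith [h1.1, h1.2]

end Vale.Agent.P317
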