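import Vale.Agent.P317.Defs
import Vale.Agent.P328.Law1

/-!
Shared definitions: families of bases on doubled ground sets, weights, the algorithm.
-/

namespace Vale.Agent.P317

open Finset
open Vale.Agent.P328 (Ex val)

section

variable {E : Type} [Fintype E] [DecidableEq E]

/-- Number of copies of `e` in `S`. -/
def cnt (S : Finset (E × Bool)) (e : E) : ℕ :=
  (if (e, false) ∈ S then 1 else 0) + if (e, true) ∈ S then 1 else 0

/-- Exchange of two elements. -/
def sw (S : Finset (E × Bool)) (c d : E × Bool) : Finset (E × Bool) := insert d (S.erase c)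

/-- A family of bases of a matroid of rank `card E` on the doubled ground set. -/
structure Fam (B : Finset (Finset (E × Bool))) : Prop where
  card : ∀ S ∈ B, S.card = Fintype.card E
  exch : ∀ X ∈ B, ∀ Y ∈ B, ∀ x ∈ X, x ∉ Y → ∃ y ∈ Y, y ∉ X ∧ sw X x y ∈ B

/-- Product weight. -/
def wt (lo hi : E → ℝ) (S : Finset (E × Bool)) : ℝ :=
  ∏ e, if cnt S e = 0 then lo e else if cnt S e = 1 then 1 else hi e

/-- Transversals. -/
def Tr (S : Finset (E × Bool)) : Prop := ∀ e, cnt S e = 1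

instance : DecidablePred (Tr (E := E)) := fun _ => by unfold Tr; infer_instance

/-- The energy. -/
def W (j : ℕ) (k : E → ℤ) (S : Finset (E × Bool)) : ℤ :=
  ∑ e, (j * |(cnt S e : ℤ) - 1| + k e * ((cnt S e : ℤ) - 1))

/-- The Metropolis operator of the exchange chain. -/
noncomputable def Kop (B : Finset (Finset (E × Bool))) (w : Finset (E × Bool) → ℝ) (θ : ℝ)
    (F : Finset (E × Bool) → ℝ) (S : Finset (E × Bool)) : ℝ :=
  F S + θ * ∑ c, ∑ d, if c ∈ S ∧ d ∉ S ∧ sw S c d ∈ B then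
    min 1 (w (sw S c d) / w S) * (F (sw S c d) - F S) else 0

end

/-- Poincare inequality. -/
def PoinStmt (E : Type) [Fintype E] [DecidableEq E] : Prop :=
  ∀ B : Finset (Finset (E × Bool)), Fam B → ∀ (lo hi : E → ℝ) (t : ℝ), (∀ e, 0 < lo e) →
    (∀ e, 0 < hi e) → 0 < t → t ≤ 1 → (∀ e, lo e * hi e = t) → ∀ φ : Finset (E × Bool) → ℝ,
    ∃ m, t * ∑ S ∈ B, wt lo hi S * (φ S - m) ^ 2 ≤
      ∑ S ∈ B, ∑ c, ∑ d, if c ∈ S ∧ d ∉ S ∧ sw S c d ∈ B then
        min (wt lo hi S) (wt lo hi (sw S c d)) * (φ (sw S c d) - φ S) ^ 2 else 0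

/-- Log-concavity of the three levels of one coordinate. -/
def TriStmt (E : Type) [Fintype E] [DecidableEq E] : Prop :=
  ∀ B : Finset (Finset (E × Bool)), Fam B → ∀ lo hi : E → ℝ, (∀ e, 0 < lo e) →
    (∀ e, 0 < hi e) → (∀ e, lo e * hi e ≤ 1) → ∀ e, lo e = 1 → hi e = 1 →
    (∑ S ∈ B.filter (cnt · e = 0), wt lo hi S) * (∑ S ∈ B.filter (cnt · e = 2), wt lo hi S) ≤
      5 * (∑ S ∈ B.filter (cnt · e = 1), wt lo hi S) ^ 2

/-- Capacity bound: bounded potentials for which the transversals carry a fifth of the weight. -/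
def CapStmt (E : Type) [Fintype E] [DecidableEq E] : Prop :=
  ∀ B : Finset (Finset (E × Bool)), Fam B → (∃ S ∈ B, Tr S) → ∀ (γ : ℝ) (j G : ℕ),
    1 / 2 ≤ γ → γ < 1 → 14 * Fintype.card E * γ ^ j ≤ 1 →
    4 * 16 ^ Fintype.card E * γ ^ G ≤ γ ^ (j * Fintype.card E) →
    ∃ k : E → ℤ, (∀ e, 0 ≤ k e ∧ k e ≤ Fintype.card E * G) ∧
      ∑ S ∈ B, γ ^ W j k S ≤ 5 * (B.filter Tr).card

/-- Mixing. -/
def MixStmt (E : Type) [Fintype E] [DecidableEq E] : Prop :=
  ∀ B : Finset (Finset (E × Bool)), Fam B → ∀ (lo hi : E → ℝ) (t θ : ℝ), (∀ e, 0 < lo e) →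
    (∀ e, 0 < hi e) → 0 < t → t ≤ 1 → (∀ e, lo e * hi e = t) → 0 < θ → θ ≤ 1 →
    θ * (2 * Fintype.card E) ^ 2 ≤ 1 / 2 →
    ∀ F : Finset (E × Bool) → ℝ, (∀ S ∈ B, |F S| ≤ 1) → ∀ S0 ∈ B, ∀ T : ℕ,
    ((Kop B (wt lo hi) θ)^[T] F S0 - (∑ S ∈ B, wt lo hi S * F S) / ∑ S ∈ B, wt lo hi S) ^ 2 ≤
      4 * ((∑ S ∈ B, wt lo hi S) / wt lo hi S0) * (1 - θ * t / 2) ^ T

/-- States of the algorithm. -/
structure St (n : ℕ) where
  /-- Current base. -/
  S : Finset (Fin n × Bool)
  /-- Potentials. -/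
  k : Fin n → ℤ
  /-- Whether a transversal was found. -/
  fl : Bool
  /-- The transversal found. -/
  X : Finset (Fin n × Bool)
  /-- The last transversal of each kind. -/
  R : Bool → Finset (Fin n × Bool)
  /-- The number of transversals of each kind. -/
  c : Bool → ℕ
  /-- The stage. -/
  e : ℕ
  /-- The product of the counts. -/
  den : ℕ

/-- Iteration, each step reading its own block of bits. -/
def run {σ : Type} (F : List Bool → σ → σ) (L : ℕ) : ℕ → List Bool → σ → σ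
  | 0, _, x => x
  | T + 1, l, x => run F L T (l.drop L) (F (l.take L) x)

/-- The members that agree with `S` below `e`. -/
def res {n : ℕ} (B : Finset (Finset (Fin n × Bool))) (e : ℕ) (S : Finset (Fin n × Bool)) :
    Finset (Finset (Fin n × Bool)) :=
  B.filter fun T => ∀ c : Fin n × Bool, c.1.val < e → (c ∈ T ↔ c ∈ S)

/-- Which copy of `e` is used. -/
def bit {n : ℕ} (X : Finset (Fin n × Bool)) (e : ℕ) : Bool :=
  decide (∃ c ∈ X, c.1.val = e ∧ c.2 = true)

section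

variable {n : ℕ} (b : ℕ) (B : Finset (Finset (Fin n × Bool)))

/-- The base of all parameters. -/
def q : ℕ := 2 ^ b

/-- The base of the weights. -/
noncomputable def gam : ℝ := 1 - 1 / q b

/-- The price of a defect. -/
def jj : ℕ := q b * b

/-- Bits for the filter. -/
def K4 : ℕ := b * q b ^ 17

/-- Bits for one step. -/
def B0 : ℕ := 2 * b + 2 + K4 b

/-- Steps in one attempt. -/
def T1 : ℕ := q b ^ 25

/-- Attempts in one sample. -/
def T2 : ℕ := q b ^ 14

/-- Samples in one stage. -/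
def T3 : ℕ := q b ^ 3

/-- Increase of the energy. -/
def inc (x : St n) (c d : Fin n × Bool) : ℕ :=
  min (W (jj b) x.k (sw x.S c d) - W (jj b) x.k x.S).toNat (q b ^ 17)

/-- One exchange with the filter. -/
def fmove (x : St n) (c d : Fin n × Bool) (u : ℕ) : St n :=
  if c ∈ x.S ∧ d ∉ x.S ∧ x.e ≤ c.1.val ∧ x.e ≤ d.1.val ∧ sw x.S c d ∈ B ∧
      u * q b ^ inc b x c d < (q b - 1) ^ inc b x c d * 2 ^ K4 b then
    { x with S := sw x.S c d } else x

/-- One step of the chain. -/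
def fstep (l : List Bool) (x : St n) : St n :=
  if h : val (l.take b) < n ∧ val ((l.drop (b + 1)).take b) < n then
    fmove b B x (⟨_, h.1⟩, (l.drop b).headD false) (⟨_, h.2⟩, (l.drop (2 * b + 1)).headD false)
      (val ((l.drop (2 * b + 2)).take (K4 b))) else x

/-- End of an attempt. -/
def h1 (x : St n) : St n :=
  if x.fl = false ∧ Tr x.S then { x with fl := true, X := x.S }
  else { x with k := fun e => x.k e + ((cnt x.S e : ℤ) - 1) }

/-- End of a sample. -/
def h2 (x : St n) : St n :=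
  if x.fl = true then
    { x with
      k := fun _ => 0
      fl := false
      R := fun β => if β = bit x.X x.e then x.X else x.R β
      c := fun β => if β = bit x.X x.e then x.c β + 1 else x.c β }
  else { x with k := fun _ => 0 }

/-- End of a stage. -/
def h3 (x : St n) : St n :=
  { x with
    S := x.R (decide (x.c false ≤ x.c true))
    R := fun _ => x.R (decide (x.c false ≤ x.c true))
    c := fun _ => 0
    e := x.e + 1
    den := x.den * x.c (decide (x.c false ≤ x.c true)) }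

/-- One attempt. -/
def att (l : List Bool) (x : St n) : St n := h1 (run (fstep b B) (B0 b) (T1 b) l x)

/-- One sample. -/
def smp (l : List Bool) (x : St n) : St n := h2 (run (att b B) (T1 b * B0 b) (T2 b) l x)

/-- One stage. -/
def stg (l : List Bool) (x : St n) : St n :=
  h3 (run (smp b B) (T2 b * (T1 b * B0 b)) (T3 b) l x)

/-- The start. -/
def init (S : Finset (Fin n × Bool)) : St n :=
  ⟨S, fun _ => 0, false, S, fun _ => S, fun _ => 0, 0, 1⟩

/-- The denominator of the estimate. -/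
def fden (S : Finset (Fin n × Bool)) (l : List Bool) : ℕ :=
  (run (stg b B) (T3 b * (T2 b * (T1 b * B0 b))) n l (init S)).den

/-- One attempt ends near the stationary law. -/
def StepStmt : Prop :=
  ∀ x : St n, x.S ∈ B → (∀ e, |x.k e| ≤ T2 b) → ∀ H : Finset (Fin n × Bool) → ℝ,
    (∀ S ∈ res B x.e x.S, |H S| ≤ 1) →
    |Ex (T1 b * B0 b) (fun l => H (run (fstep b B) (B0 b) (T1 b) l x).S) -
      (∑ S ∈ res B x.e x.S, gam b ^ W (jj b) x.k S * H S) /
        ∑ S ∈ res B x.e x.S, gam b ^ W (jj b) x.k S| ≤ (1 / 2) ^ q b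

/-- One sample is a nearly uniform transversal. -/
def SampStmt : Prop :=
  ∀ x : St n, x.S ∈ B → (∀ e, x.k e = 0) → x.fl = false → (∃ S ∈ res B x.e x.S, Tr S) →
    ∀ β : Bool, |Ex (T2 b * (T1 b * B0 b)) (fun l => ((smp b B l x).c β : ℝ) - x.c β) -
      (((res B x.e x.S).filter fun S => Tr S ∧ bit S x.e = β).card : ℝ) /
        ((res B x.e x.S).filter Tr).card| ≤ 2 / (q b : ℝ) ^ 2

/-- The law of the estimate. -/
def LawStmt : Prop :=
  ∀ S ∈ B, ∀ k l P : ℕ, 0 < k → 8 * n * k ≤ q b → 16 * (l + n + 2) ≤ q b →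
    n * (T3 b * (T2 b * (T1 b * B0 b))) ≤ P →
    1 - 1 / 2 ^ l ≤ Ex P fun ρ =>
      if (1 - 1 / k : ℚ) * (B.filter Tr).card ≤ ((T3 b ^ n : ℕ) : ℚ) / fden b B S ρ ∧
        ((T3 b ^ n : ℕ) : ℚ) / fden b B S ρ ≤ (1 + 1 / k : ℚ) * (B.filter Tr).card then 1 else 0

end

/-- The final statement. -/
def FinalStmt : Prop :=
  ∃ (f : List ℕ × List Bool × List Bool → (Bool × List Bool) × ℕ × ℕ) (P : Polynomial ℕ),
    (∃ M : Turing.TM2ComputableInPolyTime codeIn codeOut f, ∀ k, Finite (M.tm.Γ k)) ∧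
    ∀ (n : ℕ) (M₁ M₂ : Matroid (Fin n)), M₁.E = Set.univ → M₂.E = Set.univ →
      M₁.eRank = M₂.eRank → ∀ ε δ : ℚ, 0 < ε → ε < 1 → 0 < δ → δ < 1 →
      ∀ T : ℕ, T = P.eval (n + ⌈ε⁻¹⌉₊ + Nat.size ⌈δ⁻¹⌉₊) →
      ∀ N : ℕ, N = {X | M₁.IsBase X ∧ M₂.IsBase X}.ncard →
      1 - δ ≤ ((univ.filter fun ρ : Fin T → Bool =>
        (1 - ε) * N ≤ estimate f (oracle M₁ M₂) [n, ε.num.toNat, ε.den, δ.num.toNat, δ.den]
          (List.ofFn ρ) T ∧
        estimate f (oracle M₁ M₂) [n, ε.num.toNat, ε.den, δ.num.toNat, δ.den]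
          (List.ofFn ρ) T ≤ (1 + ε) * N).card : ℚ) / 2 ^ T

end Vale.Agent.P317
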